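import Mathlib

set_option autoImplicit false
open MeasureTheory
open scoped ENNReal

namespace Crest.Agent.Cyl

abbrev E2 := EuclideanSpace ℝ (Fin 2)
abbrev E3 := EuclideanSpace ℝ (Fin 3)

section General

variable {E : Type*} [NormedAddCommGroup E] [InnerProductSpace ℝ E]

/-- Gram determinant of two vectors. -/
noncomputable def gram2 (a b : E) : ℝ :=
  ‖a‖ ^ 2 * ‖b‖ ^ 2 - (inner ℝ a b) ^ 2

lemma gram2_nonneg (a b : E) : 0 ≤ gram2 a b := by
  unfold gram2
  have h := abs_real_inner_le_norm a b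
  have h2 : (inner ℝ a b) ^ 2 ≤ (‖a‖ * ‖b‖) ^ 2 := by
    rw [← sq_abs (inner ℝ a b)]
    exact pow_le_pow_left₀ (abs_nonneg _) h 2
  nlinarith [h2]

/-- The linear map `x ↦ x 0 • a + x 1 • b`. -/
noncomputable def lin2 (a b : E) : E2 →ₗ[ℝ] E where
  toFun x := x 0 • a + x 1 • b
  map_add' x y := by simp [add_smul]; abel
  map_smul' c x := by simp [mul_smul, smul_add]

@[simp] lemma lin2_apply (a b : E) (x : E2) : lin2 a b x = x 0 • a + x 1 • b := rfl

lemma normDet_lin2 (a b : E) : (lin2 a b).normDet = Real.sqrt (gram2 a b) := by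
  have h := (lin2 a b).normDet_sq_eq_det_gram (EuclideanSpace.basisFun (Fin 2) ℝ)
  rw [Matrix.det_fin_two] at h
  simp [Matrix.gram] at h
  rw [real_inner_comm a b, ← sq] at h
  rw [gram2, ← h, Real.sqrt_sq (LinearMap.normDet_nonneg _)]

variable [MeasurableSpace E] [BorelSpace E]

/-- **Area formula** for linear images of planar sets. -/
theorem area_lin2_image (a b : E) (S : Set E2) :
    μHE[2] (lin2 a b '' S) = ENNReal.ofReal (Real.sqrt (gram2 a b)) * volume S := by
  have h := (lin2 a b).euclideanHausdorffMeasure_image_eq_normDet_mul_volume S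
  rw [normDet_lin2] at h
  simpa using h

/-- **Area formula** for affine images of planar sets. -/
theorem area_affine_image (c a b : E) (S : Set E2) :
    μHE[2] ((fun x : E2 => c + x 0 • a + x 1 • b) '' S) =
      ENNReal.ofReal (Real.sqrt (gram2 a b)) * volume S := by
  have h1 : (fun x : E2 => c + x 0 • a + x 1 • b) '' S = (fun y : E => c + y) '' (lin2 a b '' S) := by
    rw [Set.image_image]
    apply Set.image_congr
    intro x _
    simp [add_assoc]
  rw [h1, (isometry_add_left c).euclideanHausdorffMeasure_image, area_lin2_image]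

end General

/-- measurable equivalence `E2 ≃ ℝ × ℝ`. -/
noncomputable def e2prod : E2 ≃ᵐ ℝ × ℝ :=
  (MeasurableEquiv.toLp 2 (Fin 2 → ℝ)).symm.trans MeasurableEquiv.finTwoArrow

lemma e2prod_apply (x : E2) : e2prod x = (x 0, x 1) := rfl

lemma e2prod_mp : MeasurePreserving e2prod volume volume :=
  (EuclideanSpace.volume_preserving_symm_measurableEquiv_toLp (Fin 2)).trans
    (volume_preserving_finTwoArrow ℝ)

lemma volume_E2_eq (P : ℝ → ℝ → Prop) :
    volume {x : E2 | P (x 0) (x 1)} = volume {z : ℝ × ℝ | P z.1 z.2} := by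
  rw [← e2prod_mp.measure_preimage_equiv]
  rfl

theorem volume_unitSquare :
    volume {x : E2 | x 0 ∈ Set.Icc (0:ℝ) 1 ∧ x 1 ∈ Set.Icc (0:ℝ) 1} = 1 := by
  rw [volume_E2_eq (fun s t => s ∈ Set.Icc (0:ℝ) 1 ∧ t ∈ Set.Icc (0:ℝ) 1)]
  have : {z : ℝ × ℝ | z.1 ∈ Set.Icc (0:ℝ) 1 ∧ z.2 ∈ Set.Icc (0:ℝ) 1}
      = Set.Icc (0:ℝ) 1 ×ˢ Set.Icc (0:ℝ) 1 := by
    ext z; rfl
  rw [this, Measure.volume_eq_prod, Measure.prod_prod]
  simp

theorem volume_stdTriangle :
    volume {x : E2 | 0 ≤ x 0 ∧ 0 ≤ x 1 ∧ x 0 + x 1 ≤ 1} = ENNReal.ofReal (1 / 2) := by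
  rw [volume_E2_eq (fun s t => 0 ≤ s ∧ 0 ≤ t ∧ s + t ≤ 1)]
  have hm : MeasurableSet {z : ℝ × ℝ | 0 ≤ z.1 ∧ 0 ≤ z.2 ∧ z.1 + z.2 ≤ 1} := by
    apply IsClosed.measurableSet
    apply IsClosed.inter (isClosed_le continuous_const continuous_fst)
    apply IsClosed.inter (isClosed_le continuous_const continuous_snd)
    exact isClosed_le (continuous_fst.add continuous_snd) continuous_const
  rw [Measure.volume_eq_prod, Measure.prod_apply hm]
  have h1 : ∀ x : ℝ, volume (Prod.mk x ⁻¹' {z : ℝ × ℝ | 0 ≤ z.1 ∧ 0 ≤ z.2 ∧ z.1 + z.2 ≤ 1})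
      = (Set.Icc (0:ℝ) 1).indicator (fun x => ENNReal.ofReal (1 - x)) x := by
    intro x
    by_cases hx : x ∈ Set.Icc (0:ℝ) 1
    · rw [Set.indicator_of_mem hx]
      have : Prod.mk x ⁻¹' {z : ℝ × ℝ | 0 ≤ z.1 ∧ 0 ≤ z.2 ∧ z.1 + z.2 ≤ 1} = Set.Icc 0 (1 - x) := by
        ext y
        simp only [Set.mem_preimage, Set.mem_ofPred_eq, Set.mem_Icc]
        constructor
        · rintro ⟨_, h2, h3⟩; exact ⟨h2, by linarith⟩
        · rintro ⟨h2, h3⟩; exact ⟨hx.1, h2, by linarith⟩
      rw [this, Real.volume_Icc, sub_zero]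
    · rw [Set.indicator_of_notMem hx]
      have : Prod.mk x ⁻¹' {z : ℝ × ℝ | 0 ≤ z.1 ∧ 0 ≤ z.2 ∧ z.1 + z.2 ≤ 1} = ∅ := by
        ext y
        simp only [Set.mem_preimage, Set.mem_ofPred_eq, Set.mem_empty_iff_false, iff_false]
        rintro ⟨h1, h2, h3⟩
        exact hx ⟨h1, by linarith⟩
      rw [this, measure_empty]
  simp_rw [h1]
  rw [lintegral_indicator measurableSet_Icc]
  rw [← ofReal_integral_eq_lintegral_ofReal]
  · congr 1
    rw [integral_Icc_eq_integral_Ioc, ← intervalIntegral.integral_of_le zero_le_one]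
    rw [intervalIntegral.integral_sub (by simp) (by simp)]
    simp
    norm_num
  · exact (continuous_const.sub continuous_id).integrableOn_Icc
  · rw [Filter.EventuallyLE, ae_restrict_iff' measurableSet_Icc]
    exact Filter.Eventually.of_forall (fun x hx => by simpa using hx.2)


section Hull

variable {E : Type*} [AddCommGroup E] [Module ℝ E]

/-- Barycentric description of a triangle. -/
lemma mem_convexHull_triple {p q r x : E} :
    x ∈ convexHull ℝ {p, q, r} ↔
      ∃ s t : ℝ, 0 ≤ s ∧ 0 ≤ t ∧ s + t ≤ 1 ∧ x = p + s • (q - p) + t • (r - p) := by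
  constructor
  · intro hx
    rw [convexHull_insert (by simp), convexHull_pair, mem_convexJoin] at hx
    obtain ⟨a, ha, y, hy, hx⟩ := hx
    rw [Set.mem_singleton_iff] at ha
    subst ha
    obtain ⟨c, d, hc, hd, hcd, rfl⟩ := hy
    obtain ⟨a', b', ha', hb', hab', rfl⟩ := hx
    refine ⟨b' * c, b' * d, mul_nonneg hb' hc, mul_nonneg hb' hd, ?_, ?_⟩
    · rw [← mul_add, hcd, mul_one]; linarith
    · have h1 : a' = 1 - b' := by linarith
      have h2 : d = 1 - c := by linarith
      subst h1 h2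
      module
  · rintro ⟨s, t, hs, ht, hst, rfl⟩
    refine mem_convexHull_of_exists_fintype ![1 - s - t, s, t] ![p, q, r] ?_ ?_ ?_ ?_
    · intro i; fin_cases i <;> simp <;> linarith
    · simp [Fin.sum_univ_three]; ring
    · intro i; fin_cases i <;> simp
    · simp [Fin.sum_univ_three]; module

/-- Barycentric description of a tetrahedron. -/
lemma mem_convexHull_quad {p q r z x : E} :
    x ∈ convexHull ℝ {p, q, r, z} ↔
      ∃ a b c d : ℝ, 0 ≤ a ∧ 0 ≤ b ∧ 0 ≤ c ∧ 0 ≤ d ∧ a + b + c + d = 1 ∧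
        x = a • p + b • q + c • r + d • z := by
  constructor
  · intro hx
    rw [convexHull_insert (by simp), mem_convexJoin] at hx
    obtain ⟨a, ha, y, hy, hx⟩ := hx
    rw [Set.mem_singleton_iff] at ha
    subst ha
    obtain ⟨s, t, hs, ht, hst, rfl⟩ := mem_convexHull_triple.1 hy
    obtain ⟨a', b', ha', hb', hab', rfl⟩ := hx
    refine ⟨a', b' * (1 - s - t), b' * s, b' * t, ha', mul_nonneg hb' (by linarith),
      mul_nonneg hb' hs, mul_nonneg hb' ht, ?_, ?_⟩
    · linear_combination hab'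
    · module
  · rintro ⟨a, b, c, d, ha, hb, hc, hd, habcd, rfl⟩
    refine mem_convexHull_of_exists_fintype ![a, b, c, d] ![p, q, r, z] ?_ ?_ ?_ ?_
    · intro i; fin_cases i <;> simp <;> assumption
    · simp [Fin.sum_univ_four, habcd]
    · intro i; fin_cases i <;> simp
    · simp [Fin.sum_univ_four]

end Hull

section Shapes

variable {E : Type*} [NormedAddCommGroup E] [InnerProductSpace ℝ E]
  [MeasurableSpace E] [BorelSpace E]

/-- Area of a triangle. -/
theorem area_triangle' (p q r : E) :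
    μHE[2] (convexHull ℝ {p, q, r}) = ENNReal.ofReal (Real.sqrt (gram2 (q - p) (r - p)) / 2) := by
  have h : convexHull ℝ {p, q, r} = (fun x : E2 => p + x 0 • (q - p) + x 1 • (r - p)) ''
      {x : E2 | 0 ≤ x 0 ∧ 0 ≤ x 1 ∧ x 0 + x 1 ≤ 1} := by
    ext x
    rw [mem_convexHull_triple]
    constructor
    · rintro ⟨s, t, hs, ht, hst, rfl⟩
      exact ⟨!₂[s, t], by simpa using ⟨hs, ht, hst⟩, by simp⟩
    · rintro ⟨y, ⟨h0, h1, h2⟩, rfl⟩
      exact ⟨y 0, y 1, h0, h1, h2, rfl⟩
  rw [h, area_affine_image, volume_stdTriangle, ← ENNReal.ofReal_mul (Real.sqrt_nonneg _)]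
  congr 1
  ring

theorem area_triangle_toReal' (p q r : E) :
    (μHE[2] (convexHull ℝ {p, q, r})).toReal = Real.sqrt (gram2 (q - p) (r - p)) / 2 := by
  rw [area_triangle', ENNReal.toReal_ofReal (by positivity)]

/-- Area of a parallelogram. -/
theorem area_parallelogram' (c a b : E) :
    μHE[2] {x : E | ∃ s ∈ Set.Icc (0 : ℝ) 1, ∃ t ∈ Set.Icc (0 : ℝ) 1, x = c + s • a + t • b} =
      ENNReal.ofReal (Real.sqrt (gram2 a b)) := by
  have h : {x : E | ∃ s ∈ Set.Icc (0 : ℝ) 1, ∃ t ∈ Set.Icc (0 : ℝ) 1, x = c + s • a + t • b} =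
      (fun x : E2 => c + x 0 • a + x 1 • b) ''
      {x : E2 | x 0 ∈ Set.Icc (0:ℝ) 1 ∧ x 1 ∈ Set.Icc (0:ℝ) 1} := by
    ext x
    constructor
    · rintro ⟨s, hs, t, ht, rfl⟩
      exact ⟨!₂[s, t], by simpa using ⟨hs, ht⟩, by simp⟩
    · rintro ⟨y, ⟨h0, h1⟩, rfl⟩
      exact ⟨y 0, h0, y 1, h1, rfl⟩
  rw [h, area_affine_image, volume_unitSquare, mul_one]

theorem area_parallelogram_toReal' (c a b : E) :
    (μHE[2] {x : E | ∃ s ∈ Set.Icc (0 : ℝ) 1, ∃ t ∈ Set.Icc (0 : ℝ) 1,
      x = c + s • a + t • b}).toReal = Real.sqrt (gram2 a b) := by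
  rw [area_parallelogram', ENNReal.toReal_ofReal (by positivity)]

/-- Segments have zero area. -/
theorem area_segment (p q : E) : μHE[2] (segment ℝ p q) = 0 := by
  have h := area_triangle' p q q
  rw [Set.pair_eq_singleton, convexHull_pair] at h
  rw [h]
  have : gram2 (q - p) (q - p) = 0 := by
    unfold gram2
    rw [real_inner_self_eq_norm_sq]
    ring
  simp [this]

lemma measurableSet_triangle (p q r : E) : MeasurableSet (convexHull ℝ {p, q, r}) := by
  have hfin : ({p, q, r} : Set E).Finite := by simp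
  exact (hfin.isCompact_convexHull ℝ).isClosed.measurableSet

/-- Two triangles with a common side, lying on opposite sides of it: areas add up. -/
theorem area_union_triangles (φ : E →ₗ[ℝ] ℝ) (p q r r' : E) (hpq : φ p = φ q)
    (hr : φ p < φ r) (hr' : φ r' < φ p) :
    μHE[2] (convexHull ℝ {p, q, r} ∪ convexHull ℝ {p, q, r'}) =
      μHE[2] (convexHull ℝ {p, q, r}) + μHE[2] (convexHull ℝ {p, q, r'}) := by
  rw [← measure_union_add_inter _ (measurableSet_triangle p q r')]
  have h0 : μHE[2] (convexHull ℝ {p, q, r} ∩ convexHull ℝ {p, q, r'}) = 0 := by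
    apply measure_mono_null _ (area_segment p q)
    rintro x ⟨h1, h2⟩
    obtain ⟨s, t, hs, ht, hst, rfl⟩ := mem_convexHull_triple.1 h1
    obtain ⟨s', t', hs', ht', hst', h⟩ := mem_convexHull_triple.1 h2
    have h3 := congrArg φ h
    simp only [map_add, map_smul, map_sub, smul_eq_mul, ← hpq, sub_self, mul_zero, add_zero] at h3
    have h4 : t * (φ r - φ p) = t' * (φ r' - φ p) := by linarith
    have h5 : 0 ≤ t * (φ r - φ p) := mul_nonneg ht (by linarith)
    have h6 : t' * (φ r' - φ p) ≤ 0 := mul_nonpos_of_nonneg_of_nonpos ht' (by linarith)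
    have h7 : t * (φ r - φ p) = 0 := by linarith
    have h8 : t = 0 := by
      rcases mul_eq_zero.1 h7 with h | h
      · exact h
      · linarith
    subst h8
    refine ⟨1 - s, s, by linarith, hs, by ring, ?_⟩
    module
  rw [h0, add_zero]

end Shapes

section MuH

variable {X : Type*} [EMetricSpace X] [MeasurableSpace X] [BorelSpace X]

/-- `μH[2]` is a positive finite multiple of `μHE[2]`. -/
theorem exists_muH_eq_mul :
    ∃ κ : ℝ, 0 < κ ∧ ∀ S : Set X, (μH[(2 : ℝ)] S).toReal = κ * (μHE[2] S).toReal := by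
  set c := Measure.addHaarScalarFactor (volume : Measure (EuclideanSpace ℝ (Fin 2))) μH[(2 : ℕ)]
    with hc
  have hc0 : c ≠ 0 := Measure.addHaarScalarFactor_volume_hausdorffMeasure_ne_zero 2
  refine ⟨(c : ℝ)⁻¹, by positivity, fun S => ?_⟩
  rw [Measure.euclideanHausdorffMeasure_def, Measure.smul_apply, ← hc]
  have : ((2 : ℕ) : ℝ) = (2 : ℝ) := by norm_num
  rw [this, ENNReal.smul_def, smul_eq_mul, ENNReal.toReal_mul, ENNReal.coe_toReal, ← mul_assoc,
    inv_mul_cancel₀ (by exact_mod_cast hc0), one_mul]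

end MuH

section Proj

lemma inner_E3 (a b : E3) : inner ℝ a b = a 0 * b 0 + a 1 * b 1 + a 2 * b 2 := by
  simp [PiLp.inner_apply, Fin.sum_univ_three]
  ring

lemma norm_sq_E3 (a : E3) : ‖a‖ ^ 2 = a 0 ^ 2 + a 1 ^ 2 + a 2 ^ 2 := by
  rw [← real_inner_self_eq_norm_sq, inner_E3]; ring

lemma inner_E2 (a b : E2) : inner ℝ a b = a 0 * b 0 + a 1 * b 1 := by
  simp [PiLp.inner_apply, Fin.sum_univ_two]
  ring

lemma norm_sq_E2 (a : E2) : ‖a‖ ^ 2 = a 0 ^ 2 + a 1 ^ 2 := by
  rw [← real_inner_self_eq_norm_sq, inner_E2]; ring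

/-- `gram2` in coordinates: squared norm of the cross product. -/
lemma gram2_E3 (a b : E3) : gram2 a b =
    (a 1 * b 2 - a 2 * b 1) ^ 2 + (a 2 * b 0 - a 0 * b 2) ^ 2 + (a 0 * b 1 - a 1 * b 0) ^ 2 := by
  unfold gram2
  rw [norm_sq_E3, norm_sq_E3, inner_E3]; ring

lemma gram2_E2 (a b : E2) : gram2 a b = (a 0 * b 1 - a 1 * b 0) ^ 2 := by
  unfold gram2
  rw [norm_sq_E2, norm_sq_E2, inner_E2]; ring

/-- Gram determinant of two vectors (square of the area of the parallelogram they span). -/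
noncomputable def gram (a b : E3) : ℝ := ‖a‖ ^ 2 * ‖b‖ ^ 2 - (inner ℝ a b) ^ 2

lemma gram_eq_gram2 (a b : E3) : gram a b = gram2 a b := rfl

/-- Orthogonal projection along the (unit) vector `u`. -/
noncomputable def proj (u x : E3) : E3 := x - inner ℝ x u • u

/-- 3×3 determinant with rows `a b c`. -/
def det3 (a b c : E3) : ℝ :=
  a 0 * (b 1 * c 2 - b 2 * c 1) - a 1 * (b 0 * c 2 - b 2 * c 0) + a 2 * (b 0 * c 1 - b 1 * c 0)

theorem gram_nonneg (a b : E3) : 0 ≤ gram a b := gram2_nonneg a b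

/-- `gram` in coordinates: squared norm of the cross product. -/
lemma gram_E3 (a b : E3) : gram a b =
    (a 1 * b 2 - a 2 * b 1) ^ 2 + (a 2 * b 0 - a 0 * b 2) ^ 2 + (a 0 * b 1 - a 1 * b 0) ^ 2 :=
  gram2_E3 a b

/-- MAIN LEMMA: area of an affine image of a planar set. -/
theorem area_image (c a b : E3) (S : Set E2) :
    μHE[2] ((fun x : E2 => c + x 0 • a + x 1 • b) '' S)
      = ENNReal.ofReal (Real.sqrt (gram a b)) * volume S :=
  area_affine_image c a b S

theorem area_triangle (p q r : E3) :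
    μHE[2] (convexHull ℝ ({p, q, r} : Set E3))
      = ENNReal.ofReal (Real.sqrt (gram (q - p) (r - p)) / 2) :=
  area_triangle' p q r

theorem area_triangle_toReal (p q r : E3) :
    (μHE[2] (convexHull ℝ ({p, q, r} : Set E3))).toReal = Real.sqrt (gram (q - p) (r - p)) / 2 :=
  area_triangle_toReal' p q r

theorem area_parallelogram (c a b : E3) :
    μHE[2] {x : E3 | ∃ s ∈ Set.Icc (0 : ℝ) 1, ∃ t ∈ Set.Icc (0 : ℝ) 1, x = c + s • a + t • b}
      = ENNReal.ofReal (Real.sqrt (gram a b)) :=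
  area_parallelogram' c a b

theorem area_parallelogram_toReal (c a b : E3) :
    (μHE[2] {x : E3 | ∃ s ∈ Set.Icc (0 : ℝ) 1, ∃ t ∈ Set.Icc (0 : ℝ) 1,
      x = c + s • a + t • b}).toReal = Real.sqrt (gram a b) :=
  area_parallelogram_toReal' c a b

/-- The map `proj u` as a linear map. -/
noncomputable def projL (v : E3) : E3 →ₗ[ℝ] E3 where
  toFun y := proj v y
  map_add' x y := by simp only [proj, inner_add_left, add_smul]; abel
  map_smul' c x := by simp [proj, inner_smul_left, mul_smul, smul_sub]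

@[simp] lemma projL_apply (v y : E3) : projL v y = proj v y := rfl

lemma proj_sub (v x y : E3) : proj v (x - y) = proj v x - proj v y := (projL v).map_sub x y
lemma proj_add (v x y : E3) : proj v (x + y) = proj v x + proj v y := (projL v).map_add x y
lemma proj_smul (v : E3) (c : ℝ) (x : E3) : proj v (c • x) = c • proj v x := (projL v).map_smul c x

lemma proj_image_convexHull (v : E3) (S : Set E3) :
    (fun y => y - inner ℝ y v • v) '' convexHull ℝ S =
      convexHull ℝ ((fun y => y - inner ℝ y v • v) '' S) :=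
  (projL v).image_convexHull S

lemma proj_image_convexHull' (v : E3) (S : Set E3) :
    proj v '' convexHull ℝ S = convexHull ℝ (proj v '' S) :=
  (projL v).image_convexHull S

theorem inner_proj (u x : E3) (hu : ‖u‖ = 1) : inner ℝ (proj u x) u = 0 := by
  rw [proj, inner_sub_left, inner_smul_left, real_inner_self_eq_norm_sq, hu]; simp

theorem gram_proj (u a b : E3) (hu : ‖u‖ = 1) :
    gram (proj u a) (proj u b) = (det3 a b u) ^ 2 := by
  have hv2 : u 0 ^ 2 + u 1 ^ 2 + u 2 ^ 2 = 1 := by rw [← norm_sq_E3, hu]; norm_num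
  have h1 : ∀ a : E3, ‖a - inner ℝ a u • u‖ ^ 2 = ‖a‖ ^ 2 - (inner ℝ a u) ^ 2 := by
    intro a
    rw [← real_inner_self_eq_norm_sq, inner_sub_left, inner_sub_right, inner_sub_right,
      inner_smul_left, inner_smul_right, inner_smul_right, inner_smul_left,
      real_inner_self_eq_norm_sq, real_inner_self_eq_norm_sq, hu, real_inner_comm a u]
    simp; ring
  have h2 : inner ℝ (a - inner ℝ a u • u) (b - inner ℝ b u • u) =
      inner ℝ a b - inner ℝ a u * inner ℝ b u := by
    rw [inner_sub_left, inner_sub_right, inner_sub_right,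
      inner_smul_left, inner_smul_right, inner_smul_right, inner_smul_left,
      real_inner_self_eq_norm_sq, hu, real_inner_comm b u]
    simp
  unfold gram proj
  rw [h1, h1, h2, norm_sq_E3, norm_sq_E3, inner_E3, inner_E3, inner_E3, det3]
  have e : ∀ A B C α β N : ℝ, N = 1 → (A - α ^ 2) * (B - β ^ 2) - (C - α * β) ^ 2 =
      A * B * N + 2 * C * α * β - A * β ^ 2 - B * α ^ 2 - N * C ^ 2 := by
    intro A B C α β N hN; subst hN; ring
  rw [e _ _ _ _ _ _ hv2]
  ring

/-- area of the projected triangle -/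
theorem area_triangle_proj (u p q r : E3) (hu : ‖u‖ = 1) :
    μHE[2] (convexHull ℝ ({proj u p, proj u q, proj u r} : Set E3))
      = ENNReal.ofReal (|det3 (q - p) (r - p) u| / 2) := by
  rw [area_triangle, ← proj_sub, ← proj_sub, gram_proj _ _ _ hu, Real.sqrt_sq_eq_abs]

/-- Area of the projection of a triangle (image form, syntactically as in the statements). -/
theorem area_proj_image_triangle (v p q r : E3) (hv : ‖v‖ = 1) :
    μHE[2] ((fun y => y - inner ℝ y v • v) '' convexHull ℝ {p, q, r}) =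
      ENNReal.ofReal (|det3 (q - p) (r - p) v| / 2) := by
  rw [proj_image_convexHull, Set.image_insert_eq, Set.image_pair]
  exact area_triangle_proj v p q r hv

end Proj

section Plane

/-- an isometric parametrisation of the plane `u^⊥` (the basic tool for everything above) -/
theorem exists_plane_isometry (u : E3) (hu : ‖u‖ = 1) :
    ∃ ι : E2 →ₗᵢ[ℝ] E3, ∀ x : E3, inner ℝ x u = 0 ↔ x ∈ Set.range ι := by
  have hu0 : u ≠ 0 := by
    intro h; rw [h, norm_zero] at hu; exact zero_ne_one hu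
  have : Fact (Module.finrank ℝ E3 = 2 + 1) := ⟨by simp⟩
  let b : OrthonormalBasis (Fin 2) ℝ (ℝ ∙ u)ᗮ := OrthonormalBasis.fromOrthogonalSpanSingleton 2 hu0
  refine ⟨(ℝ ∙ u)ᗮ.subtypeₗᵢ.comp b.repr.symm.toLinearIsometry, fun x => ?_⟩
  rw [← Submodule.mem_orthogonal_singleton_iff_inner_left]
  constructor
  · intro hx
    exact ⟨b.repr ⟨x, hx⟩, by simp⟩
  · rintro ⟨y, rfl⟩
    simp

theorem area_isometry_image (ι : E2 →ₗᵢ[ℝ] E3) (S : Set E2) : μHE[2] (ι '' S) = volume S := by
  rw [ι.isometry.euclideanHausdorffMeasure_image, EuclideanSpace.euclideanHausdorffMeasure_eq_volume]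

/-- a planar set is the image of its preimage -/
lemma image_preimage_of_plane (u : E3) (ι : E2 →ₗᵢ[ℝ] E3)
    (hι : ∀ x : E3, inner ℝ x u = 0 ↔ x ∈ Set.range ι) (T : Set E3)
    (hTu : ∀ x ∈ T, inner ℝ x u = 0) : ι '' (ι ⁻¹' T) = T := by
  rw [Set.image_preimage_eq_inter_range]
  exact Set.inter_eq_left.2 (fun x hx => (hι x).1 (hTu x hx))

lemma isBounded_preimage_isometry (ι : E2 →ₗᵢ[ℝ] E3) (T : Set E3) (hT : Bornology.IsBounded T) :
    Bornology.IsBounded (ι ⁻¹' T) := by
  obtain ⟨R, hR⟩ := hT.subset_closedBall 0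
  refine (Metric.isBounded_closedBall (x := (0 : E2)) (r := R)).subset ?_
  intro y hy
  have := hR hy
  simpa using this

/-- bounded planar sets have finite area -/
theorem area_lt_top (u : E3) (hu : ‖u‖ = 1) (T : Set E3) (hT : Bornology.IsBounded T)
    (hTu : ∀ x ∈ T, inner ℝ x u = 0) : μHE[2] T < ⊤ := by
  obtain ⟨ι, hι⟩ := exists_plane_isometry u hu
  rw [← image_preimage_of_plane u ι hι T hTu, area_isometry_image]
  exact (isBounded_preimage_isometry ι T hT).measure_lt_top

/-- Outer regularity inside the plane `u^⊥`: a bounded subset `T` of the plane has a bounded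
relatively open superset with almost the same area. -/
theorem exists_open_base (u : E3) (hu : ‖u‖ = 1) (T : Set E3) (hT : Bornology.IsBounded T)
    (hTu : ∀ x ∈ T, inner ℝ x u = 0) (η : ℝ) (hη : 0 < η) :
    ∃ B : Set E3, Bornology.IsBounded B ∧
      (∃ O : Set E3, IsOpen O ∧ B = O ∩ {x | inner ℝ x u = 0}) ∧ T ⊆ B ∧
      μHE[2] B ≤ μHE[2] T + ENNReal.ofReal η := by
  obtain ⟨ι, hι⟩ := exists_plane_isometry u hu
  have hT' := image_preimage_of_plane u ι hι T hTu
  have hb := isBounded_preimage_isometry ι T hT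
  obtain ⟨R, hR⟩ := hb.subset_ball 0
  obtain ⟨U, hU1, hU2, hU3⟩ := (ι ⁻¹' T).exists_isOpen_le_add (volume : Measure E2)
    (ε := ENNReal.ofReal η) (by simpa using hη)
  set U' := U ∩ Metric.ball (0 : E2) R with hU'
  have hU'o : IsOpen U' := hU2.inter Metric.isOpen_ball
  -- continuous left inverse
  let ρ : E3 →L[ℝ] E2 := ι.toContinuousLinearMap.adjoint
  have hρ : ∀ y, ρ (ι y) = y := by
    intro y
    have := ι.adjoint_comp_self
    exact congrArg (fun f : E2 →L[ℝ] E2 => f y) this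
  refine ⟨ι '' U', ?_, ⟨ρ ⁻¹' U', hU'o.preimage ρ.continuous, ?_⟩, ?_, ?_⟩
  · refine (Metric.isBounded_ball (x := (0 : E3)) (r := R)).subset ?_
    rintro _ ⟨y, hy, rfl⟩
    simpa using hy.2
  · ext x
    constructor
    · rintro ⟨y, hy, rfl⟩
      exact ⟨by simpa [hρ] using hy, (hι _).2 ⟨y, rfl⟩⟩
    · rintro ⟨h1, h2⟩
      obtain ⟨y, rfl⟩ := (hι x).1 h2
      refine ⟨y, ?_, rfl⟩
      simpa [hρ] using h1
  · rw [← hT']
    exact Set.image_mono (Set.subset_inter hU1 hR)
  · rw [area_isometry_image, ← hT', area_isometry_image]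
    exact (measure_mono Set.inter_subset_left).trans hU3

theorem affineIndependent_of_gram_pos (p q r : E3) (h : 0 < gram (q - p) (r - p)) :
    AffineIndependent ℝ ![p, q, r] := by
  rw [affineIndependent_iff_not_collinear_set]
  intro hc
  rw [collinear_iff_of_mem (p₀ := p) (by simp)] at hc
  obtain ⟨v, hv⟩ := hc
  obtain ⟨a, ha⟩ := hv q (by simp)
  obtain ⟨b, hb⟩ := hv r (by simp)
  have h1 : q - p = a • v := by rw [ha]; simp
  have h2 : r - p = b • v := by rw [hb]; simp
  rw [h1, h2, gram, norm_smul, norm_smul, inner_smul_left, inner_smul_right,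
    real_inner_self_eq_norm_sq] at h
  simp only [Real.norm_eq_abs, mul_pow, sq_abs, conj_trivial] at h
  nlinarith

/-- lines in `E2` are null sets -/
lemma volume_line_E2 (n : E2) (hn : n ≠ 0) (c : ℝ) : volume {y : E2 | inner ℝ y n = c} = 0 := by
  have hn2 : 0 < ‖n‖ ^ 2 := by positivity
  set d : E2 := !₂[-n 1, n 0] with hd
  have hsub : {y : E2 | inner ℝ y n = c} ⊆
      (fun x : E2 => (c / ‖n‖ ^ 2) • n + x 0 • d + x 1 • (0 : E2)) '' Set.univ := by
    intro y hy
    refine ⟨!₂[inner ℝ y d / ‖n‖ ^ 2, 0], trivial, ?_⟩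
    have hy' : inner ℝ y n = c := hy
    rw [← hy']
    have hne : n 0 ^ 2 + n 1 ^ 2 ≠ 0 := by rw [← norm_sq_E2]; exact hn2.ne'
    ext i
    fin_cases i
    · simp [inner_E2, norm_sq_E2, hd]
      field_simp
      ring
    · simp [inner_E2, norm_sq_E2, hd]
      field_simp
      ring
  apply measure_mono_null hsub
  rw [← EuclideanSpace.euclideanHausdorffMeasure_eq_volume, area_affine_image]
  have : gram2 d (0 : E2) = 0 := by simp [gram2]
  simp [this]

/-- two planar sets on opposite sides of a line (inside the plane `u^⊥`): areas add.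
(`n` is the in-plane normal of the line.) -/
theorem area_union_of_opposite (S T : Set E3) (n : E3) (c : ℝ) (hn : n ≠ 0) (u : E3) (hu : ‖u‖ = 1)
    (hnu : inner ℝ n u = 0)
    (hSu : ∀ x ∈ S, inner ℝ x u = 0) (_hTu : ∀ x ∈ T, inner ℝ x u = 0)
    (hS : ∀ x ∈ S, c ≤ inner ℝ x n) (hT : ∀ x ∈ T, inner ℝ x n ≤ c)
    (_hSm : MeasurableSet S) (hTm : MeasurableSet T) :
    μHE[2] (S ∪ T) = μHE[2] S + μHE[2] T := by
  obtain ⟨ι, hι⟩ := exists_plane_isometry u hu
  obtain ⟨n', rfl⟩ := (hι n).1 hnu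
  have hn' : n' ≠ 0 := by
    rintro rfl; exact hn (map_zero _)
  rw [← measure_union_add_inter _ hTm]
  have h0 : μHE[2] (S ∩ T) = 0 := by
    have hsub : S ∩ T ⊆ ι '' {y : E2 | inner ℝ y n' = c} := by
      rintro x ⟨h1, h2⟩
      obtain ⟨y, rfl⟩ := (hι x).1 (hSu x h1)
      refine ⟨y, ?_, rfl⟩
      have h3 := hS _ h1
      have h4 := hT _ h2
      rw [ι.inner_map_map] at h3 h4
      exact le_antisymm h4 h3
    apply measure_mono_null hsub
    rw [area_isometry_image, volume_line_E2 n' hn']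
  rw [h0, add_zero]

/-- The unnormalised Hausdorff measure is a positive finite multiple of `μHE[2]`. -/
theorem exists_hausdorff_const :
    ∃ k : ℝ, 0 < k ∧ ∀ S : Set E3, (μH[(2 : ℝ)] S).toReal = k * (μHE[2] S).toReal :=
  exists_muH_eq_mul

end Plane

end Crest.Agent.Cyl
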