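import Crest.Agent.Cyl.Area

/-!
# Row 211: the standard regular tetrahedron (definitions)
-/

set_option autoImplicit false
open MeasureTheory
open scoped ENNReal

namespace Crest.Agent.Cyl

/-- The standard regular tetrahedron of S0324/S0325 (syntactically the set used there). -/
noncomputable def K : Set E3 :=
  convexHull ℝ {!₂[1, 0, 0], !₂[-1, 0, 0], !₂[0, 1, Real.sqrt 2], !₂[0, -1, Real.sqrt 2]}

/-- cylinder over the triangle `conv{p,q,r}` with axis `u` (syntactically as in S0324/S0325) -/
def triCyl (u p q r : E3) : Set E3 :=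
  {x : E3 | ∃ b ∈ convexHull ℝ {p, q, r}, ∃ t : ℝ, x = b + t • u}

/-- `K` in inequalities (`t = z/√2`): only this inclusion is needed. -/
theorem K_subset : K ⊆ {X : E3 | |X 0| ≤ 1 - X 2 / Real.sqrt 2 ∧ |X 1| ≤ X 2 / Real.sqrt 2} := by
  have hs : (0 : ℝ) < Real.sqrt 2 := by positivity
  apply convexHull_min
  · intro X hX
    simp only [Set.mem_insert_iff, Set.mem_singleton_iff] at hX
    rcases hX with rfl | rfl | rfl | rfl <;> simp [hs.ne']
  · -- convexity
    have h1 : Convex ℝ {X : E3 | |X 0| ≤ 1 - X 2 / Real.sqrt 2} := by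
      intro X hX Y hY a b ha hb hab
      simp only [Set.mem_ofPred_eq] at hX hY ⊢
      simp only [PiLp.add_apply, PiLp.smul_apply, smul_eq_mul]
      rw [abs_le] at hX hY ⊢
      have e : (a * X 2 + b * Y 2) / Real.sqrt 2 = a * (X 2 / Real.sqrt 2) + b * (Y 2 / Real.sqrt 2) := by
        ring
      rw [e]
      constructor <;> nlinarith [hX.1, hX.2, hY.1, hY.2]
    have h2 : Convex ℝ {X : E3 | |X 1| ≤ X 2 / Real.sqrt 2} := by
      intro X hX Y hY a b ha hb hab
      simp only [Set.mem_ofPred_eq] at hX hY ⊢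
      simp only [PiLp.add_apply, PiLp.smul_apply, smul_eq_mul]
      rw [abs_le] at hX hY ⊢
      have e : (a * X 2 + b * Y 2) / Real.sqrt 2 = a * (X 2 / Real.sqrt 2) + b * (Y 2 / Real.sqrt 2) := by
        ring
      rw [e]
      constructor <;> nlinarith [hX.1, hX.2, hY.1, hY.2]
    exact h1.inter h2

end Crest.Agent.Cyl
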