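import Crest.Agent.Cyl.FanArea
import Crest.Agent.Cyl.TetraDefs

/-!
# Row 211, module M2: the fan cover of the standard tetrahedron
-/

set_option autoImplicit false
open MeasureTheory
open scoped ENNReal

namespace Crest.Agent.Cyl.Fan

open Crest.Agent.Cyl

noncomputable section

lemma mem_triCyl (u P Q R X : E3) (l0 l1 l2 τ : ℝ) (h0 : 0 ≤ l0) (h1 : 0 ≤ l1) (h2 : 0 ≤ l2)
    (hs : l0 + l1 + l2 = 1) (hX : X = l0 • P + l1 • Q + l2 • R + τ • u) :
    X ∈ triCyl u (proj u P) (proj u Q) (proj u R) := by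
  refine ⟨l0 • proj u P + l1 • proj u Q + l2 • proj u R, ?_,
    l0 * inner ℝ P u + l1 * inner ℝ Q u + l2 * inner ℝ R u + τ, ?_⟩
  · have hc := convex_convexHull ℝ ({proj u P, proj u Q, proj u R} : Set E3)
    have := hc.sum_mem (t := Finset.univ) (w := ![l0, l1, l2]) (z := ![proj u P, proj u Q, proj u R])
      (by intro i _; fin_cases i <;> simp [h0, h1, h2])
      (by simp [Fin.sum_univ_three, hs])
      (by
        intro i _
        apply subset_convexHull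
        fin_cases i <;> simp)
    simpa [Fin.sum_univ_three] using this
  · rw [hX]
    unfold proj
    module

/-- half-height of the lower cylinders -/
def RR (A : ℝ) : ℝ := 1 / 2 + rr A

lemma RR_pos {A : ℝ} (h1 : -1 ≤ A) (h2 : A ≤ 1) : 0 < RR A := by
  have := (rr_bounds h1 h2).1
  unfold RR; linarith

def cc (A : ℝ) : ℝ := 1 + (A - del) * (A + del)

def Uvec (A : ℝ) : E3 := !₂[1, kap * cc A / 4, Real.sqrt 2 * (kap * A / 2)]
def Qv (A : ℝ) : E3 := !₂[0, (A - del) * RR A, Real.sqrt 2 * RR A]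
def Rv (A : ℝ) : E3 := !₂[0, (A + del) * RR A, Real.sqrt 2 * RR A]
def Uvec' (A : ℝ) : E3 := !₂[-(kap * cc A / 4), 1, -(Real.sqrt 2 * (kap * A / 2))]
def Pv' : E3 := !₂[0, 0, Real.sqrt 2]
def Qv' (A : ℝ) : E3 := !₂[-((A - del) * RR A), 0, Real.sqrt 2 - Real.sqrt 2 * RR A]
def Rv' (A : ℝ) : E3 := !₂[-((A + del) * RR A), 0, Real.sqrt 2 - Real.sqrt 2 * RR A]

lemma sqrt2_sq : Real.sqrt 2 * Real.sqrt 2 = 2 := Real.mul_self_sqrt (by norm_num)

lemma norm_Uvec (A : ℝ) : ‖Uvec A‖ = Real.sqrt (1 + uu A) := by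
  rw [EuclideanSpace.norm_eq]
  congr 1
  simp only [Fin.sum_univ_three, Uvec, Real.norm_eq_abs, sq_abs]
  simp
  unfold uu cc
  nlinarith [sqrt2_sq]

lemma norm_Uvec' (A : ℝ) : ‖Uvec' A‖ = Real.sqrt (1 + uu A) := by
  rw [EuclideanSpace.norm_eq]
  congr 1
  simp only [Fin.sum_univ_three, Uvec', Real.norm_eq_abs, sq_abs]
  simp
  unfold uu cc
  nlinarith [sqrt2_sq]

lemma uu_nonneg (A : ℝ) : 0 ≤ uu A := by unfold uu kap; positivity

lemma sq_pos' (A : ℝ) : 0 < Real.sqrt (1 + uu A) := Real.sqrt_pos.mpr (by linarith [uu_nonneg A])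

def uvec (A : ℝ) : E3 := (Real.sqrt (1 + uu A))⁻¹ • Uvec A
def uvec' (A : ℝ) : E3 := (Real.sqrt (1 + uu A))⁻¹ • Uvec' A

lemma norm_uvec (A : ℝ) : ‖uvec A‖ = 1 := by
  unfold uvec
  rw [norm_smul, norm_Uvec, Real.norm_eq_abs, abs_of_pos (inv_pos.mpr (sq_pos' A))]
  exact inv_mul_cancel₀ (sq_pos' A).ne'

lemma norm_uvec' (A : ℝ) : ‖uvec' A‖ = 1 := by
  unfold uvec'
  rw [norm_smul, norm_Uvec', Real.norm_eq_abs, abs_of_pos (inv_pos.mpr (sq_pos' A))]
  exact inv_mul_cancel₀ (sq_pos' A).ne'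

lemma del_pos : 0 < del := by unfold del; norm_num

/-- lower membership -/
lemma mem_low {A : ℝ} (h1 : -1 ≤ A) (h2 : A ≤ 1) (X : E3)
    (h : LowCond A (X 0) (X 1) (X 2 / Real.sqrt 2)) :
    X ∈ triCyl (uvec A) (proj (uvec A) 0) (proj (uvec A) (Qv A)) (proj (uvec A) (Rv A)) := by
  obtain ⟨ha, hb, hc⟩ := h
  have hR := RR_pos h1 h2
  have hd := del_pos
  have hs2 : Real.sqrt 2 ≠ 0 := by positivity
  set P := X 2 / Real.sqrt 2 - kap * A * X 0 / 2 with hP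
  set Y := X 1 - kap * X 0 * (1 + (A - del) * (A + del)) / 4 with hY
  have hP0 : 0 ≤ P := by nlinarith
  refine mem_triCyl (uvec A) 0 (Qv A) (Rv A) X (1 - P / RR A) (((A + del) * P - Y) / (2 * del * RR A))
    ((Y - (A - del) * P) / (2 * del * RR A)) (X 0 * Real.sqrt (1 + uu A)) ?_ ?_ ?_ ?_ ?_
  · rw [sub_nonneg, div_le_one hR]; exact hc
  · apply div_nonneg (by linarith) (by positivity)
  · apply div_nonneg (by linarith) (by positivity)
  · field_simp; ring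
  · have hsq := (sq_pos' A).ne'
    ext i
    fin_cases i
    · simp [uvec, Uvec, Qv, Rv]
      field_simp
    · simp [uvec, Uvec, Qv, Rv, cc]
      field_simp
      rw [hY]
      ring
    · simp [uvec, Uvec, Qv, Rv]
      field_simp
      rw [hP]
      field_simp
      ring

/-- upper membership -/
lemma mem_up {A : ℝ} (h1 : -1 ≤ A) (h2 : A ≤ 1) (X : E3)
    (h : LowCond A (X 1) (-(X 0)) (1 - X 2 / Real.sqrt 2)) :
    X ∈ triCyl (uvec' A) (proj (uvec' A) Pv') (proj (uvec' A) (Qv' A)) (proj (uvec' A) (Rv' A)) := by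
  obtain ⟨ha, hb, hc⟩ := h
  have hR := RR_pos h1 h2
  have hd := del_pos
  have hs2 : Real.sqrt 2 ≠ 0 := by positivity
  set P := (1 - X 2 / Real.sqrt 2) - kap * A * X 1 / 2 with hP
  set Y := -(X 0) - kap * X 1 * (1 + (A - del) * (A + del)) / 4 with hY
  have hP0 : 0 ≤ P := by nlinarith
  refine mem_triCyl (uvec' A) Pv' (Qv' A) (Rv' A) X (1 - P / RR A)
    (((A + del) * P - Y) / (2 * del * RR A))
    ((Y - (A - del) * P) / (2 * del * RR A)) (X 1 * Real.sqrt (1 + uu A)) ?_ ?_ ?_ ?_ ?_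
  · rw [sub_nonneg, div_le_one hR]; exact hc
  · apply div_nonneg (by linarith) (by positivity)
  · apply div_nonneg (by linarith) (by positivity)
  · field_simp; ring
  · have hsq := (sq_pos' A).ne'
    ext i
    fin_cases i
    · simp [uvec', Uvec', Qv', Rv', Pv', cc]
      field_simp
      rw [hY]
      ring
    · simp [uvec', Uvec', Qv', Rv', Pv']
      field_simp
    · simp [uvec', Uvec', Qv', Rv', Pv']
      field_simp
      rw [hP]
      field_simp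
      ring

lemma area_low {A : ℝ} (h1 : -1 ≤ A) (h2 : A ≤ 1) :
    (μHE[2] (convexHull ℝ ({proj (uvec A) 0, proj (uvec A) (Qv A), proj (uvec A) (Rv A)} : Set E3))).toReal
      = Real.sqrt 2 * areaTerm A := by
  rw [area_triangle_proj _ _ _ _ (norm_uvec A)]
  have hR := RR_pos h1 h2
  have hd := del_pos
  have hsq := sq_pos' A
  have e : det3 (Qv A - 0) (Rv A - 0) (uvec A)
      = -(2 * (Real.sqrt 2 * (del * RR A ^ 2 / Real.sqrt (1 + uu A)))) := by
    simp [det3, uvec, Uvec, Qv, Rv]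
    field_simp
    ring
  rw [e, abs_neg, abs_of_nonneg (by positivity), ENNReal.toReal_ofReal (by positivity)]
  unfold areaTerm RR
  ring

lemma area_up {A : ℝ} (h1 : -1 ≤ A) (h2 : A ≤ 1) :
    (μHE[2] (convexHull ℝ ({proj (uvec' A) Pv', proj (uvec' A) (Qv' A), proj (uvec' A) (Rv' A)} : Set E3))).toReal
      = Real.sqrt 2 * areaTerm A := by
  rw [area_triangle_proj _ _ _ _ (norm_uvec' A)]
  have hR := RR_pos h1 h2
  have hd := del_pos
  have hsq := sq_pos' A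
  have e : det3 (Qv' A - Pv') (Rv' A - Pv') (uvec' A)
      = (2 * (Real.sqrt 2 * (del * RR A ^ 2 / Real.sqrt (1 + uu A)))) := by
    simp [det3, uvec', Uvec', Qv', Rv', Pv']
    field_simp
    ring
  rw [e, abs_of_nonneg (by positivity), ENNReal.toReal_ofReal (by positivity)]
  unfold areaTerm RR
  ring

/-- the cover, indexed by `Fin NN ⊕ Fin NN` -/
def fu : Fin NN ⊕ Fin NN → E3 := Sum.elim (fun i => uvec (mid i)) (fun i => uvec' (mid i))
def fp : Fin NN ⊕ Fin NN → E3 :=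
  Sum.elim (fun i => proj (uvec (mid i)) 0) (fun i => proj (uvec' (mid i)) Pv')
def fq : Fin NN ⊕ Fin NN → E3 :=
  Sum.elim (fun i => proj (uvec (mid i)) (Qv (mid i))) (fun i => proj (uvec' (mid i)) (Qv' (mid i)))
def fr : Fin NN ⊕ Fin NN → E3 :=
  Sum.elim (fun i => proj (uvec (mid i)) (Rv (mid i))) (fun i => proj (uvec' (mid i)) (Rv' (mid i)))

lemma fu_norm (i : Fin NN ⊕ Fin NN) : ‖fu i‖ = 1 := by
  rcases i with i | i
  · exact norm_uvec _
  · exact norm_uvec' _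

lemma f_orth (i : Fin NN ⊕ Fin NN) :
    inner ℝ (fp i) (fu i) = 0 ∧ inner ℝ (fq i) (fu i) = 0 ∧ inner ℝ (fr i) (fu i) = 0 := by
  rcases i with i | i
  · exact ⟨inner_proj _ _ (norm_uvec _), inner_proj _ _ (norm_uvec _), inner_proj _ _ (norm_uvec _)⟩
  · exact ⟨inner_proj _ _ (norm_uvec' _), inner_proj _ _ (norm_uvec' _), inner_proj _ _ (norm_uvec' _)⟩

lemma f_cover : K ⊆ ⋃ i, triCyl (fu i) (fp i) (fq i) (fr i) := by
  intro X hX
  obtain ⟨hx, hy⟩ := K_subset hX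
  rcases cover_core (X 0) (X 1) (X 2 / Real.sqrt 2) hx hy with ⟨i, hi, h⟩ | ⟨j, hj, h⟩
  · exact Set.mem_iUnion.mpr ⟨Sum.inl ⟨i, hi⟩, mem_low (mid_lo i) (mid_hi hi) X h⟩
  · exact Set.mem_iUnion.mpr ⟨Sum.inr ⟨j, hj⟩, mem_up (mid_lo j) (mid_hi hj) X h⟩

lemma f_area : ∑ i, (μHE[2] (convexHull ℝ ({fp i, fq i, fr i} : Set E3))).toReal
    ≤ Real.sqrt 2 * (1 / 2 - 1 / 10 ^ 7) := by
  rw [Fintype.sum_sum_type]
  have e1 : ∑ i : Fin NN, (μHE[2] (convexHull ℝ ({fp (Sum.inl i), fq (Sum.inl i), fr (Sum.inl i)} : Set E3))).toReal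
      = Real.sqrt 2 * ∑ i ∈ Finset.range NN, areaTerm (mid i) := by
    rw [Finset.mul_sum, ← Fin.sum_univ_eq_sum_range (fun i => Real.sqrt 2 * areaTerm (mid i))]
    apply Finset.sum_congr rfl
    intro i _
    exact area_low (mid_lo i) (mid_hi i.2)
  have e2 : ∑ i : Fin NN, (μHE[2] (convexHull ℝ ({fp (Sum.inr i), fq (Sum.inr i), fr (Sum.inr i)} : Set E3))).toReal
      = Real.sqrt 2 * ∑ i ∈ Finset.range NN, areaTerm (mid i) := by
    rw [Finset.mul_sum, ← Fin.sum_univ_eq_sum_range (fun i => Real.sqrt 2 * areaTerm (mid i))]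
    apply Finset.sum_congr rfl
    intro i _
    exact area_up (mid_lo i) (mid_hi i.2)
  rw [e1, e2]
  have h := sum_areaTerm_le
  have hs : 0 ≤ Real.sqrt 2 := Real.sqrt_nonneg 2
  nlinarith

/-- M2: the fan cover. -/
theorem fan_cover' : ∃ (m : ℕ) (u p q r : Fin m → E3), m ≤ 1000000 ∧
    (∀ i, ‖u i‖ = 1) ∧
    (∀ i, inner ℝ (p i) (u i) = 0 ∧ inner ℝ (q i) (u i) = 0 ∧ inner ℝ (r i) (u i) = 0) ∧
    K ⊆ ⋃ i, triCyl (u i) (p i) (q i) (r i) ∧
    ∑ i, (μHE[2] (convexHull ℝ ({p i, q i, r i} : Set E3))).toReal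
      ≤ Real.sqrt 2 * (1 / 2 - 1 / 10 ^ 7) := by
  let e := Fintype.equivFin (Fin NN ⊕ Fin NN)
  refine ⟨Fintype.card (Fin NN ⊕ Fin NN), fu ∘ e.symm, fp ∘ e.symm, fq ∘ e.symm, fr ∘ e.symm,
    ?_, ?_, ?_, ?_, ?_⟩
  · rw [Fintype.card_sum, Fintype.card_fin]; norm_num [NN]
  · intro i; exact fu_norm _
  · intro i; exact f_orth _
  · intro X hX
    obtain ⟨i, hi⟩ := Set.mem_iUnion.mp (f_cover hX)
    refine Set.mem_iUnion.mpr ⟨e i, ?_⟩
    simpa using hi
  · have := Equiv.sum_comp e.symm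
      (fun i => (μHE[2] (convexHull ℝ ({fp i, fq i, fr i} : Set E3))).toReal)
    simp only [Function.comp] 
    rw [this]
    exact f_area

end

end Crest.Agent.Cyl.Fan
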