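import Crest.Agent.Cyl.FanCore

/-!
# Row 211, module M2 (fan cover): the sum of the base areas, discrete IVT, covering in coordinates
-/

set_option autoImplicit false

namespace Crest.Agent.Cyl.Fan

noncomputable section

/-- number of wedges per half -/
def NN : ℕ := 100000

/-- nodes -/
def th (i : ℕ) : ℝ := -1 + 2 * (i : ℝ) * del
/-- midpoints -/
def mid (i : ℕ) : ℝ := -1 + (2 * (i : ℝ) + 1) * del

lemma mid_sub (i : ℕ) : mid i - del = th i := by unfold mid th; ring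
lemma mid_add (i : ℕ) : mid i + del = th (i + 1) := by unfold mid th; push_cast; ring
lemma th_zero : th 0 = -1 := by unfold th; simp
lemma th_NN : th NN = 1 := by unfold th NN del; norm_num
lemma mid_lo (i : ℕ) : -1 ≤ mid i := by
  unfold mid del
  have : (0 : ℝ) ≤ i := Nat.cast_nonneg i
  linarith
lemma mid_hi {i : ℕ} (hi : i < NN) : mid i ≤ 1 := by
  unfold mid del
  have h1 : (i : ℝ) + 1 ≤ (NN : ℝ) := by exact_mod_cast hi
  unfold NN at h1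
  push_cast at h1
  linarith

/-- squared norm of the axis vector minus one -/
def uu (A : ℝ) : ℝ := kap ^ 2 * ((1 + (A - del) * (A + del)) ^ 2 + 8 * A ^ 2) / 16

/-- (base area of one cylinder) / √2 -/
def areaTerm (A : ℝ) : ℝ := del * (1 / 2 + rr A) ^ 2 / Real.sqrt (1 + uu A)

def Psi (t : ℝ) : ℝ :=
  1 / 8 * ((1 + kap ^ 2 * (4 * sig - 1 / 32 + 1 / 1000)) * t + kap ^ 2 * (-t ^ 3 / 48 + 7 * t ^ 5 / 160))

lemma inv_sqrt_le {u : ℝ} (hu : 0 ≤ u) : 1 / Real.sqrt (1 + u) ≤ 1 - u / 2 + 3 * u ^ 2 / 8 := by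
  have hv : 0 < 1 - u / 2 + 3 * u ^ 2 / 8 := by nlinarith [sq_nonneg (u - 2 / 3)]
  have h1 : 0 < 1 + u := by linarith
  have hs : 0 < Real.sqrt (1 + u) := Real.sqrt_pos.mpr h1
  rw [div_le_iff₀ hs]
  have h2 : (1 : ℝ) ≤ (1 - u / 2 + 3 * u ^ 2 / 8) ^ 2 * (1 + u) := by
    have : (1 - u / 2 + 3 * u ^ 2 / 8) ^ 2 * (1 + u) - 1
        = u ^ 3 * (5 / 8 - 15 / 64 * u + 9 / 64 * u ^ 2) := by ring
    have h3 : 0 ≤ 5 / 8 - 15 / 64 * u + 9 / 64 * u ^ 2 := by nlinarith [sq_nonneg (u - 5 / 6)]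
    have h4 : 0 ≤ u ^ 3 * (5 / 8 - 15 / 64 * u + 9 / 64 * u ^ 2) := by positivity
    linarith
  have h5 : ((1 - u / 2 + 3 * u ^ 2 / 8) * Real.sqrt (1 + u)) ^ 2
      = (1 - u / 2 + 3 * u ^ 2 / 8) ^ 2 * (1 + u) := by
    rw [mul_pow, Real.sq_sqrt h1.le]
  have h6 : 0 ≤ (1 - u / 2 + 3 * u ^ 2 / 8) * Real.sqrt (1 + u) := by positivity
  nlinarith

lemma rr_bounds {A : ℝ} (h1 : -1 ≤ A) (h2 : A ≤ 1) : 0 ≤ rr A ∧ rr A ≤ 13 / 10 ^ 6 := by
  have hw : 0 ≤ A ^ 2 := sq_nonneg A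
  have hw1 : A ^ 2 ≤ 1 := aux_sq_le_one h1 h2
  have hw4 : A ^ 4 ≤ 1 := by nlinarith
  have hw40 : 0 ≤ A ^ 4 := by positivity
  unfold rr kap sig
  constructor
  · positivity
  · linarith

lemma uu_bounds {A : ℝ} (h1 : -1 ≤ A) (h2 : A ≤ 1) : 0 ≤ uu A ∧ uu A ≤ 76 / 10 ^ 6 := by
  have hw : 0 ≤ A ^ 2 := sq_nonneg A
  have hw1 : A ^ 2 ≤ 1 := aux_sq_le_one h1 h2
  unfold uu
  constructor
  · unfold kap; positivity
  · have hc0 : 0 ≤ 1 + (A - del) * (A + del) := by unfold del; nlinarith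
    have hc2 : 1 + (A - del) * (A + del) ≤ 2 := by unfold del; nlinarith
    have hc : (1 + (A - del) * (A + del)) ^ 2 ≤ 4 := by nlinarith
    unfold kap
    linarith

lemma aux_prod {r u : ℝ} (hr0 : 0 ≤ r) (hr : r ≤ 13 / 10 ^ 6) (hu0 : 0 ≤ u) (hu : u ≤ 76 / 10 ^ 6) :
    (1 / 2 + r) ^ 2 * (1 - u / 2 + 3 * u ^ 2 / 8) ≤ 1 / 4 + r - u / 8 + 1 / 10 ^ 9 := by
  have e : (1 / 2 + r) ^ 2 * (1 - u / 2 + 3 * u ^ 2 / 8)
      = 1 / 4 + r - u / 8 + (3 * u ^ 2 / 32 + r ^ 2 + 3 * r * u ^ 2 / 8 + 3 * r ^ 2 * u ^ 2 / 8)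
        - (r * u / 2 + r ^ 2 * u / 2) := by ring
  have hu2 : u ^ 2 ≤ (76 / 10 ^ 6) ^ 2 := by nlinarith
  have hr2 : r ^ 2 ≤ (13 / 10 ^ 6) ^ 2 := by nlinarith
  have hu20 : 0 ≤ u ^ 2 := sq_nonneg u
  have hr20 : 0 ≤ r ^ 2 := sq_nonneg r
  have h1 : r * u ^ 2 ≤ (13 / 10 ^ 6) * (76 / 10 ^ 6) ^ 2 := mul_le_mul hr hu2 hu20 (by norm_num)
  have h2 : r ^ 2 * u ^ 2 ≤ (13 / 10 ^ 6) ^ 2 * (76 / 10 ^ 6) ^ 2 := mul_le_mul hr2 hu2 hu20 (by norm_num)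
  have h3 : 0 ≤ r * u := mul_nonneg hr0 hu0
  have h4 : 0 ≤ r ^ 2 * u := mul_nonneg hr20 hu0
  rw [e]
  norm_num at h1 h2 hu2 hr2 ⊢
  linarith

lemma areaTerm_le {A : ℝ} (h1 : -1 ≤ A) (h2 : A ≤ 1) :
    areaTerm A ≤ Psi (A + del) - Psi (A - del) := by
  obtain ⟨hr0, hr⟩ := rr_bounds h1 h2
  obtain ⟨hu0, hu⟩ := uu_bounds h1 h2
  have hd : 0 < del := by unfold del; norm_num
  have s1 : areaTerm A ≤ del * ((1 / 2 + rr A) ^ 2 * (1 - uu A / 2 + 3 * uu A ^ 2 / 8)) := by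
    unfold areaTerm
    have := inv_sqrt_le hu0
    have h0 : 0 ≤ del * (1 / 2 + rr A) ^ 2 := by positivity
    calc del * (1 / 2 + rr A) ^ 2 / Real.sqrt (1 + uu A)
        = del * (1 / 2 + rr A) ^ 2 * (1 / Real.sqrt (1 + uu A)) := by ring
      _ ≤ del * (1 / 2 + rr A) ^ 2 * (1 - uu A / 2 + 3 * uu A ^ 2 / 8) :=
          mul_le_mul_of_nonneg_left this h0
      _ = _ := by ring
  have s2 := mul_le_mul_of_nonneg_left (aux_prod hr0 hr hu0 hu) hd.le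
  have s3 : del * (1 / 4 + rr A - uu A / 8 + 1 / 10 ^ 9) ≤ Psi (A + del) - Psi (A - del) := by
    have hw : 0 ≤ A ^ 2 := sq_nonneg A
    have hw1 : A ^ 2 ≤ 1 := aux_sq_le_one h1 h2
    have hw4 : 0 ≤ A ^ 4 := by positivity
    unfold Psi rr uu kap sig del
    nlinarith
  linarith

lemma sum_areaTerm_le : ∑ i ∈ Finset.range NN, areaTerm (mid i) ≤ 1 / 4 - 8 / 10 ^ 8 := by
  have h1 : ∑ i ∈ Finset.range NN, areaTerm (mid i)
      ≤ ∑ i ∈ Finset.range NN, (Psi (th (i + 1)) - Psi (th i)) := by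
    apply Finset.sum_le_sum
    intro i hi
    have hi' : i < NN := Finset.mem_range.mp hi
    have := areaTerm_le (mid_lo i) (mid_hi hi')
    rwa [mid_add, mid_sub] at this
  rw [Finset.sum_range_sub (fun i => Psi (th i)), th_NN, th_zero] at h1
  have h2 : Psi 1 - Psi (-1) ≤ 1 / 4 - 8 / 10 ^ 8 := by
    unfold Psi kap sig; norm_num
  linarith

/-- discrete intermediate value theorem -/
lemma disc_ivt (f : ℕ → ℝ) (n : ℕ) (h0 : 0 ≤ f 0) (hn : f (n + 1) ≤ 0) :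
    ∃ i, i < n + 1 ∧ 0 ≤ f i ∧ f (i + 1) ≤ 0 := by
  induction n with
  | zero => exact ⟨0, by norm_num, h0, hn⟩
  | succ n ih =>
    by_cases h : f (n + 1) ≤ 0
    · obtain ⟨i, hi, h1, h2⟩ := ih h
      exact ⟨i, by omega, h1, h2⟩
    · exact ⟨n + 1, by omega, (not_le.mp h).le, hn⟩

/-- the condition "(x,y,t) lies in the lower cylinder with mid-parameter `A`" -/
def LowCond (A x y t : ℝ) : Prop :=
  (A - del) * (t - kap * A * x / 2) ≤ y - kap * x * (1 + (A - del) * (A + del)) / 4 ∧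
  y - kap * x * (1 + (A - del) * (A + del)) / 4 ≤ (A + del) * (t - kap * A * x / 2) ∧
  t - kap * A * x / 2 ≤ 1 / 2 + rr A

lemma exists_wedge (x y t : ℝ) (hy : |y| ≤ t) : ∃ i, i < NN ∧
    (mid i - del) * (t - kap * mid i * x / 2) ≤ y - kap * x * (1 + (mid i - del) * (mid i + del)) / 4 ∧
    y - kap * x * (1 + (mid i - del) * (mid i + del)) / 4 ≤ (mid i + del) * (t - kap * mid i * x / 2) := by
  obtain ⟨hy1, hy2⟩ := abs_le.mp hy
  have := disc_ivt (fun i => y - th i * t - kap * (1 - th i ^ 2) * x / 4) (NN - 1)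
    (by simp only [th_zero]; linarith)
    (by
      have : NN - 1 + 1 = NN := by unfold NN; norm_num
      simp only [this, th_NN]; linarith)
  obtain ⟨i, hi, h1, h2⟩ := this
  refine ⟨i, by unfold NN at hi ⊢; omega, ?_, ?_⟩
  · have e : mid i = th i + del := by rw [← mid_sub]; ring
    rw [e]
    nlinarith
  · have e : mid i = th (i + 1) - del := by rw [← mid_add]; ring
    rw [e]
    nlinarith

theorem cover_core (x y t : ℝ) (hx : |x| ≤ 1 - t) (hy : |y| ≤ t) :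
    (∃ i, i < NN ∧ LowCond (mid i) x y t) ∨ (∃ j, j < NN ∧ LowCond (mid j) y (-x) (1 - t)) := by
  obtain ⟨i, hi, h1, h2⟩ := exists_wedge x y t hy
  obtain ⟨j, hj, h3, h4⟩ := exists_wedge y (-x) (1 - t) (by rwa [abs_neg])
  by_cases hP : t - kap * mid i * x / 2 ≤ 1 / 2 + rr (mid i)
  · exact Or.inl ⟨i, hi, h1, h2, hP⟩
  by_cases hP' : (1 - t) - kap * mid j * y / 2 ≤ 1 / 2 + rr (mid j)
  · exact Or.inr ⟨j, hj, h3, h4, hP'⟩
  exfalso
  exact core_ineq (mid i) (mid j) x y _ _ (mid_lo i) (mid_hi hi) (mid_lo j) (mid_hi hj) h1 h2 h3 h4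
    (by ring) (not_le.mp hP) (not_le.mp hP')

end

end Crest.Agent.Cyl.Fan
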