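import Mathlib

/-!
# Row 211, module M2 (fan cover): the purely real-arithmetic core
-/

set_option autoImplicit false

namespace Crest.Agent.Cyl.Fan

noncomputable section

/-- tilt parameter -/
def kap : ℝ := 1 / 100
/-- slack -/
def sig : ℝ := 1 / 1000
/-- half width of a wedge -/
def del : ℝ := 1 / 100000

def rr (A : ℝ) : ℝ := kap ^ 2 * ((A ^ 2 + A ^ 4) / 16 + sig)

lemma aux_mul_le {m e B : ℝ} (h1 : -1 ≤ m) (h2 : m ≤ 1) (h3 : -B ≤ e) (h4 : e ≤ B) : m * e ≤ B := by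
  have a1 : 0 ≤ (1 + m) * (B - e) := mul_nonneg (by linarith) (by linarith)
  have a2 : 0 ≤ (1 - m) * (B + e) := mul_nonneg (by linarith) (by linarith)
  nlinarith

lemma aux_sq_le_one {A : ℝ} (h1 : -1 ≤ A) (h2 : A ≤ 1) : A ^ 2 ≤ 1 := by nlinarith

lemma aux_key (k A A' x y P P' e1 e2 c1 c2 s : ℝ)
    (he1 : e1 = y - k * x * c1 / 4 - A * P)
    (he2 : e2 = -x - k * y * c2 / 4 - A' * P')
    (hs : s = P + P' - 1)
    (h3 : P + P' = 1 - k * (A * x + A' * y) / 2) :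
    s * (1 + k ^ 2 / 16 * c1 * c2)
      = -(k / 2) * (A * A') * (P - P') - (k / 2) * (A' * e1 - A * e2)
        + (k ^ 2 / 8) * (A' ^ 2 * P' * c1 + A ^ 2 * P * c2)
        + (k ^ 2 / 8) * (A' * e2 * c1 + A * e1 * c2) := by
  have hs' : s = - k * (A * x + A' * y) / 2 := by rw [hs, h3]; ring
  rw [hs', he1, he2]
  ring

lemma aux_T3 {w w' c p : ℝ} (hw0 : 0 ≤ w) (hw1 : w ≤ 1) (hw'0 : 0 ≤ w') (hw'1 : w' ≤ 1)
    (hc : c ≤ 1 + w) (hp : 1 / 2 ≤ p) :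
    w' * p * c ≤ w' * (1 + w) / 2 + 2 * (p - 1 / 2) := by
  have h0 : 0 ≤ w' * p := mul_nonneg hw'0 (by linarith)
  have h1 : w' * p * c ≤ w' * p * (1 + w) := mul_le_mul_of_nonneg_left hc h0
  have h2 : w' * (1 + w) ≤ 2 := by nlinarith
  have h3 : w' * (1 + w) * (p - 1 / 2) ≤ 2 * (p - 1 / 2) :=
    mul_le_mul_of_nonneg_right h2 (by linarith)
  nlinarith

lemma aux_T4 {m e c B : ℝ} (h : m * e ≤ B) (hB : 0 ≤ B) (hc0 : 0 ≤ c) (hc : c ≤ 2) :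
    m * e * c ≤ 2 * B := by
  calc m * e * c ≤ B * c := mul_le_mul_of_nonneg_right h hc0
    _ ≤ B * 2 := mul_le_mul_of_nonneg_left hc hB
    _ = _ := by ring

lemma aux_T1 {m p p' : ℝ} (h1 : -1 ≤ m) (h2 : m ≤ 1) (hp : 1 / 2 ≤ p) (hp' : 1 / 2 ≤ p') :
    -m * (p - p') ≤ p + p' - 1 := by
  have a1 : 0 ≤ (1 + m) * (p - 1 / 2) := mul_nonneg (by linarith) (by linarith)
  have a2 : 0 ≤ (1 - m) * (p' - 1 / 2) := mul_nonneg (by linarith) (by linarith)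
  nlinarith

lemma aux_G (A A' : ℝ) : 2 * (A ^ 2 * A' ^ 2) ≤ A ^ 4 + A' ^ 4 := by
  nlinarith [sq_nonneg (A ^ 2 - A' ^ 2)]

lemma aux_final {s G : ℝ} (_hG0 : 0 ≤ G) (hG4 : G ≤ 4)
    (hslow : (1 / 100 : ℝ) ^ 2 / 16 * G + 2 * (1 / 1000) * (1 / 100) ^ 2 < s)
    (hup : s ≤ (1 / 100 : ℝ) / 2 * s + (1 / 100) / 2 * ((1 / 100000) * (1 + s))
      + (1 / 100) ^ 2 / 8 * (G / 2 + 2 * s)
      + (1 / 100) ^ 2 / 8 * (2 * ((1 / 100000) * (1 + s)))) : False := by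
  linarith

theorem core_ineq (A A' x y P P' : ℝ) (hA1 : -1 ≤ A) (hA2 : A ≤ 1) (hA'1 : -1 ≤ A') (hA'2 : A' ≤ 1)
    (h1l : (A - del) * P ≤ y - kap * x * (1 + (A - del) * (A + del)) / 4)
    (h1u : y - kap * x * (1 + (A - del) * (A + del)) / 4 ≤ (A + del) * P)
    (h2l : (A' - del) * P' ≤ -x - kap * y * (1 + (A' - del) * (A' + del)) / 4)
    (h2u : -x - kap * y * (1 + (A' - del) * (A' + del)) / 4 ≤ (A' + del) * P')
    (h3 : P + P' = 1 - kap * (A * x + A' * y) / 2)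
    (h4 : 1 / 2 + rr A < P) (h5 : 1 / 2 + rr A' < P') : False := by
  have hw : 0 ≤ A ^ 2 := sq_nonneg A
  have hw' : 0 ≤ A' ^ 2 := sq_nonneg A'
  have hw1 : A ^ 2 ≤ 1 := aux_sq_le_one hA1 hA2
  have hw1' : A' ^ 2 ≤ 1 := aux_sq_le_one hA'1 hA'2
  have hrA : 0 ≤ rr A := by unfold rr kap sig; positivity
  have hrA' : 0 ≤ rr A' := by unfold rr kap sig; positivity
  have hP : 1 / 2 ≤ P := by linarith
  have hP' : 1 / 2 ≤ P' := by linarith
  have hdel : 0 < del := by unfold del; norm_num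
  have hk : 0 < kap := by unfold kap; norm_num
  obtain ⟨c1, hc1⟩ : ∃ c1, c1 = 1 + (A - del) * (A + del) := ⟨_, rfl⟩
  obtain ⟨c2, hc2⟩ : ∃ c2, c2 = 1 + (A' - del) * (A' + del) := ⟨_, rfl⟩
  rw [← hc1] at h1l h1u
  rw [← hc2] at h2l h2u
  have c1l : 0 ≤ c1 := by rw [hc1]; unfold del; linarith [hw]
  have c1u : c1 ≤ 1 + A ^ 2 := by rw [hc1]; unfold del; linarith [hw]
  have c2l : 0 ≤ c2 := by rw [hc2]; unfold del; linarith [hw']
  have c2u : c2 ≤ 1 + A' ^ 2 := by rw [hc2]; unfold del; linarith [hw']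
  obtain ⟨e1, he1⟩ : ∃ e1, e1 = y - kap * x * c1 / 4 - A * P := ⟨_, rfl⟩
  obtain ⟨e2, he2⟩ : ∃ e2, e2 = -x - kap * y * c2 / 4 - A' * P' := ⟨_, rfl⟩
  obtain ⟨s, hs⟩ : ∃ s, s = P + P' - 1 := ⟨_, rfl⟩
  have e1l : -(del * P) ≤ e1 := by rw [he1]; linarith
  have e1u : e1 ≤ del * P := by rw [he1]; linarith
  have e2l : -(del * P') ≤ e2 := by rw [he2]; linarith
  have e2u : e2 ≤ del * P' := by rw [he2]; linarith
  have key := aux_key kap A A' x y P P' e1 e2 c1 c2 s he1 he2 hs h3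
  have hspos : 0 < s := by rw [hs]; linarith
  have hm1 : -1 ≤ A * A' := by
    have := aux_mul_le (m := -A) (e := A') (B := 1) (by linarith) (by linarith) hA'1 hA'2
    linarith
  have hm2 : A * A' ≤ 1 := aux_mul_le hA1 hA2 hA'1 hA'2
  have T1 : -(A * A') * (P - P') ≤ s := by rw [hs]; exact aux_T1 hm1 hm2 hP hP'
  have T2a : (-A') * e1 ≤ del * P := aux_mul_le (by linarith) (by linarith) e1l e1u
  have T2b : A * e2 ≤ del * P' := aux_mul_le hA1 hA2 e2l e2u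
  have T2c : A' * e2 ≤ del * P' := aux_mul_le hA'1 hA'2 e2l e2u
  have T2d : A * e1 ≤ del * P := aux_mul_le hA1 hA2 e1l e1u
  have hdP : 0 ≤ del * P := mul_nonneg hdel.le (by linarith)
  have hdP' : 0 ≤ del * P' := mul_nonneg hdel.le (by linarith)
  have T4a : A' * e2 * c1 ≤ 2 * (del * P') := aux_T4 T2c hdP' c1l (by linarith)
  have T4b : A * e1 * c2 ≤ 2 * (del * P) := aux_T4 T2d hdP c2l (by linarith)
  have T3a : A' ^ 2 * P' * c1 ≤ A' ^ 2 * (1 + A ^ 2) / 2 + 2 * (P' - 1 / 2) :=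
    aux_T3 hw hw1 hw' hw1' c1u hP'
  have T3b : A ^ 2 * P * c2 ≤ A ^ 2 * (1 + A' ^ 2) / 2 + 2 * (P - 1 / 2) :=
    aux_T3 hw' hw1' hw hw1 c2u hP
  have hlhs : s ≤ s * (1 + kap ^ 2 / 16 * c1 * c2) := by
    have h0 : 0 ≤ kap ^ 2 / 16 * c1 * c2 := by positivity
    have := mul_nonneg hspos.le h0
    linarith
  obtain ⟨G, hGdef⟩ : ∃ G, G = A ^ 2 + A' ^ 2 + 2 * (A ^ 2 * A' ^ 2) := ⟨_, rfl⟩
  have hww : 0 ≤ A ^ 2 * A' ^ 2 := mul_nonneg hw hw'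
  have hww1 : A ^ 2 * A' ^ 2 ≤ 1 := by
    calc A ^ 2 * A' ^ 2 ≤ 1 * 1 := mul_le_mul hw1 hw1' hw' (by norm_num)
      _ = 1 := by norm_num
  have hG0 : 0 ≤ G := by rw [hGdef]; linarith
  have hG4 : G ≤ 4 := by rw [hGdef]; linarith
  have hG : 2 * (A ^ 2 * A' ^ 2) ≤ A ^ 4 + A' ^ 4 := aux_G A A'
  have hslow : kap ^ 2 / 16 * G + 2 * sig * kap ^ 2 < s := by
    have h0 : rr A + rr A' < s := by rw [hs]; linarith
    have h1 : kap ^ 2 / 16 * G + 2 * sig * kap ^ 2 ≤ rr A + rr A' := by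
      unfold rr
      have hk2 : 0 ≤ kap ^ 2 / 16 := by positivity
      have := mul_le_mul_of_nonneg_left hG hk2
      rw [hGdef]
      linarith
    linarith
  have hsP : P + P' = 1 + s := by rw [hs]; ring
  have hup : s ≤ kap / 2 * s + kap / 2 * (del * (1 + s))
      + kap ^ 2 / 8 * (G / 2 + 2 * s)
      + kap ^ 2 / 8 * (2 * (del * (1 + s))) := by
    have hk2 : 0 ≤ kap ^ 2 / 8 := by positivity
    have hk1 : 0 ≤ kap / 2 := by positivity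
    have a1 : -(kap / 2) * (A * A') * (P - P') ≤ kap / 2 * s := by
      have := mul_le_mul_of_nonneg_left T1 hk1
      linarith
    have a2 : -(kap / 2) * (A' * e1 - A * e2) ≤ kap / 2 * (del * (1 + s)) := by
      have h0 : (-A') * e1 + A * e2 ≤ del * (1 + s) := by rw [← hsP]; linarith
      have := mul_le_mul_of_nonneg_left h0 hk1
      linarith
    have a3 : (kap ^ 2 / 8) * (A' ^ 2 * P' * c1 + A ^ 2 * P * c2)
        ≤ kap ^ 2 / 8 * (G / 2 + 2 * s) := by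
      apply mul_le_mul_of_nonneg_left _ hk2
      rw [hs, hGdef]; linarith
    have a4 : (kap ^ 2 / 8) * (A' * e2 * c1 + A * e1 * c2) ≤ kap ^ 2 / 8 * (2 * (del * (1 + s))) := by
      apply mul_le_mul_of_nonneg_left _ hk2
      rw [← hsP]; linarith
    linarith
  unfold kap sig at hslow
  unfold kap del at hup
  exact aux_final hG0 hG4 hslow hup

end

end Crest.Agent.Cyl.Fan
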