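import Mathlib

set_option autoImplicit false
open MeasureTheory Measure
open scoped ENNReal

namespace Crest.Agent.Cyl.MinProj

abbrev E3 := EuclideanSpace ℝ (Fin 3)
abbrev E2 := EuclideanSpace ℝ (Fin 2)

/-- the linear map `x ↦ x₀ a + x₁ b`. -/
noncomputable def lin2 (a b : E3) : E2 →ₗ[ℝ] E3 where
  toFun x := x 0 • a + x 1 • b
  map_add' x y := by
    simp only [PiLp.add_apply, add_smul]; abel
  map_smul' r x := by
    simp only [PiLp.smul_apply, smul_eq_mul, mul_smul, smul_add, RingHom.id_apply]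

/-- Gram determinant of two vectors -/
noncomputable def gram2 (a b : E3) : ℝ := ‖a‖ ^ 2 * ‖b‖ ^ 2 - inner ℝ a b ^ 2

theorem normDet_lin2 (a b : E3) : (lin2 a b).normDet = Real.sqrt (gram2 a b) := by
  have h := LinearMap.normDet_sq_eq_det_gram (𝕜 := ℝ) (lin2 a b) (EuclideanSpace.basisFun (Fin 2) ℝ)
  have h0 : lin2 a b (EuclideanSpace.basisFun (Fin 2) ℝ 0) = a := by
    simp [lin2]
  have h1 : lin2 a b (EuclideanSpace.basisFun (Fin 2) ℝ 1) = b := by
    simp [lin2]
  rw [Matrix.det_fin_two] at h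
  simp only [Matrix.gram_apply, h0, h1] at h
  have h2 : (lin2 a b).normDet ^ 2 = gram2 a b := by
    have : ((lin2 a b).normDet ^ 2 : ℝ) = inner ℝ a a * inner ℝ b b - inner ℝ a b * inner ℝ b a := by
      simpa using h
    rw [this, gram2, real_inner_self_eq_norm_sq, real_inner_self_eq_norm_sq, real_inner_comm b a]
    ring
  rw [← h2, Real.sqrt_sq (LinearMap.normDet_nonneg _)]

theorem area_aff_image (c a b : E3) (S : Set E2) :
    μHE[2] ((fun x : E2 => c + x 0 • a + x 1 • b) '' S) =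
      ENNReal.ofReal (Real.sqrt (gram2 a b)) * volume S := by
  have h := LinearMap.euclideanHausdorffMeasure_image_eq_normDet_mul_volume (lin2 a b) S
  rw [finrank_euclideanSpace_fin, normDet_lin2] at h
  rw [← h]
  have : (fun x : E2 => c + x 0 • a + x 1 • b) '' S = (IsometryEquiv.addLeft c) '' (lin2 a b '' S) := by
    rw [Set.image_image]
    apply Set.image_congr
    intro x _
    simp [lin2, add_assoc]
  rw [this, (IsometryEquiv.addLeft c).isometry.euclideanHausdorffMeasure_image]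


theorem vol_slices (s : Set (ℝ × ℝ)) (hm : MeasurableSet s)
    (h : ∀ x, volume (Prod.mk x ⁻¹' s) =
      (Set.Icc (0:ℝ) 1).indicator (fun x => ENNReal.ofReal (1 - x)) x) :
    volume s = ENNReal.ofReal (1 / 2) := by
  rw [Measure.volume_eq_prod, Measure.prod_apply hm]
  simp_rw [h]
  rw [lintegral_indicator measurableSet_Icc,
    ← ofReal_integral_eq_lintegral_ofReal]
  · congr 1
    rw [integral_Icc_eq_integral_Ioc, ← intervalIntegral.integral_of_le zero_le_one]
    rw [intervalIntegral.integral_sub (by simp) (by simp)]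
    simp
    norm_num
  · exact (continuous_const.sub continuous_id).continuousOn.integrableOn_Icc
  · rw [Filter.EventuallyLE, ae_restrict_iff' measurableSet_Icc]
    exact Filter.Eventually.of_forall (fun x hx => by simpa using hx.2)

/-- measure preserving map `E2 → ℝ × ℝ` -/
theorem mp_E2 : MeasurePreserving (fun x : E2 => ((x 0, x 1) : ℝ × ℝ)) volume volume :=
  (volume_preserving_finTwoArrow ℝ).comp (PiLp.volume_preserving_ofLp (Fin 2))

def triC : Set E2 := {x | 0 ≤ x 0 ∧ 0 ≤ x 1 ∧ x 0 + x 1 ≤ 1}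
def triP : Set E2 := {x | 0 ≤ x 0 ∧ 0 < x 1 ∧ x 0 + x 1 ≤ 1}

theorem volume_triC : volume triC = ENNReal.ofReal (1 / 2) := by
  have hm : MeasurableSet {p : ℝ × ℝ | 0 ≤ p.1 ∧ 0 ≤ p.2 ∧ p.1 + p.2 ≤ 1} := by
    measurability
  have : triC = (fun x : E2 => ((x 0, x 1) : ℝ × ℝ)) ⁻¹' {p : ℝ × ℝ | 0 ≤ p.1 ∧ 0 ≤ p.2 ∧ p.1 + p.2 ≤ 1} := rfl
  rw [this, mp_E2.measure_preimage hm.nullMeasurableSet]
  apply vol_slices _ hm
  intro x
  by_cases hx : x ∈ Set.Icc (0:ℝ) 1
  · have : Prod.mk x ⁻¹' {p : ℝ × ℝ | 0 ≤ p.1 ∧ 0 ≤ p.2 ∧ p.1 + p.2 ≤ 1} = Set.Icc 0 (1 - x) := by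
      ext y
      simp only [Set.mem_preimage, Set.mem_ofPred_eq, Set.mem_Icc]
      constructor
      · rintro ⟨_, h2, h3⟩; exact ⟨h2, by linarith⟩
      · rintro ⟨h2, h3⟩; exact ⟨hx.1, h2, by linarith⟩
    rw [this, Real.volume_Icc, Set.indicator_of_mem hx]; simp
  · have : Prod.mk x ⁻¹' {p : ℝ × ℝ | 0 ≤ p.1 ∧ 0 ≤ p.2 ∧ p.1 + p.2 ≤ 1} = ∅ := by
      ext y
      simp only [Set.mem_preimage, Set.mem_ofPred_eq, Set.mem_empty_iff_false, iff_false]
      rintro ⟨h1, h2, h3⟩; exact hx ⟨h1, by linarith⟩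
    rw [this, Set.indicator_of_notMem hx]; simp

theorem volume_triP : volume triP = ENNReal.ofReal (1 / 2) := by
  have hm : MeasurableSet {p : ℝ × ℝ | 0 ≤ p.1 ∧ 0 < p.2 ∧ p.1 + p.2 ≤ 1} := by
    measurability
  have : triP = (fun x : E2 => ((x 0, x 1) : ℝ × ℝ)) ⁻¹' {p : ℝ × ℝ | 0 ≤ p.1 ∧ 0 < p.2 ∧ p.1 + p.2 ≤ 1} := rfl
  rw [this, mp_E2.measure_preimage hm.nullMeasurableSet]
  apply vol_slices _ hm
  intro x
  by_cases hx : x ∈ Set.Icc (0:ℝ) 1
  · have : Prod.mk x ⁻¹' {p : ℝ × ℝ | 0 ≤ p.1 ∧ 0 < p.2 ∧ p.1 + p.2 ≤ 1} = Set.Ioc 0 (1 - x) := by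
      ext y
      simp only [Set.mem_preimage, Set.mem_ofPred_eq, Set.mem_Ioc]
      constructor
      · rintro ⟨_, h2, h3⟩; exact ⟨h2, by linarith⟩
      · rintro ⟨h2, h3⟩; exact ⟨hx.1, h2, by linarith⟩
    rw [this, Real.volume_Ioc, Set.indicator_of_mem hx]; simp
  · have : Prod.mk x ⁻¹' {p : ℝ × ℝ | 0 ≤ p.1 ∧ 0 < p.2 ∧ p.1 + p.2 ≤ 1} = ∅ := by
      ext y
      simp only [Set.mem_preimage, Set.mem_ofPred_eq, Set.mem_empty_iff_false, iff_false]
      rintro ⟨h1, h2, h3⟩; exact hx ⟨h1, by linarith⟩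
    rw [this, Set.indicator_of_notMem hx]; simp

theorem convex_comb3 {S : Set E3} (hS : Convex ℝ S) {p q r : E3} (hp : p ∈ S) (hq : q ∈ S)
    (hr : r ∈ S) {α β γ : ℝ} (hα : 0 ≤ α) (hβ : 0 ≤ β) (hγ : 0 ≤ γ) (h : α + β + γ = 1) :
    α • p + β • q + γ • r ∈ S := by
  have := hS.sum_mem (t := Finset.univ) (w := ![α, β, γ]) (z := ![p, q, r])
    (by intro i _; fin_cases i <;> simp [hα, hβ, hγ])
    (by simp [Fin.sum_univ_three, h])
    (by intro i _; fin_cases i <;> simp [hp, hq, hr])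
  simpa [Fin.sum_univ_three] using this

theorem aff_mem {S : Set E3} (hS : Convex ℝ S) {p a b : E3} (hp : p ∈ S) (hq : p + a ∈ S)
    (hr : p + b ∈ S) {x : E2} (hx : x ∈ triC) : p + x 0 • a + x 1 • b ∈ S := by
  obtain ⟨h0, h1, h2⟩ := hx
  have := convex_comb3 hS hp hq hr (α := 1 - x 0 - x 1) (β := x 0) (γ := x 1) (by linarith) h0 h1
    (by ring)
  convert this using 1
  simp only [sub_smul, smul_add, one_smul]
  abel

theorem triP_subset : triP ⊆ triC := fun _ hx => ⟨hx.1, hx.2.1.le, hx.2.2⟩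

/-- one triangle lower bound -/
theorem area_ge_tri {S : Set E3} (hS : Convex ℝ S) {p a b : E3} (hp : p ∈ S) (hq : p + a ∈ S)
    (hr : p + b ∈ S) : ENNReal.ofReal (Real.sqrt (gram2 a b) / 2) ≤ μHE[2] S := by
  have h1 : (fun x : E2 => p + x 0 • a + x 1 • b) '' triC ⊆ S := by
    rintro _ ⟨x, hx, rfl⟩
    exact aff_mem hS hp hq hr hx
  calc ENNReal.ofReal (Real.sqrt (gram2 a b) / 2)
      = ENNReal.ofReal (Real.sqrt (gram2 a b)) * volume triC := by
        rw [volume_triC, ← ENNReal.ofReal_mul (Real.sqrt_nonneg _)]; congr 1; ring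
    _ = μHE[2] ((fun x : E2 => p + x 0 • a + x 1 • b) '' triC) := (area_aff_image _ _ _ _).symm
    _ ≤ μHE[2] S := measure_mono h1

/-- two triangles on opposite sides of a line -/
theorem area_ge_two_tri {S : Set E3} (hS : Convex ℝ S) {p a b b' n : E3} (hp : p ∈ S)
    (hq : p + a ∈ S) (hr : p + b ∈ S) (hr' : p + b' ∈ S) (hna : inner ℝ n a = 0)
    (hnb : 0 < inner ℝ n b) (hnb' : inner ℝ n b' ≤ 0) :
    ENNReal.ofReal (Real.sqrt (gram2 a b) / 2 + Real.sqrt (gram2 a b') / 2) ≤ μHE[2] S := by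
  set H : Set E3 := {x | 0 < inner ℝ n (x - p)} with hH
  have hHm : MeasurableSet H := by
    apply IsOpen.measurableSet
    exact isOpen_lt continuous_const (by fun_prop)
  have h1 : (fun x : E2 => p + x 0 • a + x 1 • b) '' triP ⊆ S ∩ H := by
    rintro _ ⟨x, hx, rfl⟩
    refine ⟨aff_mem hS hp hq hr (triP_subset hx), ?_⟩
    have : p + x 0 • a + x 1 • b - p = x 0 • a + x 1 • b := by abel
    simp only [hH, Set.mem_ofPred_eq, this, inner_add_right, inner_smul_right, hna, mul_zero, zero_add]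
    exact mul_pos hx.2.1 hnb
  have h2 : (fun x : E2 => p + x 0 • a + x 1 • b') '' triC ⊆ S \ H := by
    rintro _ ⟨x, hx, rfl⟩
    refine ⟨aff_mem hS hp hq hr' hx, ?_⟩
    have : p + x 0 • a + x 1 • b' - p = x 0 • a + x 1 • b' := by abel
    simp only [hH, Set.mem_ofPred_eq, this, inner_add_right, inner_smul_right, hna, mul_zero, zero_add,
      not_lt]
    exact mul_nonpos_of_nonneg_of_nonpos hx.2.1 hnb'
  have e1 : ENNReal.ofReal (Real.sqrt (gram2 a b) / 2) ≤ μHE[2] (S ∩ H) := by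
    calc ENNReal.ofReal (Real.sqrt (gram2 a b) / 2)
        = ENNReal.ofReal (Real.sqrt (gram2 a b)) * volume triP := by
          rw [volume_triP, ← ENNReal.ofReal_mul (Real.sqrt_nonneg _)]; congr 1; ring
      _ = μHE[2] ((fun x : E2 => p + x 0 • a + x 1 • b) '' triP) := (area_aff_image _ _ _ _).symm
      _ ≤ _ := measure_mono h1
  have e2 : ENNReal.ofReal (Real.sqrt (gram2 a b') / 2) ≤ μHE[2] (S \ H) := by
    calc ENNReal.ofReal (Real.sqrt (gram2 a b') / 2)
        = ENNReal.ofReal (Real.sqrt (gram2 a b')) * volume triC := by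
          rw [volume_triC, ← ENNReal.ofReal_mul (Real.sqrt_nonneg _)]; congr 1; ring
      _ = μHE[2] ((fun x : E2 => p + x 0 • a + x 1 • b') '' triC) := (area_aff_image _ _ _ _).symm
      _ ≤ _ := measure_mono h2
  rw [ENNReal.ofReal_add (by positivity) (by positivity), ← measure_inter_add_sdiff S hHm]
  exact add_le_add e1 e2


theorem convex_aff_triC (p a b : E3) :
    Convex ℝ ((fun x : E2 => p + x 0 • a + x 1 • b) '' triC) := by
  rintro _ ⟨x, hx, rfl⟩ _ ⟨x', hx', rfl⟩ α β hα hβ hαβ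
  obtain ⟨h0, h1, h2⟩ := hx
  obtain ⟨h0', h1', h2'⟩ := hx'
  refine ⟨α • x + β • x', ⟨?_, ?_, ?_⟩, ?_⟩
  · simp only [PiLp.add_apply, PiLp.smul_apply, smul_eq_mul]; positivity
  · simp only [PiLp.add_apply, PiLp.smul_apply, smul_eq_mul]; positivity
  · simp only [PiLp.add_apply, PiLp.smul_apply, smul_eq_mul]
    nlinarith
  · simp only [PiLp.add_apply, PiLp.smul_apply, smul_eq_mul]
    have : p = (α + β) • p := by rw [hαβ, one_smul]
    nth_rewrite 1 [this]
    module


/-- exact area of a triangle -/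
theorem area_tri (p q r : E3) :
    μHE[2] (convexHull ℝ {p, q, r}) = ENNReal.ofReal (Real.sqrt (gram2 (q - p) (r - p)) / 2) := by
  have h1 : (fun x : E2 => p + x 0 • (q - p) + x 1 • (r - p)) '' triC = convexHull ℝ {p, q, r} := by
    apply Set.Subset.antisymm
    · rintro _ ⟨x, hx, rfl⟩
      apply aff_mem (convex_convexHull ℝ _) _ _ _ hx
      · exact subset_convexHull ℝ _ (by simp)
      · exact subset_convexHull ℝ _ (by simp)
      · exact subset_convexHull ℝ _ (by simp)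
    · apply convexHull_min
      · intro y hy
        simp only [Set.mem_insert_iff, Set.mem_singleton_iff] at hy
        rcases hy with rfl | rfl | rfl
        · exact ⟨!₂[0, 0], by simp [triC], by simp⟩
        · exact ⟨!₂[1, 0], by simp [triC], by simp⟩
        · exact ⟨!₂[0, 1], by simp [triC], by simp⟩
      · exact convex_aff_triC _ _ _
  rw [← h1, area_aff_image, volume_triC, ← ENNReal.ofReal_mul (Real.sqrt_nonneg _)]
  congr 1; ring

/-- orthogonal projection along `v` -/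
noncomputable def proj (v : E3) : E3 →ₗ[ℝ] E3 where
  toFun y := y - inner ℝ y v • v
  map_add' x y := by
    simp only [inner_add_left, add_smul]; abel
  map_smul' r x := by
    simp only [inner_smul_left, mul_smul, smul_sub, RingHom.id_apply, conj_trivial]

theorem proj_apply (v y : E3) : proj v y = y - inner ℝ y v • v := rfl


def det3 (a b v : E3) : ℝ :=
  a 0 * (b 1 * v 2 - b 2 * v 1) - a 1 * (b 0 * v 2 - b 2 * v 0) + a 2 * (b 0 * v 1 - b 1 * v 0)

theorem inner3 (a b : E3) : inner ℝ a b = a 0 * b 0 + a 1 * b 1 + a 2 * b 2 := by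
  simp [PiLp.inner_apply, Fin.sum_univ_three]
  ring

theorem inner_proj (v a b : E3) (hv : ‖v‖ = 1) :
    inner ℝ (proj v a) (proj v b) = inner ℝ a b - inner ℝ a v * inner ℝ b v := by
  have hvv : inner ℝ v v = 1 := by rw [real_inner_self_eq_norm_sq, hv]; norm_num
  simp only [proj_apply, inner_sub_left, inner_sub_right, inner_smul_left, inner_smul_right,
    conj_trivial, hvv, real_inner_comm v b]
  ring

theorem gram2_proj (v a b : E3) (hv : ‖v‖ = 1) :
    gram2 (proj v a) (proj v b) = det3 a b v ^ 2 := by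
  have hvv : inner ℝ v v = 1 := by rw [real_inner_self_eq_norm_sq, hv]; norm_num
  rw [inner3] at hvv
  rw [gram2, ← real_inner_self_eq_norm_sq, ← real_inner_self_eq_norm_sq, inner_proj v _ _ hv,
    inner_proj v _ _ hv, inner_proj v _ _ hv]
  simp only [inner3, det3]
  linear_combination (-((a 0 * a 0 + a 1 * a 1 + a 2 * a 2) * (b 0 * b 0 + b 1 * b 1 + b 2 * b 2) - (a 0 * b 0 + a 1 * b 1 + a 2 * b 2)^2)) * hvv

/-- normal vector -/
noncomputable def nrm (a v : E3) : E3 :=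
  !₂[a 2 * v 1 - a 1 * v 2, a 0 * v 2 - a 2 * v 0, a 1 * v 0 - a 0 * v 1]

theorem inner_nrm_proj (a v x : E3) : inner ℝ (nrm a v) (proj v x) = det3 a x v := by
  simp only [inner3, det3, nrm, proj_apply, PiLp.sub_apply, PiLp.smul_apply, smul_eq_mul]
  simp
  ring

theorem key_abs (X Y W s : ℝ) (hX : 0 ≤ X) (hY : 0 ≤ Y) (hW : 0 ≤ W) (hs : s ^ 2 = 2) (hs0 : 0 < s)
    (h : X ^ 2 + Y ^ 2 + W ^ 2 = 1) (h1 : 2 * W < s) (h2 : X + Y < 1) (h3 : W + s * Y < s)
    (h4 : W + s * X < s) : False := by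
  rcases le_total (s * X) W with hXW | hXW <;> rcases le_total (s * Y) W with hYW | hYW
  · have a1 : (s * X) ^ 2 ≤ W ^ 2 := by gcongr
    have a2 : (s * Y) ^ 2 ≤ W ^ 2 := by gcongr
    have a3 : (2 * W) ^ 2 < s ^ 2 := by gcongr
    nlinarith
  · have a1 : (s * X) ^ 2 ≤ W ^ 2 := by gcongr
    have a3 : (W + s * Y) ^ 2 < s ^ 2 := by gcongr
    nlinarith [mul_le_mul_of_nonneg_left hYW hW]
  · have a1 : (s * Y) ^ 2 ≤ W ^ 2 := by gcongr
    have a3 : (W + s * X) ^ 2 < s ^ 2 := by gcongr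
    nlinarith [mul_le_mul_of_nonneg_left hXW hW]
  · have a1 : W * W ≤ (s * X) * (s * Y) := by gcongr
    have a3 : (X + Y) ^ 2 < 1 ^ 2 := by gcongr
    nlinarith

theorem key_ineq (x y z s : ℝ) (hs : s ^ 2 = 2) (hs0 : 0 < s) (h : x ^ 2 + y ^ 2 + z ^ 2 = 1)
    (h1 : |(-4) * z| / 2 < s) (h2 : |(-2) * s * (x + y)| / 2 < s) (h3 : |2 * s * (x - y)| / 2 < s)
    (h4 : |(-2) * (z - s * y)| / 2 < s) (h5 : |(-2) * (-z - s * y)| / 2 < s)
    (h6 : |2 * z + 2 * s * x| / 2 < s) (h7 : |(-2) * z + 2 * s * x| / 2 < s) : False := by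
  rw [div_lt_iff₀ (by norm_num), abs_lt] at h1 h2 h3 h4 h5 h6 h7
  apply key_abs |x| |y| |z| s (abs_nonneg _) (abs_nonneg _) (abs_nonneg _) hs hs0
    (by simpa only [sq_abs] using h)
  · rcases abs_cases z with ⟨e, _⟩ | ⟨e, _⟩ <;> rw [e] <;> linarith
  · have : |x| + |y| < 1 := by
      have h2a : -(1:ℝ) < x + y := by nlinarith
      have h2b : x + y < 1 := by nlinarith
      have h3a : -(1:ℝ) < x - y := by nlinarith
      have h3b : x - y < 1 := by nlinarith
      rcases abs_cases x with ⟨e, _⟩ | ⟨e, _⟩ <;> rcases abs_cases y with ⟨e', _⟩ | ⟨e', _⟩ <;>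
        rw [e, e'] <;> linarith
    exact this
  · rcases abs_cases z with ⟨e, _⟩ | ⟨e, _⟩ <;> rcases abs_cases y with ⟨e', _⟩ | ⟨e', _⟩ <;>
        rw [e, e'] <;> linarith
  · rcases abs_cases z with ⟨e, _⟩ | ⟨e, _⟩ <;> rcases abs_cases x with ⟨e', _⟩ | ⟨e', _⟩ <;>
        rw [e, e'] <;> linarith

theorem area_proj_ge_tri {v : E3} (hv : ‖v‖ = 1) {S : Set E3} (hS : Convex ℝ S) (p q r : E3)
    (hp : proj v p ∈ S) (hq : proj v q ∈ S) (hr : proj v r ∈ S) :
    ENNReal.ofReal (|det3 (q - p) (r - p) v| / 2) ≤ μHE[2] S := by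
  have := area_ge_tri hS (p := proj v p) (a := proj v (q - p)) (b := proj v (r - p)) hp
    (by simpa using hq) (by simpa using hr)
  rwa [gram2_proj v _ _ hv, Real.sqrt_sq_eq_abs] at this

theorem det3_sub (a r s p v : E3) : det3 a (r - s) v = det3 a (r - p) v - det3 a (s - p) v := by
  simp only [det3, PiLp.sub_apply]; ring

theorem det3_self (a v : E3) : det3 a a v = 0 := by
  simp only [det3]; ring

theorem area_proj_ge_quad {v : E3} (hv : ‖v‖ = 1) {S : Set E3} (hS : Convex ℝ S) (p q r s : E3)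
    (hp : proj v p ∈ S) (hq : proj v q ∈ S) (hr : proj v r ∈ S) (hs : proj v s ∈ S) :
    ENNReal.ofReal (|det3 (q - p) (r - s) v| / 2) ≤ μHE[2] S := by
  have t1 := area_proj_ge_tri hv hS p q r hp hq hr
  have t2 := area_proj_ge_tri hv hS p q s hp hq hs
  rw [det3_sub _ r s p v]
  set d1 := det3 (q - p) (r - p) v with hd1
  set d2 := det3 (q - p) (s - p) v with hd2
  have two : ∀ r s : E3, proj v r ∈ S → proj v s ∈ S → 0 < det3 (q - p) (r - p) v →
      det3 (q - p) (s - p) v ≤ 0 →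
      ENNReal.ofReal (|det3 (q - p) (r - p) v - det3 (q - p) (s - p) v| / 2) ≤ μHE[2] S := by
    intro r s hr hs h1 h2
    have := area_ge_two_tri hS (p := proj v p) (a := proj v (q - p)) (b := proj v (r - p))
      (b' := proj v (s - p)) (n := nrm (q - p) v) hp (by simpa using hq) (by simpa using hr)
      (by simpa using hs) (by rw [inner_nrm_proj, det3_self]) (by rwa [inner_nrm_proj])
      (by rwa [inner_nrm_proj])
    rw [gram2_proj v _ _ hv, gram2_proj v _ _ hv, Real.sqrt_sq_eq_abs, Real.sqrt_sq_eq_abs] at this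
    refine le_trans (ENNReal.ofReal_le_ofReal ?_) this
    rw [abs_of_pos h1, abs_of_nonpos h2, abs_of_pos (by linarith)]
    linarith
  rcases lt_or_ge 0 d1 with h1 | h1 <;> rcases lt_or_ge 0 d2 with h2 | h2
  · -- both positive
    rcases le_total d1 d2 with h | h
    · refine le_trans (ENNReal.ofReal_le_ofReal ?_) t2
      rw [abs_of_nonpos (by linarith), abs_of_pos h2]; linarith
    · refine le_trans (ENNReal.ofReal_le_ofReal ?_) t1
      rw [abs_of_nonneg (by linarith), abs_of_pos h1]; linarith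
  · exact two r s hr hs h1 h2
  · rw [abs_sub_comm]
    exact two s r hs hr h2 h1
  · rcases le_total d1 d2 with h | h
    · refine le_trans (ENNReal.ofReal_le_ofReal ?_) t1
      rw [abs_of_nonpos (by linarith), abs_of_nonpos h1]; linarith
    · refine le_trans (ENNReal.ofReal_le_ofReal ?_) t2
      rw [abs_of_nonneg (by linarith), abs_of_nonpos h2]; linarith

/-- the tetrahedron -/
noncomputable def K : Set E3 :=
  convexHull ℝ {!₂[1, 0, 0], !₂[-1, 0, 0], !₂[0, 1, Real.sqrt 2], !₂[0, -1, Real.sqrt 2]}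

theorem minproj_ge (v : E3) (hv : ‖v‖ = 1) :
    ENNReal.ofReal (Real.sqrt 2) ≤ μHE[2] ((fun y => y - inner ℝ y v • v) '' K) := by
  change _ ≤ μHE[2] (proj v '' K)
  have hS : Convex ℝ (proj v '' K) := (convex_convexHull ℝ _).linear_image _
  have hA : proj v !₂[1, 0, 0] ∈ proj v '' K :=
    Set.mem_image_of_mem _ (subset_convexHull ℝ _ (by simp))
  have hB : proj v !₂[-1, 0, 0] ∈ proj v '' K :=
    Set.mem_image_of_mem _ (subset_convexHull ℝ _ (by simp))
  have hC : proj v !₂[0, 1, Real.sqrt 2] ∈ proj v '' K :=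
    Set.mem_image_of_mem _ (subset_convexHull ℝ _ (by simp))
  have hD : proj v !₂[0, -1, Real.sqrt 2] ∈ proj v '' K :=
    Set.mem_image_of_mem _ (subset_convexHull ℝ _ (by simp))
  by_contra hcon
  rw [not_le] at hcon
  have conv : ∀ t : ℝ, ENNReal.ofReal t ≤ μHE[2] (proj v '' K) → t < Real.sqrt 2 := by
    intro t ht
    exact (ENNReal.ofReal_lt_ofReal_iff (by positivity)).1 (lt_of_le_of_lt ht hcon)
  have hvv : inner ℝ v v = 1 := by rw [real_inner_self_eq_norm_sq, hv]; norm_num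
  rw [inner3] at hvv
  have q1 := conv _ (area_proj_ge_quad hv hS _ _ _ _ hA hB hC hD)
  have q2 := conv _ (area_proj_ge_quad hv hS _ _ _ _ hA hC hB hD)
  have q3 := conv _ (area_proj_ge_quad hv hS _ _ _ _ hA hD hB hC)
  have q4 := conv _ (area_proj_ge_tri hv hS _ _ _ hA hB hC)
  have q5 := conv _ (area_proj_ge_tri hv hS _ _ _ hA hB hD)
  have q6 := conv _ (area_proj_ge_tri hv hS _ _ _ hA hC hD)
  have q7 := conv _ (area_proj_ge_tri hv hS _ _ _ hB hC hD)
  apply key_ineq (v 0) (v 1) (v 2) (Real.sqrt 2) (Real.sq_sqrt (by norm_num)) (by positivity)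
    (by linarith)
  · convert q1 using 3; simp [det3]; ring
  · convert q2 using 3; simp [det3]; ring
  · convert q3 using 3; simp [det3]; ring
  · convert q4 using 3; simp [det3]; ring
  · convert q5 using 3; simp [det3]; ring
  · convert q6 using 3; simp [det3]; ring
  · convert q7 using 3; simp [det3]; ring

theorem norm_sq3 (a : E3) : ‖a‖ ^ 2 = a 0 * a 0 + a 1 * a 1 + a 2 * a 2 := by
  rw [← real_inner_self_eq_norm_sq, inner3]

theorem minproj_eq : ∃ v : E3, ‖v‖ = 1 ∧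
    μHE[2] ((fun y => y - inner ℝ y v • v) '' K) = ENNReal.ofReal (Real.sqrt 2) := by
  refine ⟨!₂[1, 0, 0], ?_, ?_⟩
  · have : ‖(!₂[1, 0, 0] : E3)‖ ^ 2 = 1 := by rw [norm_sq3]; simp
    nlinarith [norm_nonneg (!₂[1, 0, 0] : E3)]
  · change μHE[2] (proj !₂[1, 0, 0] '' K) = _
    have hs : Real.sqrt 2 * Real.sqrt 2 = 2 := Real.mul_self_sqrt (by norm_num)
    have e1 : proj !₂[1, 0, 0] !₂[1, 0, 0] = 0 := by
      ext i; fin_cases i <;> simp only [proj_apply, inner3] <;> simp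
    have e2 : proj !₂[1, 0, 0] !₂[-1, 0, 0] = 0 := by
      ext i; fin_cases i <;> simp only [proj_apply, inner3] <;> simp
    have e3 : proj !₂[1, 0, 0] !₂[0, 1, Real.sqrt 2] = !₂[0, 1, Real.sqrt 2] := by
      ext i; fin_cases i <;> simp only [proj_apply, inner3] <;> simp
    have e4 : proj !₂[1, 0, 0] !₂[0, -1, Real.sqrt 2] = !₂[0, -1, Real.sqrt 2] := by
      ext i; fin_cases i <;> simp only [proj_apply, inner3] <;> simp
    rw [K, LinearMap.image_convexHull, Set.image_insert_eq, Set.image_insert_eq,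
      Set.image_insert_eq, Set.image_singleton, e1, e2, e3, e4, Set.insert_idem, area_tri]
    congr 1
    have : gram2 ((!₂[0, 1, Real.sqrt 2] : E3) - 0) (!₂[0, -1, Real.sqrt 2] - 0) = (2 * Real.sqrt 2) ^ 2 := by
      rw [gram2, norm_sq3, norm_sq3, inner3]
      simp [hs]
      nlinarith
    rw [this, Real.sqrt_sq (by positivity)]
    ring


/-- bounded subsets of the plane `v^⊥` have finite area. -/
theorem area_lt_top {v : E3} (hv : v ≠ 0) {S : Set E3} (hb : Bornology.IsBounded S)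
    (hS : ∀ x ∈ S, inner ℝ x v = 0) : μHE[2] S < ⊤ := by
  set W : Submodule ℝ E3 := (ℝ ∙ v)ᗮ with hW
  have : Fact (Module.finrank ℝ E3 = 2 + 1) := ⟨by simp⟩
  have hfr : Module.finrank ℝ W = 2 := Submodule.finrank_orthogonal_span_singleton hv
  have hSW : S ⊆ W := by
    intro x hx
    rw [SetLike.mem_coe, hW, Submodule.mem_orthogonal_singleton_iff_inner_left]
    exact hS x hx
  have h1 : S = Subtype.val '' ((Subtype.val : W → E3) ⁻¹' S) := by
    ext x
    constructor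
    · intro hx; exact ⟨⟨x, hSW hx⟩, hx, rfl⟩
    · rintro ⟨y, hy, rfl⟩; exact hy
  rw [h1, isometry_subtype_coe.euclideanHausdorffMeasure_image, ← hfr,
    InnerProductSpace.euclideanHausdorffMeasure_eq_volume]
  apply Bornology.IsBounded.measure_lt_top
  rw [Metric.isBounded_iff] at hb ⊢
  obtain ⟨C, hC⟩ := hb
  exact ⟨C, fun x hx y hy => hC hx hy⟩

theorem inner_proj_self {v : E3} (hv : ‖v‖ = 1) (x : E3) : inner ℝ (proj v x) v = 0 := by
  have hvv : inner ℝ v v = 1 := by rw [real_inner_self_eq_norm_sq, hv]; norm_num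
  rw [proj_apply, inner_sub_left, inner_smul_left, hvv]
  simp

theorem minproj_lt_top (v : E3) (hv : ‖v‖ = 1) :
    μHE[2] ((fun y => y - inner ℝ y v • v) '' K) < ⊤ := by
  change μHE[2] (proj v '' K) < ⊤
  apply area_lt_top (v := v) (by intro h; rw [h] at hv; simp at hv)
  · have hK : IsCompact K := (Set.toFinite _).isCompact_convexHull (𝕜 := ℝ)
    exact (hK.image (LinearMap.continuous_of_finiteDimensional _)).isBounded
  · rintro _ ⟨x, _, rfl⟩
    exact inner_proj_self hv x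

end Crest.Agent.Cyl.MinProj
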