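/-
S0326, team B (helper49 + helper88): common definitions.
-/
import Mathlib

set_option autoImplicit false
open MeasureTheory
open scoped ENNReal

namespace Crest.Agent.S0326B

/-- The Euclidean plane. -/
abbrev E2 := EuclideanSpace ℝ (Fin 2)

/-- `e, e'` is an orthonormal frame of the plane. -/
structure Frame (e e' : E2) : Prop where
  ne : ‖e‖ = 1
  ne' : ‖e'‖ = 1
  orth : inner ℝ e e' = 0

/-- Index of the half-open square of side `r` of the grid with origin `p₀` and axes `e, e'`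
that contains `p`. -/
noncomputable def idx (p₀ e e' : E2) (r : ℝ) (p : E2) : ℤ × ℤ :=
  (⌊inner ℝ e (p - p₀) / r⌋, ⌊inner ℝ e' (p - p₀) / r⌋)

/-- The half-open grid square with index `ij`. -/
def cell (p₀ e e' : E2) (r : ℝ) (ij : ℤ × ℤ) : Set E2 := {p | idx p₀ e e' r p = ij}

/-- The lower left corner of the grid square with index `ij`. -/
noncomputable def corner (p₀ e e' : E2) (r : ℝ) (ij : ℤ × ℤ) : E2 :=
  p₀ + (r * (ij.1 : ℝ)) • e + (r * (ij.2 : ℝ)) • e'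

/-- The weight `J(g) = (1 + g₀² + h² g₁²)^(-1/2)`. -/
noncomputable def J (h : ℝ) (g : E2) : ℝ := 1 / Real.sqrt (1 + (g 0) ^ 2 + h ^ 2 * (g 1) ^ 2)

/-- The ruled set over `S` is covered by finitely many sheared square cylinders of total
cost at most `κ`. -/
def Cov (V : E2 → E2) (L h : ℝ) (S : Set E2) (κ : ℝ) : Prop :=
  ∃ (ι : Type) (_ : Fintype ι) (c a b g : ι → E2),
    (∀ i, a i ≠ 0 ∧ ‖b i‖ = ‖a i‖ ∧ inner ℝ (a i) (b i) = 0) ∧
    (∀ p ∈ S, ∀ s : ℝ, |s| ≤ L → ∃ i, ∃ x ∈ Set.Icc (0 : ℝ) 1, ∃ y ∈ Set.Icc (0 : ℝ) 1,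
      p + s • V p = c i + x • a i + y • b i + s • g i) ∧
    ∑ i, ‖a i‖ ^ 2 * J h (g i) ≤ κ

end Crest.Agent.S0326B
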