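import Crest.Agent.Cyl.S0326H37_Frame

set_option autoImplicit false
open MeasureTheory
open scoped ENNReal

namespace Crest.Agent.S0326H37

/-- Half-open lattice square of side `δ` in the frame `b` based at `p₀`. -/
def sq (b : OrthonormalBasis (Fin 2) ℝ E2) (p₀ : E2) (δ : ℝ) (ij : ℤ × ℤ) : Set E2 :=
  {x | inner ℝ (b 0) (x - p₀) ∈ Set.Ico (δ * ij.1) (δ * (ij.1 + 1)) ∧
       inner ℝ (b 1) (x - p₀) ∈ Set.Ico (δ * ij.2) (δ * (ij.2 + 1))}

theorem sq_eq_preimage (b : OrthonormalBasis (Fin 2) ℝ E2) (p₀ : E2) (δ : ℝ) (ij : ℤ × ℤ) :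
    sq b p₀ δ ij = (fun x : E2 => (b.repr (x - p₀)).ofLp) ⁻¹'
      (Set.univ.pi fun k : Fin 2 => Set.Ico (![δ * ij.1, δ * ij.2] k)
        (![δ * (ij.1 + 1), δ * (ij.2 + 1)] k)) := by
  ext x
  simp only [sq, Set.mem_setOf_eq, Set.mem_preimage, Set.mem_pi, Set.mem_univ, forall_true_left,
    Fin.forall_fin_two, OrthonormalBasis.repr_apply_apply]
  simp

theorem mp_coord (b : OrthonormalBasis (Fin 2) ℝ E2) (p₀ : E2) :
    MeasurePreserving (fun x : E2 => (b.repr (x - p₀)).ofLp) volume volume := by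
  have h1 : MeasurePreserving (fun x : E2 => x - p₀) volume volume :=
    measurePreserving_sub_right volume p₀
  have h2 := b.measurePreserving_repr
  have h3 := PiLp.volume_preserving_ofLp (Fin 2)
  exact h3.comp (h2.comp h1)

theorem measurableSet_sq (b : OrthonormalBasis (Fin 2) ℝ E2) (p₀ : E2) (δ : ℝ) (ij : ℤ × ℤ) :
    MeasurableSet (sq b p₀ δ ij) := by
  rw [sq_eq_preimage]
  exact (mp_coord b p₀).measurable (MeasurableSet.univ_pi fun _ => measurableSet_Ico)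

theorem volume_sq (b : OrthonormalBasis (Fin 2) ℝ E2) (p₀ : E2) (δ : ℝ) (ij : ℤ × ℤ) :
    volume (sq b p₀ δ ij) = ENNReal.ofReal δ * ENNReal.ofReal δ := by
  rw [sq_eq_preimage, (mp_coord b p₀).measure_preimage
    (MeasurableSet.univ_pi fun _ => measurableSet_Ico).nullMeasurableSet, Real.volume_pi_Ico]
  simp only [Fin.prod_univ_two]
  congr 1 <;> · congr 1; simp; ring

theorem sq_disjoint (b : OrthonormalBasis (Fin 2) ℝ E2) (p₀ : E2) (δ : ℝ) (hδ : 0 < δ)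
    (ij ij' : ℤ × ℤ) (hne : ij ≠ ij') : Disjoint (sq b p₀ δ ij) (sq b p₀ δ ij') := by
  rw [Set.disjoint_left]
  rintro x ⟨⟨h1, h2⟩, ⟨h3, h4⟩⟩ ⟨⟨h1', h2'⟩, ⟨h3', h4'⟩⟩
  apply hne
  have aux : ∀ (t : ℝ) (i i' : ℤ), δ * i ≤ t → t < δ * (i + 1) → δ * i' ≤ t → t < δ * (i' + 1) →
      i = i' := by
    intro t i i' a1 a2 a3 a4
    have c1 : (i : ℝ) < i' + 1 := by
      have : δ * i < δ * (i' + 1) := lt_of_le_of_lt a1 a4
      exact lt_of_mul_lt_mul_left this hδ.le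
    have c2 : (i' : ℝ) < i + 1 := by
      have : δ * i' < δ * (i + 1) := lt_of_le_of_lt a3 a2
      exact lt_of_mul_lt_mul_left this hδ.le
    have d1 : i < i' + 1 := by exact_mod_cast c1
    have d2 : i' < i + 1 := by exact_mod_cast c2
    omega
  exact Prod.ext (aux _ _ _ h1 h2 h1' h2') (aux _ _ _ h3 h4 h3' h4')

theorem count_le (b : OrthonormalBasis (Fin 2) ℝ E2) (p₀ : E2) (δ : ℝ) (hδ : 0 < δ)
    (F : Finset (ℤ × ℤ)) (S : Set E2) (hS : ∀ ij ∈ F, sq b p₀ δ ij ⊆ S) :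
    (F.card : ℝ≥0∞) * ENNReal.ofReal (δ ^ 2) ≤ volume S := by
  have h1 : volume (⋃ ij ∈ F, sq b p₀ δ ij) = ∑ ij ∈ F, volume (sq b p₀ δ ij) :=
    measure_biUnion_finset (fun i _ j _ hij => sq_disjoint b p₀ δ hδ i j hij)
      (fun ij _ => measurableSet_sq b p₀ δ ij)
  have h2 : (F.card : ℝ≥0∞) * ENNReal.ofReal (δ ^ 2) = ∑ ij ∈ F, volume (sq b p₀ δ ij) := by
    simp only [volume_sq, Finset.sum_const, nsmul_eq_mul]
    rw [pow_two, ENNReal.ofReal_mul hδ.le]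
  rw [h2, ← h1]
  exact measure_mono (Set.iUnion₂_subset hS)

end Crest.Agent.S0326H37
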