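import Mathlib

set_option autoImplicit false

namespace Crest.Agent.S0326H37

/-- Integer lattice covering lemma: if `t₁ t₂ ≥ 0` have the same sign and `t₁ * t₂ < 1`, unit squares
placed at the lattice generated by `(1, t₁)` and `(t₂, 1)` cover the plane. -/
theorem lattice_cover (t₁ t₂ : ℝ) (hsign : (0 ≤ t₁ ∧ 0 ≤ t₂) ∨ (t₁ ≤ 0 ∧ t₂ ≤ 0))
    (hlt : t₁ * t₂ < 1) (X Y : ℝ) :
    ∃ i j : ℤ, 0 ≤ X - i - t₂ * j ∧ X - i - t₂ * j ≤ 1 ∧ 0 ≤ Y - t₁ * i - j ∧ Y - t₁ * i - j ≤ 1 := by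
  set φ : ℤ → ℝ := fun j => (j : ℝ) + t₁ * (⌊X - t₂ * j⌋ : ℝ) with hφ
  have hκ : 0 < 1 - t₁ * t₂ := by linarith
  -- two-sided estimate of φ
  have hfl : ∀ u : ℝ, t₁ * u - |t₁| ≤ t₁ * (⌊u⌋ : ℝ) ∧ t₁ * (⌊u⌋ : ℝ) ≤ t₁ * u + |t₁| := by
    intro u
    have h1 : (⌊u⌋ : ℝ) ≤ u := Int.floor_le u
    have h2 : u - 1 < (⌊u⌋ : ℝ) := Int.sub_one_lt_floor u
    rcases le_total 0 t₁ with h | h
    · rw [abs_of_nonneg h]; constructor <;> nlinarith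
    · rw [abs_of_nonpos h]; constructor <;> nlinarith
  have hstep : ∀ j : ℤ, φ (j + 1) ≤ φ j + 1 := by
    intro j
    simp only [hφ]
    rcases hsign with ⟨h1, h2⟩ | ⟨h1, h2⟩
    · have : (⌊X - t₂ * ((j + 1 : ℤ) : ℝ)⌋ : ℝ) ≤ (⌊X - t₂ * (j : ℝ)⌋ : ℝ) := by
        exact_mod_cast Int.floor_le_floor (by push_cast; nlinarith)
      push_cast at this ⊢
      nlinarith
    · have : (⌊X - t₂ * (j : ℝ)⌋ : ℝ) ≤ (⌊X - t₂ * ((j + 1 : ℤ) : ℝ)⌋ : ℝ) := by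
        exact_mod_cast Int.floor_le_floor (by push_cast; nlinarith)
      push_cast at this ⊢
      nlinarith
  -- the set {j | φ j ≤ Y} is nonempty and bounded above
  have hbdd : ∃ b : ℤ, ∀ j : ℤ, φ j ≤ Y → j ≤ b := by
    refine ⟨⌈(Y - t₁ * X + |t₁|) / (1 - t₁ * t₂)⌉, fun j hj => ?_⟩
    have h1 := (hfl (X - t₂ * j)).1
    have : (j : ℝ) * (1 - t₁ * t₂) ≤ Y - t₁ * X + |t₁| := by
      simp only [hφ] at hj; nlinarith
    have h3 : (j : ℝ) ≤ (Y - t₁ * X + |t₁|) / (1 - t₁ * t₂) := by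
      rw [le_div_iff₀ hκ]; exact this
    have h4 := Int.le_ceil ((Y - t₁ * X + |t₁|) / (1 - t₁ * t₂))
    exact_mod_cast h3.trans h4
  have hne : ∃ j : ℤ, φ j ≤ Y := by
    refine ⟨⌊(Y - t₁ * X - |t₁|) / (1 - t₁ * t₂)⌋, ?_⟩
    set j := ⌊(Y - t₁ * X - |t₁|) / (1 - t₁ * t₂)⌋ with hj
    have h1 := (hfl (X - t₂ * j)).2
    have h3 : (j : ℝ) ≤ (Y - t₁ * X - |t₁|) / (1 - t₁ * t₂) := Int.floor_le _
    rw [le_div_iff₀ hκ] at h3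
    simp only [hφ]; nlinarith
  obtain ⟨j, hj, hmax⟩ := Int.exists_greatest_of_bdd hbdd hne
  have hj1 : Y < φ (j + 1) := by
    by_contra hcon
    have := hmax (j + 1) (not_lt.mp hcon)
    omega
  refine ⟨⌊X - t₂ * j⌋, j, ?_, ?_, ?_, ?_⟩
  · have := Int.floor_le (X - t₂ * j); linarith
  · have := Int.sub_one_lt_floor (X - t₂ * j); linarith
  · simp only [hφ] at hj; linarith
  · have h5 := hstep j
    have h6 : φ j = (j : ℝ) + t₁ * (⌊X - t₂ * j⌋ : ℝ) := rfl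
    linarith

end Crest.Agent.S0326H37
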