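import Crest.Agent.Cyl.S0326H37_Count
import Crest.Agent.Cyl.S0326H37_Lattice

set_option autoImplicit false
open MeasureTheory
open scoped ENNReal

namespace Crest.Agent.S0326H37

/-! ### orthonormal frames in the plane -/

theorem onb_decomp (b : OrthonormalBasis (Fin 2) ℝ E2) (w : E2) :
    w = inner ℝ (b 0) w • b 0 + inner ℝ (b 1) w • b 1 := by
  have := b.sum_repr w
  simp only [Fin.sum_univ_two, OrthonormalBasis.repr_apply_apply] at this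
  exact this.symm

theorem onb_ext (b : OrthonormalBasis (Fin 2) ℝ E2) (w w' : E2)
    (h0 : inner ℝ (b 0) w = inner ℝ (b 0) w') (h1 : inner ℝ (b 1) w = inner ℝ (b 1) w') : w = w' := by
  rw [onb_decomp b w, onb_decomp b w', h0, h1]

theorem onb_norm (b : OrthonormalBasis (Fin 2) ℝ E2) (i : Fin 2) : ‖b i‖ = 1 := b.orthonormal.1 i

theorem onb_00 (b : OrthonormalBasis (Fin 2) ℝ E2) : inner ℝ (b 0) (b 0) = 1 := by
  rw [real_inner_self_eq_norm_sq, onb_norm]; norm_num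
theorem onb_11 (b : OrthonormalBasis (Fin 2) ℝ E2) : inner ℝ (b 1) (b 1) = 1 := by
  rw [real_inner_self_eq_norm_sq, onb_norm]; norm_num
theorem onb_01 (b : OrthonormalBasis (Fin 2) ℝ E2) : inner ℝ (b 0) (b 1) = 0 :=
  b.orthonormal.2 (by decide)
theorem onb_10 (b : OrthonormalBasis (Fin 2) ℝ E2) : inner ℝ (b 1) (b 0) = 0 :=
  b.orthonormal.2 (by decide)

theorem onb_abs_inner_le (b : OrthonormalBasis (Fin 2) ℝ E2) (i : Fin 2) (w : E2) :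
    |inner ℝ (b i) w| ≤ ‖w‖ := by
  have := abs_real_inner_le_norm (b i) w
  rwa [onb_norm, one_mul] at this

theorem onb_norm_le (b : OrthonormalBasis (Fin 2) ℝ E2) (w : E2) :
    ‖w‖ ≤ |inner ℝ (b 0) w| + |inner ℝ (b 1) w| := by
  conv_lhs => rw [onb_decomp b w]
  refine (norm_add_le _ _).trans ?_
  simp [norm_smul]

/-! ### covers -/

/-- The weight `J`. -/
noncomputable def Jw (h : ℝ) (v : E2) : ℝ := 1 / Real.sqrt (1 + (v 0) ^ 2 + h ^ 2 * (v 1) ^ 2)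

theorem Jw_pos (h : ℝ) (v : E2) : 0 < Jw h v := by
  unfold Jw
  have : 0 < 1 + (v 0) ^ 2 + h ^ 2 * (v 1) ^ 2 := by positivity
  positivity

theorem Jw_le_one (h : ℝ) (v : E2) : Jw h v ≤ 1 := by
  unfold Jw
  have h1 : (1 : ℝ) ≤ 1 + (v 0) ^ 2 + h ^ 2 * (v 1) ^ 2 := by nlinarith [sq_nonneg (v 0), sq_nonneg (h * v 1)]
  have h2 : (1 : ℝ) ≤ Real.sqrt (1 + (v 0) ^ 2 + h ^ 2 * (v 1) ^ 2) :=
    Real.one_le_sqrt.mpr h1
  rw [div_le_one (by linarith)]; exact h2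

theorem continuous_Jw (h : ℝ) : Continuous (Jw h) := by
  unfold Jw
  refine Continuous.div continuous_const (by fun_prop) fun v => ?_
  have : 0 < 1 + (v 0) ^ 2 + h ^ 2 * (v 1) ^ 2 := by positivity
  exact (Real.sqrt_pos.mpr this).ne'

/-- The ruled set over `A`. -/
def ruled (V : E2 → E2) (L : ℝ) (A : Set E2) : Set (ℝ × E2) :=
  {z | ∃ p ∈ A, |z.1| ≤ L ∧ z.2 = p + z.1 • V p}

/-- A sheared cylinder over a square. -/
def cyl (c a b g : E2) : Set (ℝ × E2) :=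
  {z | ∃ x ∈ Set.Icc (0 : ℝ) 1, ∃ y ∈ Set.Icc (0 : ℝ) 1, z.2 = c + x • a + y • b + z.1 • g}

/-- `Cov V L h A cost`: the ruled set over `A` has a finite cover by sheared cylinders over squares
of total weighted area at most `cost`. -/
def Cov (V : E2 → E2) (L h : ℝ) (A : Set E2) (cost : ℝ) : Prop :=
  ∃ (ι : Type) (_ : Fintype ι) (c a b g : ι → E2),
    (∀ i, a i ≠ 0 ∧ ‖b i‖ = ‖a i‖ ∧ inner ℝ (a i) (b i) = 0) ∧
    ruled V L A ⊆ ⋃ i, cyl (c i) (a i) (b i) (g i) ∧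
    ∑ i, ‖a i‖ ^ 2 / Real.sqrt (1 + (g i 0) ^ 2 + h ^ 2 * (g i 1) ^ 2) ≤ cost

theorem Cov.mono {V : E2 → E2} {L h : ℝ} {A : Set E2} {c₁ c₂ : ℝ} (hc : Cov V L h A c₁)
    (h12 : c₁ ≤ c₂) : Cov V L h A c₂ := by
  obtain ⟨ι, _, c, a, b, g, h1, h2, h3⟩ := hc
  exact ⟨ι, _, c, a, b, g, h1, h2, h3.trans h12⟩

theorem Cov.empty (V : E2 → E2) (L h : ℝ) : Cov V L h ∅ 0 := by
  refine ⟨Empty, inferInstance, fun _ => 0, fun _ => 0, fun _ => 0, fun _ => 0, fun i => i.elim, ?_, ?_⟩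
  · rintro z ⟨p, hp, _⟩; exact hp.elim
  · simp

theorem Cov.union {V : E2 → E2} {L h : ℝ} {A₁ A₂ : Set E2} {c₁ c₂ : ℝ} (h₁ : Cov V L h A₁ c₁)
    (h₂ : Cov V L h A₂ c₂) : Cov V L h (A₁ ∪ A₂) (c₁ + c₂) := by
  obtain ⟨ι₁, _, c, a, b, g, h1, h2, h3⟩ := h₁
  obtain ⟨ι₂, _, c', a', b', g', h1', h2', h3'⟩ := h₂
  refine ⟨ι₁ ⊕ ι₂, inferInstance, Sum.elim c c', Sum.elim a a', Sum.elim b b', Sum.elim g g', ?_, ?_, ?_⟩
  · rintro (i | i)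
    · exact h1 i
    · exact h1' i
  · rintro z ⟨p, hp | hp, hz⟩
    · obtain ⟨i, hi⟩ := Set.mem_iUnion.mp (h2 ⟨p, hp, hz⟩)
      exact Set.mem_iUnion.mpr ⟨Sum.inl i, hi⟩
    · obtain ⟨i, hi⟩ := Set.mem_iUnion.mp (h2' ⟨p, hp, hz⟩)
      exact Set.mem_iUnion.mpr ⟨Sum.inr i, hi⟩
  · rw [Fintype.sum_sum_type]
    exact add_le_add h3 h3'

theorem Cov.toFin {V : E2 → E2} {L h : ℝ} {A : Set E2} {cost : ℝ} (hc : Cov V L h A cost) :
    ∃ (k : ℕ) (c a b g : Fin k → E2),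
      (∀ i, a i ≠ 0 ∧ ‖b i‖ = ‖a i‖ ∧ inner ℝ (a i) (b i) = 0) ∧
      ruled V L A ⊆ ⋃ i, cyl (c i) (a i) (b i) (g i) ∧
      ∑ i, ‖a i‖ ^ 2 / Real.sqrt (1 + (g i 0) ^ 2 + h ^ 2 * (g i 1) ^ 2) ≤ cost := by
  obtain ⟨ι, _, c, a, b, g, h1, h2, h3⟩ := hc
  let e := Fintype.equivFin ι
  refine ⟨Fintype.card ι, c ∘ e.symm, a ∘ e.symm, b ∘ e.symm, g ∘ e.symm, fun i => h1 _, ?_, ?_⟩
  · intro z hz
    obtain ⟨i, hi⟩ := Set.mem_iUnion.mp (h2 hz)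
    refine Set.mem_iUnion.mpr ⟨e i, ?_⟩
    simpa using hi
  · refine le_trans (le_of_eq ?_) h3
    exact Equiv.sum_comp e.symm
      (fun i => ‖a i‖ ^ 2 / Real.sqrt (1 + (g i 0) ^ 2 + h ^ 2 * (g i 1) ^ 2))

end Crest.Agent.S0326H37
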