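import Mathlib

set_option autoImplicit false

namespace Crest.Agent.S0326H37

abbrev E2 := EuclideanSpace ℝ (Fin 2)

theorem trace_eq_inner (b : OrthonormalBasis (Fin 2) ℝ E2) (M : E2 →ₗ[ℝ] E2) :
    LinearMap.trace ℝ _ M = inner ℝ (b 0) (M (b 0)) + inner ℝ (b 1) (M (b 1)) := by
  rw [LinearMap.trace_eq_matrix_trace ℝ b.toBasis M, Matrix.trace_fin_two]
  simp [LinearMap.toMatrix_apply, OrthonormalBasis.coe_toBasis_repr_apply,
    OrthonormalBasis.repr_apply_apply]

theorem det_eq_inner (b : OrthonormalBasis (Fin 2) ℝ E2) (M : E2 →ₗ[ℝ] E2) :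
    LinearMap.det M = inner ℝ (b 0) (M (b 0)) * inner ℝ (b 1) (M (b 1))
      - inner ℝ (b 0) (M (b 1)) * inner ℝ (b 1) (M (b 0)) := by
  rw [← LinearMap.det_toMatrix b.toBasis M, Matrix.det_fin_two]
  simp [LinearMap.toMatrix_apply, OrthonormalBasis.coe_toBasis_repr_apply,
    OrthonormalBasis.repr_apply_apply]

/-- An orthonormal basis with prescribed orthonormal vectors. -/
theorem exists_onb (u v : E2) (hu : ‖u‖ = 1) (hv : ‖v‖ = 1) (huv : inner ℝ u v = 0) :
    ∃ b : OrthonormalBasis (Fin 2) ℝ E2, b 0 = u ∧ b 1 = v := by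
  have hon : Orthonormal ℝ ((Set.univ : Set (Fin 2)).domRestrict ![u, v]) := by
    rw [orthonormal_iff_ite]
    rintro ⟨i, _⟩ ⟨j, _⟩
    fin_cases i <;> fin_cases j <;>
      simp [Set.domRestrict, hu, hv, huv, real_inner_comm]
  obtain ⟨b, hb⟩ := Orthonormal.exists_orthonormalBasis_extension_of_card_eq
    (𝕜 := ℝ) (E := E2) (ι := Fin 2) (by simp) hon
  exact ⟨b, by simpa using hb 0 (Set.mem_univ _), by simpa using hb 1 (Set.mem_univ _)⟩

/-- A traceless endomorphism of the plane has zero diagonal in a suitable orthonormal frame. -/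
theorem exists_frame (M : E2 →ₗ[ℝ] E2) (htr : LinearMap.trace ℝ _ M = 0) :
    ∃ b : OrthonormalBasis (Fin 2) ℝ E2,
      inner ℝ (b 0) (M (b 0)) = 0 ∧ inner ℝ (b 1) (M (b 1)) = 0 := by
  set b₀ : OrthonormalBasis (Fin 2) ℝ E2 := EuclideanSpace.basisFun (Fin 2) ℝ with hb₀
  set u := b₀ 0 with hu
  set v := b₀ 1 with hv
  have hun : ‖u‖ = 1 := b₀.orthonormal.1 0
  have hvn : ‖v‖ = 1 := b₀.orthonormal.1 1
  have huv : inner ℝ u v = 0 := b₀.orthonormal.2 (by decide)
  have hvu : inner ℝ v u = 0 := b₀.orthonormal.2 (by decide)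
  have huu : inner ℝ u u = 1 := by rw [real_inner_self_eq_norm_sq, hun]; norm_num
  have hvv : inner ℝ v v = 1 := by rw [real_inner_self_eq_norm_sq, hvn]; norm_num
  set A := inner ℝ u (M u) with hA
  set B := inner ℝ u (M v) with hB
  set C := inner ℝ v (M u) with hC
  set Dd := inner ℝ v (M v) with hDd
  have h0 : A + Dd = 0 := by rw [← htr, trace_eq_inner b₀ M]
  let q : ℝ → ℝ := fun φ => Real.cos φ ^ 2 * A + Real.cos φ * Real.sin φ * (B + C) + Real.sin φ ^ 2 * Dd
  have hq : Continuous q := by fun_prop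
  have hmem : (0 : ℝ) ∈ Set.uIcc (q 0) (q (Real.pi / 2)) := by
    have h1 : q 0 = A := by simp [q]
    have h2 : q (Real.pi / 2) = -A := by simp [q]; linarith
    rw [h1, h2, Set.mem_uIcc]
    rcases le_total 0 A with h | h
    · right; constructor <;> linarith
    · left; constructor <;> linarith
  obtain ⟨φ, -, hφ⟩ := intermediate_value_uIcc hq.continuousOn hmem
  have hcs : Real.cos φ ^ 2 + Real.sin φ ^ 2 = 1 := Real.cos_sq_add_sin_sq φ
  set c := Real.cos φ
  set s := Real.sin φ
  have n1 : ‖c • u + s • v‖ = 1 := by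
    have : ‖c • u + s • v‖ ^ 2 = 1 := by
      rw [← real_inner_self_eq_norm_sq]
      simp only [inner_add_left, inner_add_right, inner_smul_left, inner_smul_right, huu, hvv, huv,
        hvu, RCLike.conj_to_real]
      nlinarith
    nlinarith [norm_nonneg (c • u + s • v)]
  have n2 : ‖(-s) • u + c • v‖ = 1 := by
    have : ‖(-s) • u + c • v‖ ^ 2 = 1 := by
      rw [← real_inner_self_eq_norm_sq]
      simp only [inner_add_left, inner_add_right, inner_smul_left, inner_smul_right, huu, hvv, huv,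
        hvu, RCLike.conj_to_real]
      nlinarith
    nlinarith [norm_nonneg ((-s) • u + c • v)]
  have n3 : inner ℝ (c • u + s • v) ((-s) • u + c • v) = 0 := by
    simp only [inner_add_left, inner_add_right, inner_smul_left, inner_smul_right, huu, hvv, huv,
      hvu, RCLike.conj_to_real]
    ring
  obtain ⟨b, hb0, hb1⟩ := exists_onb _ _ n1 n2 n3
  have key : inner ℝ (b 0) (M (b 0)) = 0 := by
    rw [hb0]
    simp only [map_add, map_smul, inner_add_left, inner_add_right, inner_smul_left,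
      inner_smul_right, RCLike.conj_to_real]
    have : q φ = 0 := hφ
    simp only [q] at this
    rw [← hA, ← hB, ← hC, ← hDd]
    nlinarith
  refine ⟨b, key, ?_⟩
  have := trace_eq_inner b M
  rw [htr, key] at this
  linarith

end Crest.Agent.S0326H37
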