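import Crest.Agent.Cyl.S0326H37_Cov

set_option autoImplicit false
open MeasureTheory
open scoped ENNReal

namespace Crest.Agent.S0326H37

theorem uv_bound (L β γ σ δ u v : ℝ) (hL : 0 < L) (hσ : |σ| ≤ L) (hβγ : 0 ≤ β * γ)
    (hκ : L ^ 2 * (β * γ) < 1) (hδ : 0 < δ)
    (h1 : 0 ≤ u + σ * β * v) (h2 : u + σ * β * v ≤ δ)
    (h3 : 0 ≤ v + σ * γ * u) (h4 : v + σ * γ * u ≤ δ) :
    |u| + |v| ≤ (2 + L * |β| + L * |γ|) / (1 - L ^ 2 * (β * γ)) * δ := by
  set κ := 1 - L ^ 2 * (β * γ) with hκdef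
  have hκpos : 0 < κ := by rw [hκdef]; linarith
  have hσ2 : σ ^ 2 ≤ L ^ 2 := by
    have := abs_nonneg σ
    calc σ ^ 2 = |σ| ^ 2 := (sq_abs σ).symm
      _ ≤ L ^ 2 := by nlinarith
  have hκ' : κ ≤ 1 - σ ^ 2 * (β * γ) := by rw [hκdef]; nlinarith
  set ξ := u + σ * β * v with hξ
  set ζ := v + σ * γ * u with hζ
  have hu : u * (1 - σ ^ 2 * (β * γ)) = ξ - σ * β * ζ := by rw [hξ, hζ]; ring
  have hv : v * (1 - σ ^ 2 * (β * γ)) = ζ - σ * γ * ξ := by rw [hξ, hζ]; ring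
  have hξa : |ξ| ≤ δ := abs_le.mpr ⟨by linarith, h2⟩
  have hζa : |ζ| ≤ δ := abs_le.mpr ⟨by linarith, h4⟩
  have e1 : |u| * κ ≤ δ * (1 + L * |β|) := by
    calc |u| * κ ≤ |u| * (1 - σ ^ 2 * (β * γ)) := by
          exact mul_le_mul_of_nonneg_left hκ' (abs_nonneg u)
      _ = |u * (1 - σ ^ 2 * (β * γ))| := by
          rw [abs_mul, abs_of_pos (lt_of_lt_of_le hκpos hκ')]
      _ = |ξ - σ * β * ζ| := by rw [hu]
      _ ≤ |ξ| + |σ * β * ζ| := abs_sub _ _
      _ = |ξ| + |σ| * |β| * |ζ| := by rw [abs_mul, abs_mul]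
      _ ≤ δ + L * |β| * δ := by
          have : |σ| * |β| * |ζ| ≤ L * |β| * δ := by
            apply mul_le_mul (mul_le_mul_of_nonneg_right hσ (abs_nonneg β)) hζa (abs_nonneg ζ)
            positivity
          linarith
      _ = δ * (1 + L * |β|) := by ring
  have e2 : |v| * κ ≤ δ * (1 + L * |γ|) := by
    calc |v| * κ ≤ |v| * (1 - σ ^ 2 * (β * γ)) := by
          exact mul_le_mul_of_nonneg_left hκ' (abs_nonneg v)
      _ = |v * (1 - σ ^ 2 * (β * γ))| := by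
          rw [abs_mul, abs_of_pos (lt_of_lt_of_le hκpos hκ')]
      _ = |ζ - σ * γ * ξ| := by rw [hv]
      _ ≤ |ζ| + |σ * γ * ξ| := abs_sub _ _
      _ = |ζ| + |σ| * |γ| * |ξ| := by rw [abs_mul, abs_mul]
      _ ≤ δ + L * |γ| * δ := by
          have : |σ| * |γ| * |ξ| ≤ L * |γ| * δ := by
            apply mul_le_mul (mul_le_mul_of_nonneg_right hσ (abs_nonneg γ)) hξa (abs_nonneg ξ)
            positivity
          linarith
      _ = δ * (1 + L * |γ|) := by ring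
  rw [div_mul_eq_mul_div, le_div_iff₀ hκpos]
  nlinarith

/-- Lattice point. -/
noncomputable def xl (b : OrthonormalBasis (Fin 2) ℝ E2) (p₀ : E2) (δ : ℝ) (ij : ℤ × ℤ) : E2 :=
  p₀ + (δ * ij.1) • b 0 + (δ * ij.2) • b 1

theorem point_cover (V : E2 → E2) (L : ℝ) (hL : 0 < L)
    (b : OrthonormalBasis (Fin 2) ℝ E2) (M : E2 →L[ℝ] E2) (β γ : ℝ)
    (hM0 : M (b 0) = γ • b 1) (hM1 : M (b 1) = β • b 0) (hβγ : 0 ≤ β * γ)
    (hκ : L ^ 2 * (β * γ) < 1)
    (p₀ : E2) (r : ℝ) (θ : ℝ) (hθ : 0 < θ) (τ : ℝ) (hτ : 0 ≤ τ)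
    (hdiff : ∀ x ∈ Metric.ball p₀ (2 * r), DifferentiableAt ℝ V x)
    (hder : ∀ x ∈ Metric.ball p₀ (2 * r), ‖fderiv ℝ V x - M‖ ≤ τ)
    (hτs : L * τ * ((2 + L * |β| + L * |γ|) / (1 - L ^ 2 * (β * γ))) ≤ θ / 2)
    (δ : ℝ) (hδ : 0 < δ) (hδr : (2 + L * |β| + L * |γ|) / (1 - L ^ 2 * (β * γ)) * δ < r)
    (p : E2) (hp : p ∈ Metric.closedBall p₀ r) (σ : ℝ) (hσ : |σ| ≤ L) :
    ∃ ij : ℤ × ℤ, ‖p - xl b p₀ δ ij‖ ≤ (2 + L * |β| + L * |γ|) / (1 - L ^ 2 * (β * γ)) * δ ∧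
      ((σ, p + σ • V p) : ℝ × E2) ∈ cyl (xl b p₀ δ ij - (θ * δ / 2) • b 0 - (θ * δ / 2) • b 1)
        (((1 + θ) * δ) • b 0) (((1 + θ) * δ) • b 1) (V (xl b p₀ δ ij)) := by
  set C := (2 + L * |β| + L * |γ|) / (1 - L ^ 2 * (β * γ)) with hC
  have hσ2 : σ ^ 2 ≤ L ^ 2 := by
    have := abs_nonneg σ
    calc σ ^ 2 = |σ| ^ 2 := (sq_abs σ).symm
      _ ≤ L ^ 2 := by nlinarith
  set k0 := inner ℝ (b 0) (p - p₀) with hk0
  set k1 := inner ℝ (b 1) (p - p₀) with hk1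
  have hsign : (0 ≤ σ * γ ∧ 0 ≤ σ * β) ∨ (σ * γ ≤ 0 ∧ σ * β ≤ 0) := by
    apply mul_nonneg_iff.mp
    have : σ * γ * (σ * β) = σ ^ 2 * (β * γ) := by ring
    rw [this]; positivity
  have hlt : σ * γ * (σ * β) < 1 := by
    have : σ * γ * (σ * β) = σ ^ 2 * (β * γ) := by ring
    rw [this]; nlinarith
  obtain ⟨i, j, h1, h2, h3, h4⟩ := lattice_cover (σ * γ) (σ * β) hsign hlt
    ((k0 + σ * β * k1) / δ) ((k1 + σ * γ * k0) / δ)
  set u := k0 - δ * i with hu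
  set v := k1 - δ * j with hv
  have g1 : u + σ * β * v = δ * ((k0 + σ * β * k1) / δ - i - σ * β * j) := by
    rw [hu, hv]; field_simp; ring
  have g2 : v + σ * γ * u = δ * ((k1 + σ * γ * k0) / δ - σ * γ * i - j) := by
    rw [hu, hv]; field_simp; ring
  have a1 : 0 ≤ u + σ * β * v := by rw [g1]; positivity
  have a2 : u + σ * β * v ≤ δ := by rw [g1]; nlinarith
  have a3 : 0 ≤ v + σ * γ * u := by rw [g2]; positivity
  have a4 : v + σ * γ * u ≤ δ := by rw [g2]; nlinarith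
  have huv := uv_bound L β γ σ δ u v hL hσ hβγ hκ hδ a1 a2 a3 a4
  rw [← hC] at huv
  set x := xl b p₀ δ (i, j) with hx
  set w := p - x with hw
  have w0 : inner ℝ (b 0) w = u := by
    have : w = (p - p₀) - (δ * i) • b 0 - (δ * j) • b 1 := by
      rw [hw, hx, xl]; simp only; abel
    rw [this]
    simp only [inner_sub_right, inner_smul_right, onb_00, onb_01]
    rw [hu, hk0, inner_sub_right]; ring
  have w1 : inner ℝ (b 1) w = v := by
    have : w = (p - p₀) - (δ * i) • b 0 - (δ * j) • b 1 := by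
      rw [hw, hx, xl]; simp only; abel
    rw [this]
    simp only [inner_sub_right, inner_smul_right, onb_10, onb_11]
    rw [hv, hk1, inner_sub_right]; ring
  have hwn : ‖w‖ ≤ C * δ := by
    refine (onb_norm_le b w).trans ?_
    rw [w0, w1]; exact huv
  have hpball : p ∈ Metric.ball p₀ (2 * r) := by
    rw [Metric.mem_closedBall] at hp
    rw [Metric.mem_ball]
    have : 0 < r := lt_of_le_of_lt (by
      have : 0 ≤ ‖w‖ := norm_nonneg w
      linarith) hδr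
    linarith
  have hxball : x ∈ Metric.ball p₀ (2 * r) := by
    rw [Metric.mem_closedBall, dist_eq_norm] at hp
    rw [Metric.mem_ball, dist_eq_norm]
    have : x - p₀ = (p - p₀) - w := by rw [hw]; abel
    rw [this]
    calc ‖(p - p₀) - w‖ ≤ ‖p - p₀‖ + ‖w‖ := norm_sub_le _ _
      _ < 2 * r := by linarith
  set Er := V p - V x - M (p - x) with hEr
  have hErn : ‖Er‖ ≤ τ * ‖w‖ :=
    Convex.norm_image_sub_le_of_norm_fderiv_le' hdiff hder (convex_ball p₀ (2 * r)) hxball hpball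
  have hErn' : L * ‖Er‖ ≤ θ * δ / 2 := by
    calc L * ‖Er‖ ≤ L * (τ * (C * δ)) := by
          apply mul_le_mul_of_nonneg_left _ hL.le
          exact hErn.trans (mul_le_mul_of_nonneg_left hwn hτ)
      _ = (L * τ * C) * δ := by ring
      _ ≤ θ / 2 * δ := mul_le_mul_of_nonneg_right hτs hδ.le
      _ = θ * δ / 2 := by ring
  have hMw : M w = (v * β) • b 0 + (u * γ) • b 1 := by
    conv_lhs => rw [onb_decomp b w, w0, w1]
    rw [map_add, map_smul, map_smul, hM0, hM1, smul_smul, smul_smul, add_comm]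
  have hσE : ∀ k : Fin 2, |σ * inner ℝ (b k) Er| ≤ θ * δ / 2 := by
    intro k
    rw [abs_mul]
    calc |σ| * |inner ℝ (b k) Er| ≤ L * ‖Er‖ :=
          mul_le_mul hσ (onb_abs_inner_le b k Er) (abs_nonneg _) hL.le
      _ ≤ θ * δ / 2 := hErn'
  have hpos : 0 < (1 + θ) * δ := by positivity
  have key : p + σ • V p = x - (θ * δ / 2) • b 0 - (θ * δ / 2) • b 1 +
      ((u + σ * β * v + σ * inner ℝ (b 0) Er + θ * δ / 2) / ((1 + θ) * δ)) • (((1 + θ) * δ) • b 0) +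
      ((v + σ * γ * u + σ * inner ℝ (b 1) Er + θ * δ / 2) / ((1 + θ) * δ)) • (((1 + θ) * δ) • b 1) +
      σ • V x := by
    have hVp : V p = Er + V x + M w := by rw [hEr, hw]; abel
    have hpx : p = x + w := by rw [hw]; abel
    rw [smul_smul, smul_smul, div_mul_cancel₀ _ hpos.ne', div_mul_cancel₀ _ hpos.ne']
    apply onb_ext b
    · conv_lhs => rw [hVp, hpx, hMw]
      simp only [inner_add_right, inner_sub_right, inner_smul_right, onb_00, onb_01, w0]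
      ring
    · conv_lhs => rw [hVp, hpx, hMw]
      simp only [inner_add_right, inner_sub_right, inner_smul_right, onb_10, onb_11, w1]
      ring
  have b1 : (u + σ * β * v + σ * inner ℝ (b 0) Er + θ * δ / 2) / ((1 + θ) * δ) ∈ Set.Icc (0 : ℝ) 1 := by
    have := abs_le.mp (hσE 0)
    constructor
    · apply div_nonneg _ hpos.le
      linarith [this.1]
    · rw [div_le_one hpos]
      nlinarith [this.2]
  have b2 : (v + σ * γ * u + σ * inner ℝ (b 1) Er + θ * δ / 2) / ((1 + θ) * δ) ∈ Set.Icc (0 : ℝ) 1 := by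
    have := abs_le.mp (hσE 1)
    constructor
    · apply div_nonneg _ hpos.le
      linarith [this.1]
    · rw [div_le_one hpos]
      nlinarith [this.2]
  exact ⟨(i, j), hwn, _, b1, _, b2, key⟩

end Crest.Agent.S0326H37
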