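import Crest.Agent.Cyl.S0326H37_Local

set_option autoImplicit false
open MeasureTheory
open scoped ENNReal

namespace Crest.Agent.S0326H37

theorem inner_xl_0 (b : OrthonormalBasis (Fin 2) ℝ E2) (p₀ : E2) (δ : ℝ) (ij : ℤ × ℤ) :
    inner ℝ (b 0) (xl b p₀ δ ij - p₀) = δ * ij.1 := by
  have : xl b p₀ δ ij - p₀ = (δ * ij.1) • b 0 + (δ * ij.2) • b 1 := by rw [xl]; abel
  rw [this]; simp only [inner_add_right, inner_smul_right, onb_00, onb_01]; ring

theorem inner_xl_1 (b : OrthonormalBasis (Fin 2) ℝ E2) (p₀ : E2) (δ : ℝ) (ij : ℤ × ℤ) :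
    inner ℝ (b 1) (xl b p₀ δ ij - p₀) = δ * ij.2 := by
  have : xl b p₀ δ ij - p₀ = (δ * ij.1) • b 0 + (δ * ij.2) • b 1 := by rw [xl]; abel
  rw [this]; simp only [inner_add_right, inner_smul_right, onb_10, onb_11]; ring

/-- The lattice indices within distance `R` of a bounded set form a finite set. -/
theorem finite_near (b : OrthonormalBasis (Fin 2) ℝ E2) (p₀ : E2) (δ : ℝ) (hδ : 0 < δ)
    (A : Set E2) (r R : ℝ) (hAr : A ⊆ Metric.closedBall p₀ r) :
    {ij : ℤ × ℤ | ∃ p ∈ A, ‖p - xl b p₀ δ ij‖ ≤ R}.Finite := by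
  set n : ℤ := ⌈(R + r) / δ⌉ with hn
  apply Set.Finite.subset ((Set.finite_Icc (-n) n).prod (Set.finite_Icc (-n) n))
  rintro ij ⟨p, hp, hpx⟩
  have hpr : ‖p - p₀‖ ≤ r := by
    have := hAr hp; rwa [Metric.mem_closedBall, dist_eq_norm] at this
  have hx : ‖xl b p₀ δ ij - p₀‖ ≤ R + r := by
    have : xl b p₀ δ ij - p₀ = (p - p₀) - (p - xl b p₀ δ ij) := by abel
    rw [this]
    exact (norm_sub_le _ _).trans (by linarith)
  have aux : ∀ m : ℤ, |δ * (m : ℝ)| ≤ R + r → m ∈ Set.Icc (-n) n := by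
    intro m hm
    rw [abs_mul, abs_of_pos hδ] at hm
    have h1 : |(m : ℝ)| ≤ (R + r) / δ := by rw [le_div_iff₀ hδ]; linarith
    have h2 : |(m : ℝ)| ≤ (n : ℝ) := h1.trans (Int.le_ceil _)
    have h3 := abs_le.mp h2
    constructor
    · have : (-(n : ℝ)) ≤ m := h3.1
      exact_mod_cast this
    · exact_mod_cast h3.2
  refine Set.mem_prod.mpr ⟨aux _ ?_, aux _ ?_⟩
  · rw [← inner_xl_0 b p₀ δ ij]; exact (onb_abs_inner_le b 0 _).trans hx
  · rw [← inner_xl_1 b p₀ δ ij]; exact (onb_abs_inner_le b 1 _).trans hx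

theorem sq_subset_cthickening (b : OrthonormalBasis (Fin 2) ℝ E2) (p₀ : E2) (δ : ℝ) (hδ : 0 < δ)
    (A : Set E2) (R : ℝ) (ij : ℤ × ℤ) (hij : ∃ p ∈ A, ‖p - xl b p₀ δ ij‖ ≤ R) :
    sq b p₀ δ ij ⊆ Metric.cthickening (R + 2 * δ) A := by
  obtain ⟨p, hp, hpx⟩ := hij
  rintro x ⟨⟨h1, h2⟩, ⟨h3, h4⟩⟩
  apply Metric.mem_cthickening_of_dist_le x p _ A hp
  rw [dist_eq_norm]
  have e : x - p = (x - xl b p₀ δ ij) - (p - xl b p₀ δ ij) := by abel
  have hx : ‖x - xl b p₀ δ ij‖ ≤ 2 * δ := by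
    refine (onb_norm_le b _).trans ?_
    have e2 : x - xl b p₀ δ ij = (x - p₀) - (xl b p₀ δ ij - p₀) := by abel
    rw [e2, inner_sub_right (b 0) (x - p₀), inner_sub_right (b 1) (x - p₀), inner_xl_0, inner_xl_1]
    have a1 : |inner ℝ (b 0) (x - p₀) - δ * ij.1| ≤ δ := by
      rw [abs_le]; constructor <;> nlinarith
    have a2 : |inner ℝ (b 1) (x - p₀) - δ * ij.2| ≤ δ := by
      rw [abs_le]; constructor <;> nlinarith
    linarith
  rw [e]
  exact (norm_sub_le _ _).trans (by linarith)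

theorem local_cov (V : E2 → E2) (L h : ℝ) (hL : 0 < L)
    (b : OrthonormalBasis (Fin 2) ℝ E2) (M : E2 →L[ℝ] E2) (β γ : ℝ)
    (hM0 : M (b 0) = γ • b 1) (hM1 : M (b 1) = β • b 0) (hβγ : 0 ≤ β * γ)
    (hκ : L ^ 2 * (β * γ) < 1)
    (p₀ : E2) (r : ℝ) (hr : 0 < r) (θ : ℝ) (hθ : 0 < θ) (τ : ℝ) (hτ : 0 ≤ τ)
    (hdiff : ∀ x ∈ Metric.ball p₀ (2 * r), DifferentiableAt ℝ V x)
    (hder : ∀ x ∈ Metric.ball p₀ (2 * r), ‖fderiv ℝ V x - M‖ ≤ τ)
    (hτs : L * τ * ((2 + L * |β| + L * |γ|) / (1 - L ^ 2 * (β * γ))) ≤ θ / 2)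
    (W₀ : ℝ) (hW : ∀ x ∈ Metric.ball p₀ (2 * r), Jw h (V x) ≤ W₀)
    (A : Set E2) (hA : IsCompact A) (hAr : A ⊆ Metric.closedBall p₀ r) (ε' : ℝ) (hε' : 0 < ε') :
    Cov V L h A ((1 + θ) ^ 2 * W₀ * (volume A).toReal + ε') := by
  set C := (2 + L * |β| + L * |γ|) / (1 - L ^ 2 * (β * γ)) with hC
  have hCpos : 0 < C := by
    rw [hC]; apply div_pos (by positivity) (by linarith)
  have hW₀ : 0 < W₀ := lt_of_lt_of_le (Jw_pos h (V p₀)) (hW p₀ (Metric.mem_ball_self (by linarith)))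
  set ε₂ := ε' / ((1 + θ) ^ 2 * W₀) with hε₂
  have hε₂pos : 0 < ε₂ := by rw [hε₂]; positivity
  have hAfin : volume A ≠ ⊤ := hA.measure_lt_top.ne
  -- choose the mesh
  have hev : ∀ᶠ ρ in nhds (0 : ℝ), volume (Metric.cthickening ρ A) < volume A + ENNReal.ofReal ε₂ :=
    (tendsto_order.1 (tendsto_measure_cthickening_of_isCompact hA)).2 _
      (ENNReal.lt_add_right hAfin (by simpa using hε₂pos))
  obtain ⟨ρ₀, hρ₀, hρ⟩ := Metric.eventually_nhds_iff.mp hev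
  set δ := min (ρ₀ / (2 * (C + 2))) (r / (2 * C)) with hδdef
  have hδ : 0 < δ := by rw [hδdef]; apply lt_min <;> positivity
  have hδ1 : (C + 2) * δ < ρ₀ := by
    have : δ ≤ ρ₀ / (2 * (C + 2)) := min_le_left _ _
    calc (C + 2) * δ ≤ (C + 2) * (ρ₀ / (2 * (C + 2))) := by
          apply mul_le_mul_of_nonneg_left this (by positivity)
      _ = ρ₀ / 2 := by field_simp
      _ < ρ₀ := by linarith
  have hδ2 : C * δ < r := by
    have : δ ≤ r / (2 * C) := min_le_right _ _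
    calc C * δ ≤ C * (r / (2 * C)) := by
          apply mul_le_mul_of_nonneg_left this (by positivity)
      _ = r / 2 := by field_simp
      _ < r := by linarith
  have hfin := finite_near b p₀ δ hδ A r (C * δ) hAr
  set F : Finset (ℤ × ℤ) := hfin.toFinset with hF
  have hFmem : ∀ ij, ij ∈ F ↔ ∃ p ∈ A, ‖p - xl b p₀ δ ij‖ ≤ C * δ := by
    intro ij; rw [hF, Set.Finite.mem_toFinset]; rfl
  -- counting
  have hcount : (F.card : ℝ) * δ ^ 2 ≤ (volume A).toReal + ε₂ := by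
    have h1 := count_le b p₀ δ hδ F (Metric.cthickening (C * δ + 2 * δ) A)
      (fun ij hij => sq_subset_cthickening b p₀ δ hδ A (C * δ) ij ((hFmem ij).mp hij))
    have h2 : volume (Metric.cthickening (C * δ + 2 * δ) A) < volume A + ENNReal.ofReal ε₂ := by
      apply hρ
      rw [Real.dist_eq, sub_zero, abs_of_pos (by positivity)]
      linarith
    have h3 := (h1.trans h2.le)
    have h4 := ENNReal.toReal_mono (by finiteness) h3
    rw [ENNReal.toReal_mul, ENNReal.toReal_natCast, ENNReal.toReal_ofReal (by positivity),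
      ENNReal.toReal_add hAfin (by finiteness), ENNReal.toReal_ofReal hε₂pos.le] at h4
    exact h4
  refine ⟨↥F, inferInstance, fun ij => xl b p₀ δ ij - (θ * δ / 2) • b 0 - (θ * δ / 2) • b 1,
    fun _ => ((1 + θ) * δ) • b 0, fun _ => ((1 + θ) * δ) • b 1, fun ij => V (xl b p₀ δ ij), ?_, ?_, ?_⟩
  · intro _
    have hpos : 0 < (1 + θ) * δ := by positivity
    refine ⟨?_, ?_, ?_⟩
    · intro h0
      have := congrArg norm h0
      rw [norm_smul, onb_norm, norm_zero, mul_one, Real.norm_eq_abs, abs_of_pos hpos] at this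
      linarith
    · rw [norm_smul, norm_smul, onb_norm, onb_norm]
    · rw [inner_smul_left, inner_smul_right, onb_01]; simp
  · rintro ⟨σ, q⟩ ⟨p, hp, hσ, hq⟩
    simp only at hσ hq
    obtain ⟨ij, hij1, hij2⟩ := point_cover V L hL b M β γ hM0 hM1 hβγ hκ p₀ r θ hθ τ hτ hdiff hder hτs
      δ hδ hδ2 p (hAr hp) σ hσ
    refine Set.mem_iUnion.mpr ⟨⟨ij, (hFmem ij).mpr ⟨p, hp, hij1⟩⟩, ?_⟩
    rw [hq]; exact hij2
  · have hterm : ∀ ij : ↥F, ‖((1 + θ) * δ) • b 0‖ ^ 2 /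
        Real.sqrt (1 + (V (xl b p₀ δ ij) 0) ^ 2 + h ^ 2 * (V (xl b p₀ δ ij) 1) ^ 2) ≤
        ((1 + θ) * δ) ^ 2 * W₀ := by
      intro ij
      obtain ⟨p, hp, hpx⟩ := (hFmem ij).mp ij.2
      have hxb : xl b p₀ δ ij ∈ Metric.ball p₀ (2 * r) := by
        rw [Metric.mem_ball, dist_eq_norm]
        have hpr : ‖p - p₀‖ ≤ r := by
          have := hAr hp; rwa [Metric.mem_closedBall, dist_eq_norm] at this
        have : xl b p₀ δ ij - p₀ = (p - p₀) - (p - xl b p₀ δ ij) := by abel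
        rw [this]
        exact lt_of_le_of_lt (norm_sub_le _ _) (by linarith)
      have := hW _ hxb
      rw [norm_smul, onb_norm, mul_one, Real.norm_eq_abs, sq_abs, div_eq_mul_one_div]
      exact mul_le_mul_of_nonneg_left this (by positivity)
    calc _ ≤ ∑ _ij : ↥F, ((1 + θ) * δ) ^ 2 * W₀ := Finset.sum_le_sum fun ij _ => hterm ij
      _ = (1 + θ) ^ 2 * W₀ * ((F.card : ℝ) * δ ^ 2) := by
          rw [Finset.sum_const, Finset.card_univ, Fintype.card_coe, nsmul_eq_mul]; ring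
      _ ≤ (1 + θ) ^ 2 * W₀ * ((volume A).toReal + ε₂) := by
          apply mul_le_mul_of_nonneg_left hcount (by positivity)
      _ = (1 + θ) ^ 2 * W₀ * (volume A).toReal + ε' := by
          rw [hε₂]; field_simp

end Crest.Agent.S0326H37
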