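import Crest.Agent.Cyl.S0326_Defs

/-! # S0326: the algebraic part (helper49)

* `lattice`: integer lattice covering lemma;
* `exists_frame`, `frame_decomp`: a traceless linear map of the plane is anti-diagonal in a suitable
  orthonormal frame;
* `local_cover`: the lattice squares moving with the linear velocity field keep covering the plane;
* `inv_bound`: norm bound for `(I + sA)⁻¹`.
-/

set_option autoImplicit false
open MeasureTheory
open scoped ENNReal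

namespace Crest.Agent.S0326


theorem lattice_nonneg (t1 t2 : ℝ) (ht1 : 0 ≤ t1) (ht2 : 0 ≤ t2) (h1 : t1 * t2 < 1) (X Y : ℝ) :
    ∃ i j : ℤ, X - i - t2 * j ∈ Set.Icc (0 : ℝ) 1 ∧ Y - t1 * i - j ∈ Set.Icc (0 : ℝ) 1 := by
  have hk : 0 < 1 - t1 * t2 := by linarith
  obtain ⟨j, hj, hmax⟩ := Int.exists_greatest_of_bdd
    (P := fun j : ℤ => t1 * (⌊X - t2 * j⌋ : ℝ) + j ≤ Y)
    (by
      refine ⟨⌈(Y - t1 * (X - 1)) / (1 - t1 * t2)⌉, fun z hz => ?_⟩
      have h2 : X - t2 * z - 1 < (⌊X - t2 * z⌋ : ℝ) := Int.sub_one_lt_floor _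
      have h3 : t1 * (X - t2 * z - 1) ≤ t1 * (⌊X - t2 * z⌋ : ℝ) :=
        mul_le_mul_of_nonneg_left h2.le ht1
      have h4 : (z : ℝ) ≤ (Y - t1 * (X - 1)) / (1 - t1 * t2) := by
        rw [le_div_iff₀ hk]; nlinarith
      exact Int.le_ceil_iff.mpr (by linarith) |>.trans' le_rfl)
    (by
      refine ⟨⌊(Y - t1 * X) / (1 - t1 * t2)⌋, ?_⟩
      set z : ℤ := ⌊(Y - t1 * X) / (1 - t1 * t2)⌋ with hz
      have h2 : (⌊X - t2 * z⌋ : ℝ) ≤ X - t2 * z := Int.floor_le _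
      have h3 : t1 * (⌊X - t2 * z⌋ : ℝ) ≤ t1 * (X - t2 * z) :=
        mul_le_mul_of_nonneg_left h2 ht1
      have h4 : (z : ℝ) ≤ (Y - t1 * X) / (1 - t1 * t2) := Int.floor_le _
      rw [le_div_iff₀ hk] at h4
      show t1 * (⌊X - t2 * z⌋ : ℝ) + z ≤ Y
      nlinarith)
  refine ⟨⌊X - t2 * j⌋, j, ⟨?_, ?_⟩, ⟨?_, ?_⟩⟩
  · have := Int.floor_le (X - t2 * j); linarith
  · have := Int.lt_floor_add_one (X - t2 * j); linarith
  · linarith
  · by_contra hcon
    rw [not_le] at hcon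
    have h5 : t1 * (⌊X - t2 * ((j + 1 : ℤ) : ℝ)⌋ : ℝ) + ((j + 1 : ℤ) : ℝ) ≤ Y := by
      have h6 : ⌊X - t2 * ((j + 1 : ℤ) : ℝ)⌋ ≤ ⌊X - t2 * j⌋ := by
        apply Int.floor_le_floor
        push_cast
        nlinarith
      have h7 : (⌊X - t2 * ((j + 1 : ℤ) : ℝ)⌋ : ℝ) ≤ (⌊X - t2 * j⌋ : ℝ) := by exact_mod_cast h6
      have h8 := mul_le_mul_of_nonneg_left h7 ht1
      push_cast at h8 ⊢
      linarith
    have := hmax (j + 1) h5
    omega

/-- Lattice lemma. -/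
theorem lattice (t1 t2 : ℝ) (h0 : 0 ≤ t1 * t2) (h1 : t1 * t2 < 1) (X Y : ℝ) :
    ∃ i j : ℤ, X - i - t2 * j ∈ Set.Icc (0 : ℝ) 1 ∧ Y - t1 * i - j ∈ Set.Icc (0 : ℝ) 1 := by
  by_cases hpos : 0 ≤ t1 ∧ 0 ≤ t2
  · exact lattice_nonneg t1 t2 hpos.1 hpos.2 h1 X Y
  · have hneg : t1 ≤ 0 ∧ t2 ≤ 0 := by
      by_contra hc
      rw [not_and_or] at hpos hc
      simp only [not_le] at hpos hc
      rcases hpos with h | h <;> rcases hc with h' | h'
      · linarith
      · nlinarith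
      · nlinarith
      · linarith
    obtain ⟨i, j, ⟨h2, h3⟩, ⟨h4, h5⟩⟩ := lattice_nonneg (-t1) (-t2) (by linarith [hneg.1])
      (by linarith [hneg.2]) (by linarith) X (1 - Y)
    refine ⟨i, -j, ⟨?_, ?_⟩, ⟨?_, ?_⟩⟩ <;> push_cast <;> linarith


/-- Matrix entries of a linear map of the plane. -/
theorem entries (A : E2 →L[ℝ] E2) : ∃ a b c d : ℝ,
    (∀ x : E2, A x 0 = a * x 0 + b * x 1 ∧ A x 1 = c * x 0 + d * x 1) ∧
    LinearMap.trace ℝ _ A.toLinearMap = a + d ∧ LinearMap.det A.toLinearMap = a * d - b * c := by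
  refine ⟨A (EuclideanSpace.single 0 1) 0, A (EuclideanSpace.single 1 1) 0,
    A (EuclideanSpace.single 0 1) 1, A (EuclideanSpace.single 1 1) 1, ?_, ?_, ?_⟩
  · intro x
    have hx : x = x 0 • EuclideanSpace.single (0 : Fin 2) (1 : ℝ)
        + x 1 • EuclideanSpace.single (1 : Fin 2) (1 : ℝ) := by
      ext i
      fin_cases i <;> simp
    constructor
    · conv_lhs => rw [hx]
      simp [mul_comm]
    · conv_lhs => rw [hx]
      simp [mul_comm]
  · rw [LinearMap.trace_eq_matrix_trace ℝ (EuclideanSpace.basisFun (Fin 2) ℝ).toBasis]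
    simp [Matrix.trace_fin_two, LinearMap.toMatrix_apply]
  · rw [← LinearMap.det_toMatrix (EuclideanSpace.basisFun (Fin 2) ℝ).toBasis, Matrix.det_fin_two]
    simp [LinearMap.toMatrix_apply]

theorem exists_unit_root (a m : ℝ) :
    ∃ x y : ℝ, x ^ 2 + y ^ 2 = 1 ∧ a * (x ^ 2 - y ^ 2) + m * x * y = 0 := by
  by_cases ha : a = 0
  · exact ⟨1, 0, by norm_num, by simp [ha]⟩
  · set q : ℝ := Real.sqrt (m ^ 2 + 4 * a ^ 2) with hq
    have hq2 : q ^ 2 = m ^ 2 + 4 * a ^ 2 := Real.sq_sqrt (by positivity)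
    set N : ℝ := Real.sqrt ((q - m) ^ 2 + (2 * a) ^ 2) with hN
    have hpos : 0 < (q - m) ^ 2 + (2 * a) ^ 2 := by positivity
    have hN2 : N ^ 2 = (q - m) ^ 2 + (2 * a) ^ 2 := Real.sq_sqrt hpos.le
    have hN0 : N ≠ 0 := (Real.sqrt_pos.mpr hpos).ne'
    refine ⟨(q - m) / N, 2 * a / N, ?_, ?_⟩
    · field_simp
      linarith
    · field_simp
      linear_combination a * hq2

theorem norm_sq_E2 (x : E2) : ‖x‖ ^ 2 = x 0 ^ 2 + x 1 ^ 2 := by
  rw [EuclideanSpace.norm_sq_eq, Fin.sum_univ_two]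
  simp

theorem inner_E2 (x y : E2) : inner ℝ x y = x 0 * y 0 + x 1 * y 1 := by
  rw [PiLp.inner_apply, Fin.sum_univ_two]
  simp [mul_comm]

/-- Every vector of the plane is the sum of its components in an orthonormal frame. -/
theorem frame_decomp (u w : E2) (hu : ‖u‖ = 1) (hw : ‖w‖ = 1) (huw : inner ℝ u w = 0) (x : E2) :
    x = inner ℝ u x • u + inner ℝ w x • w := by
  have h1 : u 0 ^ 2 + u 1 ^ 2 = 1 := by rw [← norm_sq_E2, hu]; norm_num
  have h2 : w 0 ^ 2 + w 1 ^ 2 = 1 := by rw [← norm_sq_E2, hw]; norm_num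
  have h3 : u 0 * w 0 + u 1 * w 1 = 0 := by rw [← inner_E2, huw]
  set Δ : ℝ := u 0 * w 1 - u 1 * w 0 with hΔ
  have hΔ2 : Δ ^ 2 = 1 := by
    have : Δ ^ 2 = (u 0 ^ 2 + u 1 ^ 2) * (w 0 ^ 2 + w 1 ^ 2) - (u 0 * w 0 + u 1 * w 1) ^ 2 := by
      rw [hΔ]; ring
    rw [this, h1, h2, h3]; norm_num
  have hw0 : w 0 = - u 1 * Δ := by
    have : w 0 * (u 0 ^ 2 + u 1 ^ 2) = u 0 * (u 0 * w 0 + u 1 * w 1) - u 1 * Δ := by rw [hΔ]; ring
    rw [h1, h3] at this; linarith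
  have hw1 : w 1 = u 0 * Δ := by
    have : w 1 * (u 0 ^ 2 + u 1 ^ 2) = u 1 * (u 0 * w 0 + u 1 * w 1) + u 0 * Δ := by rw [hΔ]; ring
    rw [h1, h3] at this; linarith
  ext i
  fin_cases i
  · simp only [inner_E2, Fin.zero_eta, PiLp.add_apply, PiLp.smul_apply, smul_eq_mul]
    rw [hw0, hw1]
    linear_combination (- x 0) * h1 + (- u 1 ^ 2 * x 0 + u 0 * u 1 * x 1) * hΔ2
  · simp only [inner_E2, Fin.mk_one, PiLp.add_apply, PiLp.smul_apply, smul_eq_mul]
    rw [hw0, hw1]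
    linear_combination (- x 1) * h1 + (- u 0 ^ 2 * x 1 + u 0 * u 1 * x 0) * hΔ2

/-- A traceless linear map of the plane is anti-diagonal in a suitable orthonormal frame. -/
theorem exists_frame (A : E2 →L[ℝ] E2) (htr : LinearMap.trace ℝ _ A.toLinearMap = 0) :
    ∃ (u w : E2) (β γ : ℝ), ‖u‖ = 1 ∧ ‖w‖ = 1 ∧ inner ℝ u w = 0 ∧ A u = β • w ∧ A w = γ • u ∧
      β * γ = - LinearMap.det A.toLinearMap := by
  obtain ⟨a, b, c, d, hA, htr', hdet'⟩ := entries A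
  have hd : d = -a := by linarith
  subst hd
  obtain ⟨x, y, h1, hq⟩ := exists_unit_root a (b + c)
  refine ⟨!₂[x, y], !₂[-y, x], c * x ^ 2 - b * y ^ 2 - 2 * a * x * y,
    b * x ^ 2 - c * y ^ 2 - 2 * a * x * y, ?_, ?_, ?_, ?_, ?_, ?_⟩
  · have : ‖(!₂[x, y] : E2)‖ ^ 2 = 1 := by rw [norm_sq_E2]; simpa using h1
    nlinarith [norm_nonneg (!₂[x, y] : E2)]
  · have : ‖(!₂[-y, x] : E2)‖ ^ 2 = 1 := by rw [norm_sq_E2]; simp; linarith
    nlinarith [norm_nonneg (!₂[-y, x] : E2)]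
  · rw [inner_E2]; simp; ring
  · ext i
    fin_cases i
    · simp only [Fin.zero_eta, (hA _).1, PiLp.smul_apply, smul_eq_mul]
      simp
      linear_combination (-(a * x + b * y)) * h1 + x * hq
    · simp only [Fin.mk_one, (hA _).2, PiLp.smul_apply, smul_eq_mul]
      simp
      linear_combination (-(c * x - a * y)) * h1 + y * hq
  · ext i
    fin_cases i
    · simp only [Fin.zero_eta, (hA _).1, PiLp.smul_apply, smul_eq_mul]
      simp
      linear_combination (-(- a * y + b * x)) * h1 + y * hq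
    · simp only [Fin.mk_one, (hA _).2, PiLp.smul_apply, smul_eq_mul]
      simp
      linear_combination (-(- c * y - a * x)) * h1 - x * hq
  · rw [hdet']
    have h1' : (x ^ 2 + y ^ 2) ^ 2 = 1 := by rw [h1]; norm_num
    linear_combination (a ^ 2 + b * c) * h1' - (a * (x ^ 2 - y ^ 2) + (b + c) * x * y) * hq

/-- In the adapted orthonormal frame `u, w` of the traceless map `A`, the lattice squares of side `δ`
moving with the velocities `A (corner)` cover the plane at every time `|s| ≤ L`. -/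
theorem local_cover (A : E2 →L[ℝ] E2) (htr : LinearMap.trace ℝ _ A.toLinearMap = 0)
    (L : ℝ) (hL : 0 < L)
    (hdet : -(L ^ 2)⁻¹ < LinearMap.det A.toLinearMap ∧ LinearMap.det A.toLinearMap ≤ 0) :
    ∃ u w : E2, ‖u‖ = 1 ∧ ‖w‖ = 1 ∧ inner ℝ u w = 0 ∧
      ∀ δ : ℝ, 0 < δ → ∀ s : ℝ, |s| ≤ L → ∀ z : E2,
        ∃ i j : ℤ, ∃ x ∈ Set.Icc (0 : ℝ) 1, ∃ y ∈ Set.Icc (0 : ℝ) 1,
          z = ((δ * i) • u + (δ * j) • w) + s • A ((δ * i) • u + (δ * j) • w)
            + (x * δ) • u + (y * δ) • w := by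
  obtain ⟨u, w, β, γ, hu, hw, huw, hAu, hAw, hβγ⟩ := exists_frame A htr
  refine ⟨u, w, hu, hw, huw, fun δ hδ s hs z => ?_⟩
  have hL2 : 0 < L ^ 2 := by positivity
  have hbg0 : 0 ≤ β * γ := by rw [hβγ]; linarith [hdet.2]
  have hbg1 : L ^ 2 * (β * γ) < 1 := by
    have h1 : β * γ < (L ^ 2)⁻¹ := by rw [hβγ]; linarith [hdet.1]
    calc L ^ 2 * (β * γ) < L ^ 2 * (L ^ 2)⁻¹ := mul_lt_mul_of_pos_left h1 hL2
      _ = 1 := mul_inv_cancel₀ hL2.ne'
  have hs2 : s ^ 2 ≤ L ^ 2 := by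
    rw [← sq_abs s]
    exact pow_le_pow_left₀ (abs_nonneg s) hs 2
  have h0 : 0 ≤ (s * β) * (s * γ) := by
    have : (s * β) * (s * γ) = s ^ 2 * (β * γ) := by ring
    rw [this]; positivity
  have h1 : (s * β) * (s * γ) < 1 := by
    have : (s * β) * (s * γ) = s ^ 2 * (β * γ) := by ring
    rw [this]
    exact lt_of_le_of_lt (mul_le_mul_of_nonneg_right hs2 hbg0) hbg1
  obtain ⟨i, j, hx, hy⟩ := lattice (s * β) (s * γ) h0 h1 (inner ℝ u z / δ) (inner ℝ w z / δ)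
  refine ⟨i, j, _, hx, _, hy, ?_⟩
  conv_lhs => rw [frame_decomp u w hu hw huw z]
  simp only [map_add, map_smul, hAu, hAw, smul_add, smul_smul]
  have e1 : inner ℝ u z = δ * i + s * (δ * j * γ) + (inner ℝ u z / δ - i - s * γ * j) * δ := by
    field_simp; ring
  have e2 : inner ℝ w z = δ * j + s * (δ * i * β) + (inner ℝ w z / δ - s * β * i - j) * δ := by
    field_simp; ring
  conv_lhs => rw [e1, e2]
  simp only [add_smul]
  abel

/-- `A² = -det A` for a traceless map of the plane. -/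
theorem sq_traceless (A : E2 →L[ℝ] E2) (htr : LinearMap.trace ℝ _ A.toLinearMap = 0) (v : E2) :
    A (A v) = (- LinearMap.det A.toLinearMap) • v := by
  obtain ⟨a, b, c, d, hA, htr', hdet'⟩ := entries A
  have hd : d = -a := by linarith
  subst hd
  ext i
  fin_cases i
  · simp only [Fin.zero_eta, (hA _).1, (hA _).2, PiLp.smul_apply, smul_eq_mul, hdet']
    ring
  · simp only [Fin.mk_one, (hA _).1, (hA _).2, PiLp.smul_apply, smul_eq_mul, hdet']
    ring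

/-- `(I - sA)(I + sA) = (1 + s² det A) I` for traceless `A`, in norm form. -/
theorem inv_bound (A : E2 →L[ℝ] E2) (htr : LinearMap.trace ℝ _ A.toLinearMap = 0)
    (s : ℝ) (v : E2) :
    (1 + s ^ 2 * LinearMap.det A.toLinearMap) * ‖v‖ ≤ (1 + |s| * ‖A‖) * ‖v + s • A v‖ := by
  have key : (1 + s ^ 2 * LinearMap.det A.toLinearMap) • v
      = (v + s • A v) - s • A (v + s • A v) := by
    simp only [map_add, map_smul, sq_traceless A htr v, smul_add, smul_smul, add_smul, one_smul]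
    have : s * (s * -LinearMap.det A.toLinearMap) = -(s ^ 2 * LinearMap.det A.toLinearMap) := by ring
    rw [this, neg_smul]
    abel
  calc (1 + s ^ 2 * LinearMap.det A.toLinearMap) * ‖v‖
      ≤ |1 + s ^ 2 * LinearMap.det A.toLinearMap| * ‖v‖ :=
        mul_le_mul_of_nonneg_right (le_abs_self _) (norm_nonneg _)
    _ = ‖(1 + s ^ 2 * LinearMap.det A.toLinearMap) • v‖ := by rw [norm_smul, Real.norm_eq_abs]
    _ = ‖(v + s • A v) - s • A (v + s • A v)‖ := by rw [key]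
    _ ≤ ‖v + s • A v‖ + ‖s • A (v + s • A v)‖ := norm_sub_le _ _
    _ ≤ ‖v + s • A v‖ + |s| * (‖A‖ * ‖v + s • A v‖) := by
        rw [norm_smul, Real.norm_eq_abs]
        gcongr
        exact A.le_opNorm _
    _ = (1 + |s| * ‖A‖) * ‖v + s • A v‖ := by ring

end Crest.Agent.S0326
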