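import Crest.Agent.Cyl.S0326_Alg

/-! # S0326: counting rotated lattice squares by area (helper45) -/

set_option autoImplicit false
open MeasureTheory
open scoped ENNReal

namespace Crest.Agent.S0326

theorem exists_onb (u w : E2) (hu : ‖u‖ = 1) (hw : ‖w‖ = 1) (huw : inner ℝ u w = 0) :
    ∃ ob : OrthonormalBasis (Fin 2) ℝ E2, (ob : Fin 2 → E2) = ![u, w] := by
  have hon : Orthonormal ℝ ![u, w] := by
    rw [orthonormal_iff_ite]
    intro i j
    fin_cases i <;> fin_cases j <;> simp [hu, hw, huw, real_inner_comm]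
  have hcard : Fintype.card (Fin 2) = Module.finrank ℝ E2 := by simp
  let b := basisOfOrthonormalOfCardEqFinrank hon hcard
  have hb : (b : Fin 2 → E2) = ![u, w] := coe_basisOfOrthonormalOfCardEqFinrank hon hcard
  refine ⟨b.toOrthonormalBasis (by rw [hb]; exact hon), ?_⟩
  rw [Module.Basis.coe_toOrthonormalBasis, hb]

/-- Disjoint half-open rotated lattice squares contained in `S`: counting by area. -/
theorem count (u w : E2) (hu : ‖u‖ = 1) (hw : ‖w‖ = 1) (huw : inner ℝ u w = 0)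
    (p0 : E2) (δ : ℝ) (hδ : 0 < δ) (F : Finset (ℤ × ℤ)) (S : Set E2)
    (hS : ∀ n ∈ F, ∀ x ∈ Set.Ico (0 : ℝ) 1, ∀ y ∈ Set.Ico (0 : ℝ) 1,
      p0 + (δ * (n.1 + x)) • u + (δ * (n.2 + y)) • w ∈ S) :
    (F.card : ℝ≥0∞) * ENNReal.ofReal (δ ^ 2) ≤ volume S := by
  classical
  obtain ⟨ob, hob⟩ := exists_onb u w hu hw huw
  let T : E2 → (Fin 2 → ℝ) := fun P => WithLp.ofLp (ob.repr (P - p0))
  have hT : MeasurePreserving T volume volume :=
    (PiLp.volume_preserving_ofLp (Fin 2)).comp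
      (ob.measurePreserving_repr.comp (measurePreserving_sub_right volume p0))
  have hT0 : ∀ P, T P 0 = inner ℝ u (P - p0) := by
    intro P
    simp only [T]
    rw [ob.repr_apply_apply, hob]; rfl
  have hT1 : ∀ P, T P 1 = inner ℝ w (P - p0) := by
    intro P
    simp only [T]
    rw [ob.repr_apply_apply, hob]; rfl
  let box : ℤ × ℤ → Set (Fin 2 → ℝ) := fun n =>
    Set.pi Set.univ (fun i => Set.Ico (![δ * (n.1 : ℝ), δ * (n.2 : ℝ)] i)
      (![δ * ((n.1 : ℝ) + 1), δ * ((n.2 : ℝ) + 1)] i))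
  have hboxmem : ∀ n ξ, ξ ∈ box n ↔ (δ * (n.1 : ℝ) ≤ ξ 0 ∧ ξ 0 < δ * ((n.1 : ℝ) + 1)) ∧
      (δ * (n.2 : ℝ) ≤ ξ 1 ∧ ξ 1 < δ * ((n.2 : ℝ) + 1)) := by
    intro n ξ
    simp only [box, Set.mem_pi, Set.mem_univ, forall_true_left, Fin.forall_fin_two, Set.mem_Ico]
    simp
  have hboxvol : ∀ n, volume (box n) = ENNReal.ofReal (δ ^ 2) := by
    intro n
    simp only [box]
    rw [Real.volume_pi_Ico, Fin.prod_univ_two]
    simp only [Matrix.cons_val_zero, Matrix.cons_val_one]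
    rw [← ENNReal.ofReal_mul (by nlinarith)]
    congr 1
    ring
  have hboxmeas : ∀ n, MeasurableSet (box n) := by
    intro n
    exact MeasurableSet.univ_pi (fun i => measurableSet_Ico)
  have hfloor : ∀ (k : ℤ) (t : ℝ), δ * (k : ℝ) ≤ t → t < δ * ((k : ℝ) + 1) → ⌊t / δ⌋ = k := by
    intro k t h1 h2
    rw [Int.floor_eq_iff]
    constructor
    · rw [le_div_iff₀ hδ]; linarith
    · rw [div_lt_iff₀ hδ]; linarith
  have hdisj : (F : Set (ℤ × ℤ)).PairwiseDisjoint box := by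
    intro n _ m _ hnm
    rw [Function.onFun, Set.disjoint_left]
    intro ξ hn hm
    rw [hboxmem] at hn hm
    apply hnm
    ext
    · rw [← hfloor n.1 (ξ 0) hn.1.1 hn.1.2, ← hfloor m.1 (ξ 0) hm.1.1 hm.1.2]
    · rw [← hfloor n.2 (ξ 1) hn.2.1 hn.2.2, ← hfloor m.2 (ξ 1) hm.2.1 hm.2.2]
  have hunion : volume (⋃ n ∈ F, box n) = (F.card : ℝ≥0∞) * ENNReal.ofReal (δ ^ 2) := by
    rw [measure_biUnion_finset hdisj (fun n _ => hboxmeas n)]
    simp [hboxvol]
  have hmeasU : MeasurableSet (⋃ n ∈ F, box n) :=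
    Finset.measurableSet_biUnion F (fun n _ => hboxmeas n)
  rw [← hunion, ← hT.measure_preimage hmeasU.nullMeasurableSet]
  apply measure_mono
  intro P hP
  simp only [Set.mem_preimage, Set.mem_iUnion] at hP
  obtain ⟨n, hn, hPn⟩ := hP
  rw [hboxmem, hT0, hT1] at hPn
  set a := inner ℝ u (P - p0) with ha
  set b := inner ℝ w (P - p0) with hb
  have hdec : P = p0 + a • u + b • w := by
    have := frame_decomp u w hu hw huw (P - p0)
    rw [← ha, ← hb] at this
    rw [add_assoc, ← this]; abel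
  have hx : a / δ - n.1 ∈ Set.Ico (0 : ℝ) 1 := by
    constructor
    · rw [sub_nonneg, le_div_iff₀ hδ]; linarith [hPn.1.1]
    · rw [sub_lt_iff_lt_add, div_lt_iff₀ hδ]; linarith [hPn.1.2]
  have hy : b / δ - n.2 ∈ Set.Ico (0 : ℝ) 1 := by
    constructor
    · rw [sub_nonneg, le_div_iff₀ hδ]; linarith [hPn.2.1]
    · rw [sub_lt_iff_lt_add, div_lt_iff₀ hδ]; linarith [hPn.2.2]
  have := hS n hn _ hx _ hy
  rw [show δ * ((n.1 : ℝ) + (a / δ - n.1)) = a by field_simp; ring,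
    show δ * ((n.2 : ℝ) + (b / δ - n.2)) = b by field_simp; ring] at this
  rw [hdec]; exact this

/-- The lattice points within `R δ` of a compact set `A`: finitely many, counted by area. -/
theorem count' (u w : E2) (hu : ‖u‖ = 1) (hw : ‖w‖ = 1) (huw : inner ℝ u w = 0)
    (p0 : E2) (δ : ℝ) (hδ : 0 < δ) (A : Set E2) (hA : IsCompact A) (R : ℝ) (hR : 0 ≤ R) :
    ∃ F : Finset (ℤ × ℤ),
      (∀ i j : ℤ, (i, j) ∈ F ↔ ∃ p ∈ A, ‖p - (p0 + (δ * i) • u + (δ * j) • w)‖ ≤ R * δ) ∧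
      (F.card : ℝ≥0∞) * ENNReal.ofReal (δ ^ 2) ≤ volume (Metric.cthickening ((R + 2) * δ) A) := by
  classical
  obtain ⟨B, hB⟩ := hA.isBounded.exists_norm_le
  set B' : ℝ := B + ‖p0‖ + R * δ with hB'
  set N : ℤ := ⌈B' / δ⌉ with hN
  have hfin : {n : ℤ × ℤ | ∃ p ∈ A, ‖p - (p0 + (δ * n.1) • u + (δ * n.2) • w)‖ ≤ R * δ}.Finite := by
    refine ((Set.finite_Icc (-N) N).prod (Set.finite_Icc (-N) N)).subset ?_
    rintro ⟨i, j⟩ ⟨p, hp, hpn⟩
    simp only at hpn
    set q : E2 := (δ * i) • u + (δ * j) • w with hq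
    have hqn : ‖q‖ ≤ B' := by
      have e : q = (p - p0) - (p - (p0 + (δ * i) • u + (δ * j) • w)) := by rw [hq]; abel
      rw [e]
      calc _ ≤ ‖p - p0‖ + ‖p - (p0 + (δ * i) • u + (δ * j) • w)‖ := norm_sub_le _ _
        _ ≤ (‖p‖ + ‖p0‖) + R * δ := add_le_add (norm_sub_le _ _) hpn
        _ ≤ B' := by rw [hB']; linarith [hB p hp]
    have hiu : inner ℝ u q = δ * i := by
      rw [hq, inner_add_right, inner_smul_right, inner_smul_right, huw,
        real_inner_self_eq_norm_sq, hu]; ring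
    have hjw : inner ℝ w q = δ * j := by
      rw [hq, inner_add_right, inner_smul_right, inner_smul_right, real_inner_comm, huw,
        real_inner_self_eq_norm_sq, hw]; ring
    have h1 : |δ * (i : ℝ)| ≤ B' := by
      rw [← hiu]
      have := abs_real_inner_le_norm u q
      rw [hu, one_mul] at this
      exact this.trans hqn
    have h2 : |δ * (j : ℝ)| ≤ B' := by
      rw [← hjw]
      have := abs_real_inner_le_norm w q
      rw [hw, one_mul] at this
      exact this.trans hqn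
    have hNle : B' / δ ≤ N := Int.le_ceil _
    have key : ∀ k : ℤ, |δ * (k : ℝ)| ≤ B' → k ∈ Set.Icc (-N) N := by
      intro k hk
      rw [abs_le] at hk
      have hk1 : (k : ℝ) ≤ N := by
        refine le_trans ?_ hNle
        rw [le_div_iff₀ hδ]; linarith [hk.2]
      have hk2 : -(N : ℝ) ≤ k := by
        have : -(k : ℝ) ≤ B' / δ := by rw [le_div_iff₀ hδ]; linarith [hk.1]
        linarith
      constructor
      · exact_mod_cast hk2
      · exact_mod_cast hk1
    exact ⟨key i h1, key j h2⟩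
  refine ⟨hfin.toFinset, fun i j => ?_, ?_⟩
  · rw [Set.Finite.mem_toFinset]; rfl
  · apply count u w hu hw huw p0 δ hδ
    intro n hn x hx y hy
    rw [Set.Finite.mem_toFinset] at hn
    obtain ⟨p, hp, hpn⟩ := hn
    refine Metric.mem_cthickening_of_dist_le _ p _ A hp ?_
    rw [dist_eq_norm]
    have e : p0 + (δ * (n.1 + x)) • u + (δ * (n.2 + y)) • w - p =
        ((δ * x) • u + (δ * y) • w) - (p - (p0 + (δ * n.1) • u + (δ * n.2) • w)) := by
      module
    rw [e]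
    have hn2 : ‖(δ * x) • u + (δ * y) • w‖ ≤ 2 * δ := by
      refine (norm_add_le _ _).trans ?_
      rw [norm_smul, norm_smul, hu, hw, mul_one, mul_one, Real.norm_eq_abs, Real.norm_eq_abs,
        abs_of_nonneg (mul_nonneg hδ.le hx.1), abs_of_nonneg (mul_nonneg hδ.le hy.1)]
      nlinarith [hx.2, hy.2]
    calc _ ≤ ‖(δ * x) • u + (δ * y) • w‖ + ‖p - (p0 + (δ * n.1) • u + (δ * n.2) • w)‖ :=
          norm_sub_le _ _
      _ ≤ 2 * δ + R * δ := add_le_add hn2 hpn
      _ = (R + 2) * δ := by ring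

end Crest.Agent.S0326
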