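import Mathlib

/-! # S0326: common definitions (helper45) -/

set_option autoImplicit false
open MeasureTheory
open scoped ENNReal

namespace Crest.Agent.S0326

/-- The Euclidean plane. -/
abbrev E2 := EuclideanSpace ℝ (Fin 2)

/-- The weight `J(g) = (1 + g₀² + h² g₁²)^(-1/2)`. -/
noncomputable def J (h : ℝ) (g : E2) : ℝ :=
  1 / Real.sqrt (1 + (g 0) ^ 2 + h ^ 2 * (g 1) ^ 2)

/-- `Cov V L h A cost`: the ruled set `{(s, p + s V p) : p ∈ A, |s| ≤ L}` is covered by finitely many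
sheared cylinders over squares, of total weighted area `≤ cost`. -/
def Cov (V : E2 → E2) (L h : ℝ) (A : Set E2) (cost : ℝ) : Prop :=
  ∃ (ι : Type) (_ : Fintype ι) (c a b g : ι → E2),
    (∀ i, a i ≠ 0 ∧ ‖b i‖ = ‖a i‖ ∧ inner ℝ (a i) (b i) = 0) ∧
    (∀ p ∈ A, ∀ s : ℝ, |s| ≤ L → ∃ i, ∃ x ∈ Set.Icc (0 : ℝ) 1, ∃ y ∈ Set.Icc (0 : ℝ) 1,
        p + s • V p = c i + x • a i + y • b i + s • g i) ∧
    ∑ i, ‖a i‖ ^ 2 * J h (g i) ≤ cost

end Crest.Agent.S0326
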