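import Crest.Agent.Cyl.S0326_Peel
import Crest.Agent.Cyl.S0326_Count

/-! # S0326: the local lemma (helper45) -/

set_option autoImplicit false
open MeasureTheory
open scoped ENNReal

namespace Crest.Agent.S0326

theorem frame_decomp' (u w : E2) (hu : ‖u‖ = 1) (hw : ‖w‖ = 1) (huw : inner ℝ u w = 0) (e : E2) :
    e = inner ℝ u e • u + inner ℝ w e • w := by
  have hon : Orthonormal ℝ ![u, w] := by
    rw [orthonormal_iff_ite]
    intro i j
    fin_cases i <;> fin_cases j <;> simp [hu, hw, huw, real_inner_comm]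
  have hcard : Fintype.card (Fin 2) = Module.finrank ℝ E2 := by simp
  let b := basisOfOrthonormalOfCardEqFinrank hon hcard
  have hb : (b : Fin 2 → E2) = ![u, w] := coe_basisOfOrthonormalOfCardEqFinrank hon hcard
  let ob := b.toOrthonormalBasis (by rw [hb]; exact hon)
  have hob : (ob : Fin 2 → E2) = ![u, w] := by
    rw [Module.Basis.coe_toOrthonormalBasis, hb]
  have := ob.sum_repr' e
  rw [Fin.sum_univ_two, hob] at this
  simpa using this.symm

theorem J_nonneg (h : ℝ) (g : E2) : 0 ≤ J h g := by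
  unfold J; positivity

theorem J_le_one (h : ℝ) (g : E2) : J h g ≤ 1 := by
  unfold J
  have h1 : (1 : ℝ) ≤ 1 + (g 0) ^ 2 + h ^ 2 * (g 1) ^ 2 := by nlinarith [sq_nonneg (g 0), sq_nonneg (h * g 1)]
  have h2 : (1 : ℝ) ≤ Real.sqrt (1 + (g 0) ^ 2 + h ^ 2 * (g 1) ^ 2) := by
    exact Real.one_le_sqrt.mpr h1
  rw [div_le_one (by linarith)]
  exact h2

/-- Choice of the enlargement `θ` and the oscillation `ω`. -/
theorem param (η f0 : ℝ) (hη : 0 < η) (h0 : 0 ≤ f0) (h1 : f0 ≤ 1) :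
    ∃ θ ω : ℝ, 0 < θ ∧ 0 < ω ∧ (1 + 2 * θ) ^ 2 * (f0 + ω) ≤ f0 - ω + η := by
  set ω : ℝ := η / 4 with hω
  have hωpos : 0 < ω := by positivity
  set θ : ℝ := min 1 (η / (16 * (1 + ω))) with hθ
  have hθpos : 0 < θ := lt_min one_pos (by positivity)
  have hθ1 : θ ≤ 1 := min_le_left _ _
  have hθ2 : θ * (16 * (1 + ω)) ≤ η := by
    have : θ ≤ η / (16 * (1 + ω)) := min_le_right _ _
    rwa [le_div_iff₀ (by positivity)] at this
  refine ⟨θ, ω, hθpos, hωpos, ?_⟩
  have e1 : (1 + 2 * θ) ^ 2 ≤ 1 + 8 * θ := by nlinarith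
  have e2 : (1 + 2 * θ) ^ 2 * (f0 + ω) ≤ (1 + 8 * θ) * (f0 + ω) :=
    mul_le_mul_of_nonneg_right e1 (by linarith)
  have e3 : θ * (f0 + ω) ≤ θ * (1 + ω) := mul_le_mul_of_nonneg_left (by linarith) hθpos.le
  nlinarith

/-- A good neighbourhood of `p0`. -/
theorem nbhd (V : E2 → E2) (U : Set E2) (hU : IsOpen U) (hV : ContDiffOn ℝ 1 V U)
    (h : ℝ) (p0 : E2) (hp0 : p0 ∈ U) (τ ω : ℝ) (hτ : 0 < τ) (hω : 0 < ω) :
    ∃ r1 > 0, Metric.ball p0 r1 ⊆ U ∧
      (∀ x ∈ Metric.ball p0 r1, ∀ y ∈ Metric.ball p0 r1,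
        ‖V x - V y - fderiv ℝ V p0 (x - y)‖ ≤ τ * ‖x - y‖) ∧
      (∀ x ∈ Metric.ball p0 r1, |J h (V x) - J h (V p0)| ≤ ω) := by
  have hcd : ContDiffAt ℝ 1 V p0 := hV.contDiffAt (hU.mem_nhds hp0)
  have hs : HasStrictFDerivAt V (fderiv ℝ V p0) p0 := hcd.hasStrictFDerivAt one_ne_zero
  obtain ⟨s, hs1, hs2⟩ := hs.approximates_deriv_on_nhds (c := ⟨τ, hτ.le⟩) (Or.inr hτ)
  have hc : ContinuousAt (fun x => J h (V x)) p0 :=
    (J_continuous h).continuousAt.comp hcd.continuousAt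
  have hc' : {x | |J h (V x) - J h (V p0)| ≤ ω} ∈ nhds p0 := by
    have := Metric.continuousAt_iff.mp hc ω hω
    obtain ⟨d, hd, H⟩ := this
    refine Filter.mem_of_superset (Metric.ball_mem_nhds p0 hd) (fun x hx => ?_)
    have := H hx
    rw [Real.dist_eq] at this
    exact this.le
  obtain ⟨r1, hr1, H⟩ := Metric.mem_nhds_iff.mp
    (Filter.inter_mem (Filter.inter_mem hs1 hc') (hU.mem_nhds hp0))
  refine ⟨r1, hr1, fun x hx => (H hx).2, fun x hx y hy => ?_, fun x hx => (H hx).1.2⟩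
  exact hs2 x (H hx).1.1 y (H hy).1.1

/-- Absorbing a small error into an enlarged square. -/
theorem absorb (u w : E2) (hu : ‖u‖ = 1) (hw : ‖w‖ = 1) (huw : inner ℝ u w = 0)
    (δ θ : ℝ) (hδ : 0 < δ) (hθ : 0 < θ) (P X G e : E2) (x y : ℝ)
    (hx : x ∈ Set.Icc (0 : ℝ) 1) (hy : y ∈ Set.Icc (0 : ℝ) 1) (he : ‖e‖ ≤ θ * δ)
    (hP : P = X + G + (x * δ) • u + (y * δ) • w + e) :
    ∃ x' ∈ Set.Icc (0 : ℝ) 1, ∃ y' ∈ Set.Icc (0 : ℝ) 1,
      P = (X - (θ * δ) • u - (θ * δ) • w) + x' • (((1 + 2 * θ) * δ) • u)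
        + y' • (((1 + 2 * θ) * δ) • w) + G := by
  have hpos : 0 < (1 + 2 * θ) * δ := by positivity
  have heu : |inner ℝ u e| ≤ θ * δ := by
    have := abs_real_inner_le_norm u e
    rw [hu, one_mul] at this
    exact this.trans he
  have hew : |inner ℝ w e| ≤ θ * δ := by
    have := abs_real_inner_le_norm w e
    rw [hw, one_mul] at this
    exact this.trans he
  rw [abs_le] at heu hew
  have hxδ : 0 ≤ x * δ := mul_nonneg hx.1 hδ.le
  have hyδ : 0 ≤ y * δ := mul_nonneg hy.1 hδ.le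
  have hxδ' : x * δ ≤ δ := by nlinarith [hx.2]
  have hyδ' : y * δ ≤ δ := by nlinarith [hy.2]
  refine ⟨(x * δ + θ * δ + inner ℝ u e) / ((1 + 2 * θ) * δ), ⟨?_, ?_⟩,
    (y * δ + θ * δ + inner ℝ w e) / ((1 + 2 * θ) * δ), ⟨?_, ?_⟩, ?_⟩
  · apply div_nonneg _ hpos.le; linarith [heu.1]
  · rw [div_le_one hpos]; linarith [heu.2]
  · apply div_nonneg _ hpos.le; linarith [hew.1]
  · rw [div_le_one hpos]; linarith [hew.2]
  · rw [smul_smul, smul_smul, div_mul_cancel₀ _ hpos.ne', div_mul_cancel₀ _ hpos.ne', hP]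
    conv_lhs => rw [frame_decomp' u w hu hw huw e]
    module

/-- Distance bound from the inverse of `I + sM`. -/
theorem dist_bound (M : E2 →L[ℝ] E2) (htr : LinearMap.trace ℝ _ M.toLinearMap = 0)
    (L : ℝ) (hL : 0 < L)
    (hdet : -(L ^ 2)⁻¹ < LinearMap.det M.toLinearMap ∧ LinearMap.det M.toLinearMap ≤ 0)
    (u w : E2) (hu : ‖u‖ = 1) (hw : ‖w‖ = 1) (δ : ℝ) (hδ : 0 < δ) (s : ℝ) (hs : |s| ≤ L)
    (v : E2) (x y : ℝ) (hx : x ∈ Set.Icc (0 : ℝ) 1) (hy : y ∈ Set.Icc (0 : ℝ) 1)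
    (hv : v + s • M v = (x * δ) • u + (y * δ) • w) :
    0 < 1 + L ^ 2 * LinearMap.det M.toLinearMap ∧
    ‖v‖ ≤ 2 * ((1 + L * ‖M‖) / (1 + L ^ 2 * LinearMap.det M.toLinearMap)) * δ := by
  set d := LinearMap.det M.toLinearMap with hd
  have hL2 : 0 < L ^ 2 := by positivity
  have hκ : 0 < 1 + L ^ 2 * d := by
    have h1 : L ^ 2 * (-(L ^ 2)⁻¹) < L ^ 2 * d := mul_lt_mul_of_pos_left hdet.1 hL2
    rw [mul_neg, mul_inv_cancel₀ hL2.ne'] at h1
    linarith
  refine ⟨hκ, ?_⟩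
  have hb := inv_bound M htr s v
  rw [← hd, hv] at hb
  have hs2 : s ^ 2 ≤ L ^ 2 := by
    rw [← sq_abs s]
    exact pow_le_pow_left₀ (abs_nonneg s) hs 2
  have h1 : 1 + L ^ 2 * d ≤ 1 + s ^ 2 * d := by nlinarith [hdet.2]
  have hn : ‖(x * δ) • u + (y * δ) • w‖ ≤ 2 * δ := by
    refine (norm_add_le _ _).trans ?_
    rw [norm_smul, norm_smul, hu, hw, mul_one, mul_one, Real.norm_eq_abs, Real.norm_eq_abs,
      abs_of_nonneg (mul_nonneg hx.1 hδ.le), abs_of_nonneg (mul_nonneg hy.1 hδ.le)]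
    nlinarith [hx.2, hy.2]
  have h2 : (1 + |s| * ‖M‖) * ‖(x * δ) • u + (y * δ) • w‖ ≤ (1 + L * ‖M‖) * (2 * δ) := by
    apply mul_le_mul _ hn (norm_nonneg _) (by positivity)
    nlinarith [norm_nonneg M]
  have h3 : (1 + L ^ 2 * d) * ‖v‖ ≤ (1 + L * ‖M‖) * (2 * δ) :=
    (mul_le_mul_of_nonneg_right h1 (norm_nonneg v)).trans (hb.trans h2)
  rw [show 2 * ((1 + L * ‖M‖) / (1 + L ^ 2 * d)) * δ = ((1 + L * ‖M‖) * (2 * δ)) / (1 + L ^ 2 * d) by
    ring, le_div_iff₀ hκ]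
  linarith

/-- Choice of the mesh `δ`. -/
theorem delta_choice (A : Set E2) (hA : IsCompact A) (C r1 ε' : ℝ) (hC : 0 < C) (hr1 : 0 < r1)
    (hε' : 0 < ε') :
    ∃ δ > 0, 2 * C * δ ≤ r1 / 4 ∧
      volume (Metric.cthickening ((2 * C + 2) * δ) A) ≤ volume A + ENNReal.ofReal ε' := by
  have ht := tendsto_measure_cthickening_of_isCompact (μ := (volume : Measure E2)) hA
  have hlt : volume A < volume A + ENNReal.ofReal ε' :=
    ENNReal.lt_add_right hA.measure_lt_top.ne (by simpa using hε')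
  have hev := ht.eventually (gt_mem_nhds hlt)
  obtain ⟨ρ, hρ, H⟩ := Metric.eventually_nhds_iff.mp hev
  refine ⟨min (r1 / (8 * C)) (ρ / (2 * (2 * C + 2))), lt_min (by positivity) (by positivity), ?_, ?_⟩
  · have : min (r1 / (8 * C)) (ρ / (2 * (2 * C + 2))) ≤ r1 / (8 * C) := min_le_left _ _
    calc 2 * C * min (r1 / (8 * C)) (ρ / (2 * (2 * C + 2))) ≤ 2 * C * (r1 / (8 * C)) := by
          apply mul_le_mul_of_nonneg_left this (by positivity)
      _ = r1 / 4 := by field_simp; ring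
  · apply le_of_lt
    apply H
    rw [Real.dist_eq, sub_zero, abs_of_nonneg (by positivity)]
    have : min (r1 / (8 * C)) (ρ / (2 * (2 * C + 2))) ≤ ρ / (2 * (2 * C + 2)) := min_le_right _ _
    calc (2 * C + 2) * min (r1 / (8 * C)) (ρ / (2 * (2 * C + 2)))
        ≤ (2 * C + 2) * (ρ / (2 * (2 * C + 2))) := by
          apply mul_le_mul_of_nonneg_left this (by positivity)
      _ = ρ / 2 := by field_simp
      _ < ρ := half_lt_self hρ

/-- Local lemma: near a point `p0` where `DV` is traceless with `-1/L² < det ≤ 0`, every compact set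
`A` has ruled-set covers of cost `≤ ∫_A (J∘V + η) + ε`. -/
theorem local_lemma (V : E2 → E2) (U : Set E2) (hU : IsOpen U) (hV : ContDiffOn ℝ 1 V U)
    (L h : ℝ) (hL : 0 < L) (hh : 0 < h) (p0 : E2) (hp0 : p0 ∈ U)
    (htr : LinearMap.trace ℝ _ (fderiv ℝ V p0).toLinearMap = 0)
    (hdet : -(L ^ 2)⁻¹ < LinearMap.det (fderiv ℝ V p0).toLinearMap ∧
      LinearMap.det (fderiv ℝ V p0).toLinearMap ≤ 0)
    (η : ℝ) (hη : 0 < η) :
    ∃ r > 0, Metric.closedBall p0 r ⊆ U ∧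
      ∀ A : Set E2, IsCompact A → A ⊆ Metric.closedBall p0 r → ∀ ε > 0,
        Cov V L h A ((∫ p in A, (J h (V p) + η)) + ε) := by
  classical
  set M := fderiv ℝ V p0 with hM
  set d := LinearMap.det M.toLinearMap with hd
  set f0 := J h (V p0) with hf0
  have hf0nn : 0 ≤ f0 := J_nonneg _ _
  obtain ⟨u, w, hu, hw, huw, hcov⟩ := local_cover M htr L hL hdet
  have hκ : 0 < 1 + L ^ 2 * d := by
    have hL2 : 0 < L ^ 2 := by positivity
    have h1 : L ^ 2 * (-(L ^ 2)⁻¹) < L ^ 2 * d := mul_lt_mul_of_pos_left hdet.1 hL2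
    rw [mul_neg, mul_inv_cancel₀ hL2.ne'] at h1
    linarith
  set C := (1 + L * ‖M‖) / (1 + L ^ 2 * d) with hC
  have hCpos : 0 < C := by positivity
  obtain ⟨θ, ω, hθ, hω, hparam⟩ := param η f0 hη hf0nn (J_le_one _ _)
  set τ := θ / (2 * L * C) with hτ
  have hτpos : 0 < τ := by positivity
  obtain ⟨r1, hr1, hrU, hlin, hosc⟩ := nbhd V U hU hV h p0 hp0 τ ω hτpos hω
  refine ⟨r1 / 2, half_pos hr1, (Metric.closedBall_subset_ball (half_lt_self hr1)).trans hrU, ?_⟩
  intro A hA hAb ε hε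
  set Λ := (1 + 2 * θ) ^ 2 * (f0 + ω) with hΛ
  have hΛpos : 0 < Λ := by positivity
  obtain ⟨δ, hδ, hδ1, hδ2⟩ := delta_choice A hA C r1 (ε / Λ) hCpos hr1 (by positivity)
  obtain ⟨F, hF, hFcard⟩ := count' u w hu hw huw p0 δ hδ A hA (2 * C) (by positivity)
  have hAball : ∀ p ∈ A, ‖p - p0‖ ≤ r1 / 2 := by
    intro p hp
    have := hAb hp
    rwa [Metric.mem_closedBall, dist_eq_norm] at this
  -- lattice points
  let X : ℤ × ℤ → E2 := fun n => p0 + (δ * n.1) • u + (δ * n.2) • w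
  have hXball : ∀ n ∈ F, X n ∈ Metric.ball p0 r1 := by
    intro n hn
    obtain ⟨p, hp, hpn⟩ := (hF n.1 n.2).mp hn
    rw [Metric.mem_ball, dist_eq_norm]
    calc ‖X n - p0‖ = ‖(p - p0) - (p - X n)‖ := by congr 1; abel
      _ ≤ ‖p - p0‖ + ‖p - X n‖ := norm_sub_le _ _
      _ ≤ r1 / 2 + r1 / 4 := add_le_add (hAball p hp) (hpn.trans hδ1)
      _ < r1 := by linarith
  have hside : 0 < (1 + 2 * θ) * δ := by positivity
  refine ⟨{n // n ∈ F}, inferInstance, fun n => X n - (θ * δ) • u - (θ * δ) • w,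
    fun _ => ((1 + 2 * θ) * δ) • u, fun _ => ((1 + 2 * θ) * δ) • w, fun n => V (X n), ?_, ?_, ?_⟩
  · intro n
    refine ⟨?_, ?_, ?_⟩
    · intro h0
      have h0' : ((1 + 2 * θ) * δ) • u = 0 := h0
      have : ‖((1 + 2 * θ) * δ) • u‖ = 0 := by rw [h0', norm_zero]
      rw [norm_smul, hu, mul_one, Real.norm_eq_abs, abs_of_pos hside] at this
      exact hside.ne' this
    · rw [norm_smul, norm_smul, hu, hw]
    · rw [inner_smul_left, inner_smul_right, huw]; simp
  · intro p hp s hs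
    obtain ⟨i, j, x, hx, y, hy, hz⟩ := hcov δ hδ s hs ((p - p0) + s • M (p - p0))
    set q := (δ * i) • u + (δ * j) • w with hq
    set v := p - p0 - q with hv
    have hv1 : v + s • M v = (x * δ) • u + (y * δ) • w := by
      have e1 : v + s • M v = ((p - p0) + s • M (p - p0)) - (q + s • M q) := by
        rw [hv, map_sub, smul_sub]; abel
      rw [e1, hz]; abel
    have hvn := (dist_bound M htr L hL hdet u w hu hw δ hδ s hs v x y hx hy hv1).2
    have hXv : p - X (i, j) = v := by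
      simp only [X, hv, hq]; abel
    have hmem : (i, j) ∈ F := (hF i j).mpr ⟨p, hp, by
      have : p - (p0 + (δ * i) • u + (δ * j) • w) = v := hXv
      rw [this]; exact hvn⟩
    refine ⟨⟨(i, j), hmem⟩, ?_⟩
    have hpb : p ∈ Metric.ball p0 r1 := by
      rw [Metric.mem_ball, dist_eq_norm]
      linarith [hAball p hp]
    have herr : ‖s • (V p - V (X (i, j)) - M v)‖ ≤ θ * δ := by
      have h1 := hlin p hpb (X (i, j)) (hXball _ hmem)
      rw [hXv] at h1
      rw [norm_smul, Real.norm_eq_abs]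
      calc |s| * ‖V p - V (X (i, j)) - M v‖ ≤ L * (τ * (2 * C * δ)) := by
            apply mul_le_mul hs (h1.trans (mul_le_mul_of_nonneg_left hvn hτpos.le))
              (norm_nonneg _) hL.le
        _ = θ * δ := by rw [hτ]; field_simp
    apply absorb u w hu hw huw δ θ hδ hθ (p + s • V p) (X (i, j)) (s • V (X (i, j)))
      (s • (V p - V (X (i, j)) - M v)) x y hx hy herr
    have e2 : p = X (i, j) + v := by rw [← hXv]; abel
    have e3 : (x * δ) • u + (y * δ) • w = v + s • M v := hv1.symm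
    calc p + s • V p = (X (i, j) + v) + s • V p := by rw [← e2]
      _ = X (i, j) + s • V (X (i, j)) + (v + s • M v)
          + s • (V p - V (X (i, j)) - M v) := by
            simp only [smul_sub]
            abel
      _ = _ := by rw [← e3]; abel
  · -- cost
    have hnorm : ‖((1 + 2 * θ) * δ) • u‖ = (1 + 2 * θ) * δ := by
      rw [norm_smul, hu, mul_one, Real.norm_eq_abs, abs_of_pos hside]
    have hterm : ∀ n ∈ F, ‖((1 + 2 * θ) * δ) • u‖ ^ 2 * J h (V (X n)) ≤ Λ * δ ^ 2 := by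
      intro n hn
      have h1 := hosc (X n) (hXball n hn)
      rw [abs_le] at h1
      have h2 : J h (V (X n)) ≤ f0 + ω := by linarith [h1.2]
      rw [hnorm, hΛ]
      calc ((1 + 2 * θ) * δ) ^ 2 * J h (V (X n)) ≤ ((1 + 2 * θ) * δ) ^ 2 * (f0 + ω) :=
            mul_le_mul_of_nonneg_left h2 (by positivity)
        _ = _ := by ring
    have hsum : ∑ n : {n // n ∈ F}, ‖((1 + 2 * θ) * δ) • u‖ ^ 2 * J h (V (X n))
        ≤ F.card * (Λ * δ ^ 2) := by
      rw [Finset.sum_coe_sort F (fun n => ‖((1 + 2 * θ) * δ) • u‖ ^ 2 * J h (V (X n)))]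
      have := Finset.sum_le_card_nsmul F _ _ hterm
      simpa using this
    have hcard : (F.card : ℝ) * δ ^ 2 ≤ (volume A).toReal + ε / Λ := by
      have h1 := hFcard.trans hδ2
      have hfin : volume A + ENNReal.ofReal (ε / Λ) ≠ ⊤ :=
        ENNReal.add_ne_top.mpr ⟨hA.measure_lt_top.ne, ENNReal.ofReal_ne_top⟩
      have h2 := ENNReal.toReal_mono hfin h1
      rw [ENNReal.toReal_add hA.measure_lt_top.ne ENNReal.ofReal_ne_top, ENNReal.toReal_mul,
        ENNReal.toReal_ofReal (by positivity), ENNReal.toReal_ofReal (by positivity)] at h2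
      simpa using h2
    have hcontA : ContinuousOn (fun p => J h (V p) + η) A := by
      have hAU : A ⊆ U :=
        hAb.trans ((Metric.closedBall_subset_ball (half_lt_self hr1)).trans hrU)
      exact (((J_continuous h).comp_continuousOn hV.continuousOn).mono hAU).add continuousOn_const
    have hint : (f0 - ω + η) * (volume A).toReal ≤ ∫ p in A, (J h (V p) + η) := by
      refine setIntegral_ge_of_const_le_real hA.measurableSet hA.measure_lt_top.ne ?_
        (hcontA.integrableOn_compact hA)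
      intro p hp
      have hpb : p ∈ Metric.ball p0 r1 := by
        rw [Metric.mem_ball, dist_eq_norm]
        linarith [hAball p hp]
      have h1 := hosc p hpb
      rw [abs_le] at h1
      linarith [h1.1]
    have hvolnn : 0 ≤ (volume A).toReal := ENNReal.toReal_nonneg
    calc ∑ n : {n // n ∈ F}, ‖((1 + 2 * θ) * δ) • u‖ ^ 2 * J h (V (X n))
        ≤ F.card * (Λ * δ ^ 2) := hsum
      _ = Λ * (F.card * δ ^ 2) := by ring
      _ ≤ Λ * ((volume A).toReal + ε / Λ) := mul_le_mul_of_nonneg_left hcard hΛpos.le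
      _ = Λ * (volume A).toReal + ε := by field_simp
      _ ≤ (f0 - ω + η) * (volume A).toReal + ε := by
          have := mul_le_mul_of_nonneg_right hparam hvolnn
          linarith
      _ ≤ _ := by linarith

end Crest.Agent.S0326
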