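import Crest.Agent.Cyl.S0326_Defs

/-! # S0326: `Cov` calculus and the peeling induction (helper45) -/

set_option autoImplicit false
open MeasureTheory
open scoped ENNReal

namespace Crest.Agent.S0326

theorem J_continuous (h : ℝ) : Continuous (J h) := by
  unfold J
  refine Continuous.div continuous_const (Real.continuous_sqrt.comp (by fun_prop)) (fun g => ?_)
  have : 0 < 1 + (g 0) ^ 2 + h ^ 2 * (g 1) ^ 2 := by positivity
  exact (Real.sqrt_pos.mpr this).ne'

theorem Cov.mono {V : E2 → E2} {L h : ℝ} {A : Set E2} {c₁ c₂ : ℝ}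
    (h₁ : Cov V L h A c₁) (hc : c₁ ≤ c₂) : Cov V L h A c₂ := by
  obtain ⟨ι, hι, c, a, b, g, H1, H2, H3⟩ := h₁
  exact ⟨ι, hι, c, a, b, g, H1, H2, H3.trans hc⟩

theorem Cov.empty (V : E2 → E2) (L h : ℝ) : Cov V L h ∅ 0 := by
  refine ⟨Empty, inferInstance, fun _ => 0, fun _ => 0, fun _ => 0, fun _ => 0, fun i => i.elim,
    fun p hp => hp.elim, ?_⟩
  simp

theorem Cov.union {V : E2 → E2} {L h : ℝ} {A₁ A₂ : Set E2} {c₁ c₂ : ℝ}
    (h₁ : Cov V L h A₁ c₁) (h₂ : Cov V L h A₂ c₂) : Cov V L h (A₁ ∪ A₂) (c₁ + c₂) := by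
  obtain ⟨ι, hι, c, a, b, g, H1, H2, H3⟩ := h₁
  obtain ⟨ι', hι', c', a', b', g', H1', H2', H3'⟩ := h₂
  refine ⟨ι ⊕ ι', inferInstance, Sum.elim c c', Sum.elim a a', Sum.elim b b', Sum.elim g g',
    ?_, ?_, ?_⟩
  · rintro (i | i)
    · exact H1 i
    · exact H1' i
  · rintro p (hp | hp) s hs
    · obtain ⟨i, hi⟩ := H2 p hp s hs
      exact ⟨Sum.inl i, hi⟩
    · obtain ⟨i, hi⟩ := H2' p hp s hs
      exact ⟨Sum.inr i, hi⟩
  · rw [Fintype.sum_sum_type]
    exact add_le_add H3 H3'

/-- Peeling induction: if all compact subsets of `D` inside one of finitely many closed balls have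
good covers, so do all compact subsets of `D` covered by the open balls. -/
theorem peel (V : E2 → E2) (L h : ℝ) (f : E2 → ℝ) (D : Set E2)
    (hf : ∀ A : Set E2, IsCompact A → A ⊆ D → IntegrableOn f A volume)
    (r : E2 → ℝ) (t : Finset E2)
    (hloc : ∀ p0 ∈ t, ∀ A : Set E2, IsCompact A → A ⊆ D → A ⊆ Metric.closedBall p0 (r p0) →
      ∀ ε > 0, Cov V L h A ((∫ p in A, f p) + ε)) :
    ∀ A : Set E2, IsCompact A → A ⊆ D → A ⊆ ⋃ p0 ∈ t, Metric.ball p0 (r p0) →
      ∀ ε > 0, Cov V L h A ((∫ p in A, f p) + ε) := by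
  classical
  induction t using Finset.induction_on with
  | empty =>
    intro A _ _ hA ε hε
    have : A = ∅ := by
      apply Set.eq_empty_of_subset_empty
      simpa using hA
    subst this
    refine (Cov.empty V L h).mono ?_
    simp [hε.le]
  | insert p0 t hp0 ih =>
    intro A hAc hAD hA ε hε
    have ih' := ih (fun q hq => hloc q (Finset.mem_insert_of_mem hq))
    set A₁ := A ∩ Metric.closedBall p0 (r p0) with hA₁
    set A₂ := A \ Metric.ball p0 (r p0) with hA₂
    have hA₁c : IsCompact A₁ := hAc.inter_right Metric.isClosed_closedBall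
    have hA₂c : IsCompact A₂ := hAc.diff Metric.isOpen_ball
    have hA₁D : A₁ ⊆ D := Set.inter_subset_left.trans hAD
    have hA₂D : A₂ ⊆ D := Set.sdiff_subset.trans hAD
    have hU : A = A₁ ∪ A₂ := by
      ext x
      constructor
      · intro hx
        by_cases hxb : x ∈ Metric.ball p0 (r p0)
        · exact Or.inl ⟨hx, Metric.ball_subset_closedBall hxb⟩
        · exact Or.inr ⟨hx, hxb⟩
      · rintro (hx | hx)
        · exact hx.1
        · exact hx.1
    have hA₂t : A₂ ⊆ ⋃ q ∈ t, Metric.ball q (r q) := by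
      intro x hx
      have := hA hx.1
      simp only [Finset.mem_insert, Set.iUnion_iUnion_eq_or_left, Set.mem_union] at this
      rcases this with h1 | h1
      · exact absurd h1 hx.2
      · exact h1
    have hdisj : AEDisjoint volume A₁ A₂ := by
      have hsub : A₁ ∩ A₂ ⊆ Metric.sphere p0 (r p0) := by
        rintro x ⟨⟨_, h1⟩, ⟨_, h2⟩⟩
        simp only [Metric.mem_closedBall, Metric.mem_ball, not_lt, Metric.mem_sphere] at *
        exact le_antisymm h1 h2
      exact measure_mono_null hsub (Measure.addHaar_sphere _ _ _)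
    have hint : (∫ p in A, f p) = (∫ p in A₁, f p) + ∫ p in A₂, f p := by
      conv_lhs => rw [hU]
      exact setIntegral_union₀ hdisj hA₂c.measurableSet.nullMeasurableSet (hf _ hA₁c hA₁D)
        (hf _ hA₂c hA₂D)
    have C1 := hloc p0 (Finset.mem_insert_self _ _) A₁ hA₁c hA₁D Set.inter_subset_right (ε / 2)
      (half_pos hε)
    have C2 := ih' A₂ hA₂c hA₂D hA₂t (ε / 2) (half_pos hε)
    have C := C1.union C2
    rw [← hU] at C
    refine C.mono ?_
    rw [hint]
    linarith

end Crest.Agent.S0326
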