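import Crest.Agent.Cyl.Tetra

/-!
# Row 211, module M4 (S0327): similarity transport and triangle → parallelograms  (helper1)
-/

set_option autoImplicit false
open MeasureTheory
open scoped ENNReal

namespace Crest.Agent.S0327
open Crest.Agent.Cyl

open scoped Pointwise in
/-- area scaling under a similarity -/
theorem area_sim (L : E3 ≃ₗᵢ[ℝ] E3) (m : E3) (r : ℝ) (hr : 0 < r) (S : Set E3) :
    μHE[2] ((fun X => m + r • L X) '' S) = ENNReal.ofReal (r ^ 2) * μHE[2] S := by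
  have h1 : (fun X => m + r • L X) '' S = (fun Y => m + Y) '' (r • (L '' S)) := by
    ext x
    simp only [Set.mem_image, Set.mem_smul_set]
    constructor
    · rintro ⟨X, hX, rfl⟩
      exact ⟨r • L X, ⟨L X, ⟨X, hX, rfl⟩, rfl⟩, rfl⟩
    · rintro ⟨_, ⟨_, ⟨X, hX, rfl⟩, rfl⟩, rfl⟩
      exact ⟨X, hX, rfl⟩
  rw [h1, (isometry_add_left m).euclideanHausdorffMeasure_image,
    Measure.euclideanHausdorffMeasure_smul₀ 2 hr.ne', L.isometry.euclideanHausdorffMeasure_image]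
  rw [ENNReal.smul_def, smul_eq_mul]
  congr 1
  rw [ENNReal.ofReal_pow hr.le, ENNReal.coe_pow]
  congr 1
  rw [ENNReal.ofReal, Real.toNNReal_of_nonneg hr.le, Real.nnnorm_of_nonneg hr.le]

/-- projection commutes with a similarity -/
theorem proj_sim (L : E3 ≃ₗᵢ[ℝ] E3) (m : E3) (r : ℝ) (v X : E3) :
    (m + r • L X) - inner ℝ (m + r • L X) (L v) • L v
      = (m - inner ℝ m (L v) • L v) + r • L (X - inner ℝ X v • v) := by
  rw [inner_add_left, inner_smul_left, L.inner_map_map, map_sub, map_smul]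
  simp only [RCLike.conj_to_real, add_smul, smul_sub, smul_smul]
  abel

theorem proj_image_sim (L : E3 ≃ₗᵢ[ℝ] E3) (m : E3) (r : ℝ) (v : E3) (S : Set E3) :
    (fun y => y - inner ℝ y (L v) • L v) '' ((fun X => m + r • L X) '' S)
      = (fun Y => (m - inner ℝ m (L v) • L v) + r • L Y) '' ((fun y => y - inner ℝ y v • v) '' S) := by
  rw [Set.image_image, Set.image_image]
  apply Set.image_congr
  intro X _
  exact proj_sim L m r v X

theorem frame_inner (w : Fin 4 → E3) (ℓ : ℝ)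
    (hw : ∀ i j, i ≠ j → dist (w i) (w j) = ℓ) :
    inner ℝ (w 0 - w 1) (w 0 - w 1) = ℓ ^ 2 ∧ inner ℝ (w 2 - w 3) (w 2 - w 3) = ℓ ^ 2 ∧
    inner ℝ (w 2 + w 3 - (w 0 + w 1)) (w 2 + w 3 - (w 0 + w 1)) = 2 * ℓ ^ 2 ∧
    inner ℝ (w 0 - w 1) (w 2 - w 3) = 0 ∧
    inner ℝ (w 0 - w 1) (w 2 + w 3 - (w 0 + w 1)) = 0 ∧
    inner ℝ (w 2 - w 3) (w 2 + w 3 - (w 0 + w 1)) = 0 := by
  have key : ∀ i j, i ≠ j →
      inner ℝ (w i) (w i) - 2 * inner ℝ (w i) (w j) + inner ℝ (w j) (w j) = ℓ ^ 2 := by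
    intro i j hij
    have h := hw i j hij
    rw [dist_eq_norm] at h
    have h2 := norm_sub_sq_real (w i) (w j)
    rw [h] at h2
    rw [real_inner_self_eq_norm_sq, real_inner_self_eq_norm_sq]
    linarith
  have h01 := key 0 1 (by decide)
  have h02 := key 0 2 (by decide)
  have h03 := key 0 3 (by decide)
  have h12 := key 1 2 (by decide)
  have h13 := key 1 3 (by decide)
  have h23 := key 2 3 (by decide)
  have c10 := real_inner_comm (w 0) (w 1)
  have c20 := real_inner_comm (w 0) (w 2)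
  have c30 := real_inner_comm (w 0) (w 3)
  have c21 := real_inner_comm (w 1) (w 2)
  have c31 := real_inner_comm (w 1) (w 3)
  have c32 := real_inner_comm (w 2) (w 3)
  simp only [inner_sub_left, inner_sub_right, inner_add_left, inner_add_right]
  refine ⟨?_, ?_, ?_, ?_, ?_, ?_⟩ <;> linarith

/-- an isometry with prescribed orthonormal images of the coordinate vectors -/
theorem exists_isometry_of_frame (A B C : E3) (hA : inner ℝ A A = 1) (hB : inner ℝ B B = 1)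
    (hC : inner ℝ C C = 1) (hAB : inner ℝ A B = 0) (hAC : inner ℝ A C = 0)
    (hBC : inner ℝ B C = 0) :
    ∃ L : E3 ≃ₗᵢ[ℝ] E3, ∀ X : E3, L X = X 0 • A + X 1 • B + X 2 • C := by
  have hon : Orthonormal ℝ ![A, B, C] := by
    rw [orthonormal_iff_ite]
    intro i j
    have hBA : inner ℝ B A = 0 := by rw [real_inner_comm]; exact hAB
    have hCA : inner ℝ C A = 0 := by rw [real_inner_comm]; exact hAC
    have hCB : inner ℝ C B = 0 := by rw [real_inner_comm]; exact hBC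
    fin_cases i <;> fin_cases j
    · exact hA
    · exact hAB
    · exact hAC
    · exact hBA
    · exact hB
    · exact hBC
    · exact hCA
    · exact hCB
    · exact hC
  obtain ⟨b, hb⟩ := Orthonormal.exists_orthonormalBasis_extension_of_card_eq (𝕜 := ℝ) (E := E3)
    (ι := Fin 3) (by simp) (v := ![A, B, C]) (s := Set.univ)
    (by
      have := hon.comp (fun x : (Set.univ : Set (Fin 3)) => (x : Fin 3)) Subtype.val_injective
      exact this)
  refine ⟨b.repr.symm, fun X => ?_⟩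
  rw [← b.sum_repr_symm, Fin.sum_univ_three, hb 0 trivial, hb 1 trivial, hb 2 trivial]
  rfl

theorem image_convexHull_sim (L : E3 ≃ₗᵢ[ℝ] E3) (m : E3) (r : ℝ) (S : Set E3) :
    (fun X => m + r • L X) '' convexHull ℝ S = convexHull ℝ ((fun X => m + r • L X) '' S) := by
  have := AffineMap.image_convexHull
    (AffineMap.const ℝ E3 m + (r • L.toLinearEquiv.toLinearMap).toAffineMap) S
  exact this

theorem range_four (w : Fin 4 → E3) : Set.range w = {w 0, w 1, w 2, w 3} := by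
  ext x
  constructor
  · rintro ⟨i, rfl⟩
    fin_cases i <;> simp
  · intro hx
    simp only [Set.mem_insert_iff, Set.mem_singleton_iff] at hx
    rcases hx with rfl | rfl | rfl | rfl <;> exact ⟨_, rfl⟩

theorem exists_similarity (w : Fin 4 → E3) (ℓ : ℝ) (hℓ : 0 < ℓ)
    (hw : ∀ i j, i ≠ j → dist (w i) (w j) = ℓ) :
    ∃ (L : E3 ≃ₗᵢ[ℝ] E3) (m : E3),
      convexHull ℝ (Set.range w) = (fun X => m + (ℓ / 2) • L X) '' K := by
  obtain ⟨hA, hB, hC, hAB, hAC, hBC⟩ := frame_inner w ℓ hw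
  have h2 : (0 : ℝ) < Real.sqrt 2 := by positivity
  have h22 : Real.sqrt 2 * Real.sqrt 2 = 2 := Real.mul_self_sqrt (by norm_num)
  obtain ⟨L, hL⟩ := exists_isometry_of_frame (ℓ⁻¹ • (w 0 - w 1)) (ℓ⁻¹ • (w 2 - w 3))
    ((Real.sqrt 2 * ℓ)⁻¹ • (w 2 + w 3 - (w 0 + w 1)))
    (by rw [inner_smul_left, inner_smul_right, hA]; simp; field_simp)
    (by rw [inner_smul_left, inner_smul_right, hB]; simp; field_simp)
    (by rw [inner_smul_left, inner_smul_right, hC]; simp; field_simp; nlinarith)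
    (by rw [inner_smul_left, inner_smul_right, hAB]; simp)
    (by rw [inner_smul_left, inner_smul_right, hAC]; simp)
    (by rw [inner_smul_left, inner_smul_right, hBC]; simp)
  refine ⟨L, (1 / 2 : ℝ) • (w 0 + w 1), ?_⟩
  rw [K, image_convexHull_sim, range_four]
  congr 1
  simp only [Set.image_insert_eq, Set.image_singleton, hL]
  have e0 : (1 / 2 : ℝ) • (w 0 + w 1) + (ℓ / 2) • ((!₂[(1:ℝ), 0, 0] : E3) 0 • ℓ⁻¹ • (w 0 - w 1) + (!₂[(1:ℝ), 0, 0] : E3) 1 • ℓ⁻¹ • (w 2 - w 3) + (!₂[(1:ℝ), 0, 0] : E3) 2 • (Real.sqrt 2 * ℓ)⁻¹ • (w 2 + w 3 - (w 0 + w 1))) = w 0 := by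
    simp only [Matrix.cons_val_zero, Matrix.cons_val_one, Matrix.cons_val]
    match_scalars <;> field_simp <;> ring
  have e1 : (1 / 2 : ℝ) • (w 0 + w 1) + (ℓ / 2) • ((!₂[(-1:ℝ), 0, 0] : E3) 0 • ℓ⁻¹ • (w 0 - w 1) + (!₂[(-1:ℝ), 0, 0] : E3) 1 • ℓ⁻¹ • (w 2 - w 3) + (!₂[(-1:ℝ), 0, 0] : E3) 2 • (Real.sqrt 2 * ℓ)⁻¹ • (w 2 + w 3 - (w 0 + w 1))) = w 1 := by
    simp only [Matrix.cons_val_zero, Matrix.cons_val_one, Matrix.cons_val]
    match_scalars <;> field_simp <;> ring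
  have e2 : (1 / 2 : ℝ) • (w 0 + w 1) + (ℓ / 2) • ((!₂[(0:ℝ), 1, Real.sqrt 2] : E3) 0 • ℓ⁻¹ • (w 0 - w 1) + (!₂[(0:ℝ), 1, Real.sqrt 2] : E3) 1 • ℓ⁻¹ • (w 2 - w 3) + (!₂[(0:ℝ), 1, Real.sqrt 2] : E3) 2 • (Real.sqrt 2 * ℓ)⁻¹ • (w 2 + w 3 - (w 0 + w 1))) = w 2 := by
    simp only [Matrix.cons_val_zero, Matrix.cons_val_one, Matrix.cons_val]
    match_scalars <;> field_simp <;> ring
  have e3 : (1 / 2 : ℝ) • (w 0 + w 1) + (ℓ / 2) • ((!₂[(0:ℝ), -1, Real.sqrt 2] : E3) 0 • ℓ⁻¹ • (w 0 - w 1) + (!₂[(0:ℝ), -1, Real.sqrt 2] : E3) 1 • ℓ⁻¹ • (w 2 - w 3) + (!₂[(0:ℝ), -1, Real.sqrt 2] : E3) 2 • (Real.sqrt 2 * ℓ)⁻¹ • (w 2 + w 3 - (w 0 + w 1))) = w 3 := by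
    simp only [Matrix.cons_val_zero, Matrix.cons_val_one, Matrix.cons_val]
    match_scalars <;> field_simp <;> ring
  rw [e0, e1, e2, e3]

/-- parallelogram (syntactically as in S0327) -/
def par (c a b : E3) : Set E3 :=
  {x : E3 | ∃ s ∈ Set.Icc (0 : ℝ) 1, ∃ t ∈ Set.Icc (0 : ℝ) 1, x = c + s • a + t • b}

theorem mem_triangle {p q r z : E3} (hz : z ∈ convexHull ℝ ({p, q, r} : Set E3)) :
    ∃ x y : ℝ, 0 ≤ y ∧ y ≤ x ∧ x ≤ 1 ∧ z = p + x • (q - p) + y • (r - q) := by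
  rw [← convexJoin_singleton_segment, mem_convexJoin] at hz
  obtain ⟨a, ha, y, hy, hz⟩ := hz
  rw [Set.mem_singleton_iff] at ha
  subst ha
  obtain ⟨α, β, hα, hβ, hαβ, rfl⟩ := hy
  obtain ⟨γ, δ, hγ, hδ, hγδ, rfl⟩ := hz
  refine ⟨δ, δ * β, by positivity, ?_, by linarith, ?_⟩
  · nlinarith
  · have h1 : γ = 1 - δ := by linarith
    have h2 : α = 1 - β := by linarith
    subst h1 h2
    module

theorem gram_smul (x y : ℝ) (a b : E3) : gram (x • a) (y • b) = (x * y) ^ 2 * gram a b := by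
  unfold gram
  rw [norm_smul, norm_smul, inner_smul_left, inner_smul_right]
  simp only [Real.norm_eq_abs, RCLike.conj_to_real, mul_pow, sq_abs]
  ring

theorem gram_add_right (a b : E3) : gram a (a + b) = gram a b := by
  unfold gram
  rw [norm_add_sq_real, inner_add_right, real_inner_self_eq_norm_sq]
  ring

theorem sum_fin_succ (n : ℕ) : ∑ k : Fin n, ((k : ℝ) + 1) = n * (n + 1) / 2 := by
  rw [Fin.sum_univ_eq_sum_range (fun k => (k : ℝ) + 1) n]
  induction n with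
  | zero => simp
  | succ n ih => rw [Finset.sum_range_succ, ih]; push_cast; ring

theorem area_par_toReal (c a b : E3) : (μHE[2] (par c a b)).toReal = Real.sqrt (gram a b) := by
  rw [par, area_parallelogram, ENNReal.toReal_ofReal (Real.sqrt_nonneg _)]

theorem area_tri_toReal (p q r : E3) :
    (μHE[2] (convexHull ℝ ({p, q, r} : Set E3))).toReal = Real.sqrt (gram (q - p) (r - q)) / 2 := by
  rw [area_triangle, ENNReal.toReal_ofReal (by positivity)]
  have : r - p = (q - p) + (r - q) := by abel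
  rw [this, gram_add_right]

theorem tri_to_par (u p q r : E3) (hp : inner ℝ p u = 0) (hq : inner ℝ q u = 0)
    (hr : inner ℝ r u = 0) (n : ℕ) (hn : 0 < n) :
    ∃ c a b : Fin n → E3,
      (∀ k, inner ℝ (c k) u = 0 ∧ inner ℝ (a k) u = 0 ∧ inner ℝ (b k) u = 0) ∧
      convexHull ℝ ({p, q, r} : Set E3) ⊆ ⋃ k, par (c k) (a k) (b k) ∧
      ∑ k, (μHE[2] (par (c k) (a k) (b k))).toReal
        = (1 + 1 / (n : ℝ)) * (μHE[2] (convexHull ℝ ({p, q, r} : Set E3))).toReal := by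
  have hn' : (0 : ℝ) < n := by exact_mod_cast hn
  refine ⟨fun k => p + ((k : ℝ) / n) • (q - p), fun _ => (1 / (n : ℝ)) • (q - p),
    fun k => (((k : ℝ) + 1) / n) • (r - q), ?_, ?_, ?_⟩
  · intro k
    simp only [inner_add_left, inner_smul_left, inner_sub_left, hp, hq, hr]
    simp
  · intro z hz
    obtain ⟨x, y, hy0, hyx, hx1, rfl⟩ := mem_triangle hz
    have hx0 : 0 ≤ x := hy0.trans hyx
    -- choose the slice
    set k0 : ℕ := min (⌊(n : ℝ) * x⌋₊) (n - 1) with hk0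
    have hk0n : k0 < n := by
      have : k0 ≤ n - 1 := min_le_right _ _
      omega
    have hk0le : (k0 : ℝ) ≤ n * x := by
      have h1 : (k0 : ℝ) ≤ (⌊(n : ℝ) * x⌋₊ : ℝ) := by exact_mod_cast min_le_left _ _
      exact h1.trans (Nat.floor_le (by positivity))
    have hk0ge : (n : ℝ) * x ≤ k0 + 1 := by
      rcases le_total (⌊(n : ℝ) * x⌋₊) (n - 1) with h | h
      · have : k0 = ⌊(n : ℝ) * x⌋₊ := min_eq_left h
        rw [this]
        exact (Nat.lt_floor_add_one _).le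
      · have : k0 = n - 1 := min_eq_right h
        have h2 : (k0 : ℝ) + 1 = n := by
          rw [this]
          have : n - 1 + 1 = n := by omega
          exact_mod_cast this
        rw [h2]
        nlinarith
    rw [Set.mem_iUnion]
    refine ⟨⟨k0, hk0n⟩, (n : ℝ) * x - k0, ⟨by linarith, by linarith⟩,
      y * n / ((k0 : ℝ) + 1), ⟨by positivity, ?_⟩, ?_⟩
    · rw [div_le_one (by positivity)]
      nlinarith
    · have hk1 : (k0 : ℝ) + 1 ≠ 0 := by positivity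
      simp only [smul_smul]
      have e1 : (n * x - k0) * (1 / (n : ℝ)) = x - k0 / n := by field_simp
      have e2 : y * n / ((k0 : ℝ) + 1) * (((k0 : ℝ) + 1) / n) = y := by field_simp
      rw [e1, e2]
      module
  · simp only [area_par_toReal, area_tri_toReal, gram_smul]
    have h : ∀ k : Fin n, Real.sqrt ((1 / (n : ℝ) * (((k : ℝ) + 1) / n)) ^ 2 * gram (q - p) (r - q))
        = ((k : ℝ) + 1) * (Real.sqrt (gram (q - p) (r - q)) / (n : ℝ) ^ 2) := by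
      intro k
      rw [Real.sqrt_mul (by positivity), Real.sqrt_sq (by positivity)]
      field_simp
    simp only [h]
    rw [← Finset.sum_mul, sum_fin_succ]
    field_simp

theorem tri_cover (w : Fin 4 → E3) (ℓ : ℝ) (hℓ : 0 < ℓ)
    (hw : ∀ i j, i ≠ j → dist (w i) (w j) = ℓ) :
    ∃ (m : ℕ) (u p q r : Fin m → E3),
      (∀ i, ‖u i‖ = 1) ∧
      (∀ i, inner ℝ (p i) (u i) = 0 ∧ inner ℝ (q i) (u i) = 0 ∧ inner ℝ (r i) (u i) = 0) ∧
      convexHull ℝ (Set.range w) ⊆ ⋃ i, triCyl (u i) (p i) (q i) (r i) ∧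
      ∑ i, (μHE[2] (convexHull ℝ ({p i, q i, r i} : Set E3))).toReal
        ≤ ((ℓ / 2) ^ 2 * Real.sqrt 2) * (1 / 2 - 1 / 10 ^ 7) ∧
      ∀ v : E3, ‖v‖ = 1 → (ℓ / 2) ^ 2 * Real.sqrt 2 ≤
        (μHE[2] ((fun y => y - inner ℝ y v • v) '' convexHull ℝ (Set.range w))).toReal := by
  obtain ⟨L, m0, hK⟩ := exists_similarity w ℓ hℓ hw
  obtain ⟨m, u, p, q, r, -, hu, horth, hcov, hsum⟩ := fan_cover
  have hr : 0 < ℓ / 2 := by positivity
  have hLu : ∀ i, inner ℝ (L (u i)) (L (u i)) = 1 := by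
    intro i
    rw [L.inner_map_map, real_inner_self_eq_norm_sq, hu i]; norm_num
  have horth' : ∀ i (x : E3), inner ℝ x (u i) = 0 →
      inner ℝ ((m0 - inner ℝ m0 (L (u i)) • L (u i)) + (ℓ / 2) • L x) (L (u i)) = 0 := by
    intro i x hx
    rw [inner_add_left, inner_sub_left, inner_smul_left, inner_smul_left, hLu i,
      L.inner_map_map, hx]
    simp
  have himg : ∀ i, convexHull ℝ ({(m0 - inner ℝ m0 (L (u i)) • L (u i)) + (ℓ / 2) • L (p i),
      (m0 - inner ℝ m0 (L (u i)) • L (u i)) + (ℓ / 2) • L (q i),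
      (m0 - inner ℝ m0 (L (u i)) • L (u i)) + (ℓ / 2) • L (r i)} : Set E3)
      = (fun X => (m0 - inner ℝ m0 (L (u i)) • L (u i)) + (ℓ / 2) • L X) ''
        convexHull ℝ ({p i, q i, r i} : Set E3) := by
    intro i
    rw [image_convexHull_sim, Set.image_insert_eq, Set.image_insert_eq, Set.image_singleton]
  refine ⟨m, fun i => L (u i),
    fun i => (m0 - inner ℝ m0 (L (u i)) • L (u i)) + (ℓ / 2) • L (p i),
    fun i => (m0 - inner ℝ m0 (L (u i)) • L (u i)) + (ℓ / 2) • L (q i),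
    fun i => (m0 - inner ℝ m0 (L (u i)) • L (u i)) + (ℓ / 2) • L (r i), ?_, ?_, ?_, ?_, ?_⟩
  · intro i
    rw [L.norm_map, hu i]
  · intro i
    exact ⟨horth' i _ (horth i).1, horth' i _ (horth i).2.1, horth' i _ (horth i).2.2⟩
  · rw [hK]
    rintro _ ⟨X, hX, rfl⟩
    obtain ⟨i, hi⟩ := Set.mem_iUnion.1 (hcov hX)
    obtain ⟨b, hb, t, rfl⟩ := hi
    rw [Set.mem_iUnion]
    refine ⟨i, (m0 - inner ℝ m0 (L (u i)) • L (u i)) + (ℓ / 2) • L b, ?_,
      inner ℝ m0 (L (u i)) + (ℓ / 2) * t, ?_⟩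
    · simp only [himg]
      exact ⟨b, hb, rfl⟩
    · simp only [map_add, map_smul]
      module
  · simp only [himg, area_sim L _ _ hr, ENNReal.toReal_mul,
      ENNReal.toReal_ofReal (sq_nonneg (ℓ / 2))]
    rw [← Finset.mul_sum, mul_assoc]
    exact mul_le_mul_of_nonneg_left hsum (by positivity)
  · intro v hv
    have hv' : ‖L.symm v‖ = 1 := by rw [L.symm.norm_map, hv]
    have hvL : v = L (L.symm v) := (L.apply_symm_apply v).symm
    rw [hK, hvL, proj_image_sim, area_sim L _ _ hr, ENNReal.toReal_mul,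
      ENNReal.toReal_ofReal (sq_nonneg (ℓ / 2))]
    apply mul_le_mul_of_nonneg_left _ (by positivity)
    exact (ENNReal.ofReal_le_iff_le_toReal (proj_K_lt_top _ hv').ne).1 (minproj _ hv')

theorem ratio_lt {ι : Type*} [Fintype ι] (A D : ι → ℝ) (P θ : ℝ) (hP : 0 < P)
    (hA : ∀ i, 0 ≤ A i) (hD : ∀ i, P ≤ D i) (hθ : θ < 1 / 2) (hsum : ∑ i, A i ≤ P * θ) :
    ∑ i, A i / D i < 1 / 2 := by
  have h1 : ∑ i, A i / D i ≤ ∑ i, A i / P :=
    Finset.sum_le_sum fun i _ => div_le_div_of_nonneg_left (hA i) hP (hD i)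
  have h2 : ∑ i, A i / P ≤ θ := by
    rw [← Finset.sum_div, div_le_iff₀ hP]
    linarith
  linarith

/-- Part 1 with an arbitrary finite index type. -/
def ParCover (Kw : Set E3) (ι : Type) [Fintype ι] (u c a b : ι → E3) : Prop :=
  (∀ i, ‖u i‖ = 1) ∧
  (∀ i, inner ℝ (c i) (u i) = 0 ∧ inner ℝ (a i) (u i) = 0 ∧ inner ℝ (b i) (u i) = 0) ∧
  Kw ⊆ ⋃ i, {x : E3 |
    ∃ s ∈ Set.Icc (0 : ℝ) 1, ∃ t ∈ Set.Icc (0 : ℝ) 1, ∃ τ : ℝ, x = c i + s • a i + t • b i + τ • u i} ∧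
  (∃ δ : ℝ, 0 < δ ∧ ∀ v : E3, ‖v‖ = 1 →
    (∑ i, (μHE[2] (par (c i) (a i) (b i))).toReal) + δ ≤
      (μHE[2] ((fun y => y - inner ℝ y v • v) '' Kw)).toReal / 2) ∧
  ∑ i, (μHE[2] (par (c i) (a i) (b i))).toReal /
      (μHE[2] ((fun y => y - inner ℝ y (u i) • u i) '' Kw)).toReal < 1 / 2

theorem ParCover.reindex {Kw : Set E3} {ι : Type} [Fintype ι] {u c a b : ι → E3}
    (h : ParCover Kw ι u c a b) :
    ∃ (k : ℕ) (u c a b : Fin k → E3), ParCover Kw (Fin k) u c a b := by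
  obtain ⟨h1, h2, h3, ⟨δ, hδ, h4⟩, h5⟩ := h
  let e : Fin (Fintype.card ι) ≃ ι := (Fintype.equivFin ι).symm
  refine ⟨Fintype.card ι, u ∘ e, c ∘ e, a ∘ e, b ∘ e, fun i => h1 _, fun i => h2 _, ?_,
    ⟨δ, hδ, fun v hv => ?_⟩, ?_⟩
  · intro x hx
    obtain ⟨i, hi⟩ := Set.mem_iUnion.1 (h3 hx)
    rw [Set.mem_iUnion]
    refine ⟨e.symm i, ?_⟩
    simpa using hi
  · have := h4 v hv
    rw [← Equiv.sum_comp e] at this
    exact this
  · rw [← Equiv.sum_comp e] at h5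
    exact h5

theorem part1 (w : Fin 4 → E3) (ℓ : ℝ) (hℓ : 0 < ℓ)
    (hw : ∀ i j, i ≠ j → dist (w i) (w j) = ℓ) :
    ∃ (k : ℕ) (u c a b : Fin k → E3), ParCover (convexHull ℝ (Set.range w)) (Fin k) u c a b := by
  obtain ⟨m, u, p, q, r, hu, horth, hcov, hsum, hproj⟩ := tri_cover w ℓ hℓ hw
  set P : ℝ := (ℓ / 2) ^ 2 * Real.sqrt 2 with hPdef
  have hP : 0 < P := by positivity
  obtain ⟨n, hn, hn7⟩ : ∃ n : ℕ, 0 < n ∧ (n : ℝ) = 10 ^ 7 := ⟨10 ^ 7, by norm_num, by norm_num⟩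
  have H := fun i => tri_to_par (u i) (p i) (q i) (r i) (horth i).1 (horth i).2.1 (horth i).2.2 n hn
  choose c a b hcab hsub harea using H
  have htot : ∑ x : Fin m × Fin n, (μHE[2] (par (c x.1 x.2) (a x.1 x.2) (b x.1 x.2))).toReal
      ≤ P * ((1 + 1 / 10 ^ 7) * (1 / 2 - 1 / 10 ^ 7)) := by
    rw [Fintype.sum_prod_type]
    simp only [harea, hn7]
    rw [← Finset.mul_sum]
    calc (1 + 1 / 10 ^ 7) * ∑ i, (μHE[2] (convexHull ℝ ({p i, q i, r i} : Set E3))).toReal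
        ≤ (1 + 1 / 10 ^ 7) * (P * (1 / 2 - 1 / 10 ^ 7)) :=
          mul_le_mul_of_nonneg_left hsum (by norm_num)
      _ = P * ((1 + 1 / 10 ^ 7) * (1 / 2 - 1 / 10 ^ 7)) := by ring
  apply ParCover.reindex (ι := Fin m × Fin n) (u := fun x => u x.1) (c := fun x => c x.1 x.2)
    (a := fun x => a x.1 x.2) (b := fun x => b x.1 x.2)
  refine ⟨fun x => hu x.1, fun x => hcab x.1 x.2, ?_, ⟨P * (1 / 10 ^ 8), by positivity, ?_⟩, ?_⟩
  · intro x hx
    obtain ⟨i, hi⟩ := Set.mem_iUnion.1 (hcov hx)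
    obtain ⟨y, hy, τ, rfl⟩ := hi
    obtain ⟨k, hk⟩ := Set.mem_iUnion.1 (hsub i hy)
    obtain ⟨s, hs, t, ht, rfl⟩ := hk
    rw [Set.mem_iUnion]
    exact ⟨(i, k), s, hs, t, ht, τ, rfl⟩
  · intro v hv
    have := hproj v hv
    nlinarith
  · exact ratio_lt _ _ P _ hP (fun _ => ENNReal.toReal_nonneg) (fun x => hproj _ (hu x.1))
      (by norm_num) htot

theorem inner_of_mem_triangle {u p q r z : E3} (hp : inner ℝ p u = 0) (hq : inner ℝ q u = 0)
    (hr : inner ℝ r u = 0) (hz : z ∈ convexHull ℝ ({p, q, r} : Set E3)) : inner ℝ z u = 0 := by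
  obtain ⟨x, y, -, -, -, rfl⟩ := mem_triangle hz
  simp only [inner_add_left, inner_smul_left, inner_sub_left, hp, hq, hr]
  simp

theorem part2 (w : Fin 4 → E3) (ℓ : ℝ) (hℓ : 0 < ℓ)
    (hw : ∀ i j, i ≠ j → dist (w i) (w j) = ℓ) :
    ∃ (k : ℕ) (u : Fin k → E3) (B : Fin k → Set E3),
      (∀ i, ‖u i‖ = 1) ∧
      (∀ i, Bornology.IsBounded (B i) ∧ ∃ O : Set E3, IsOpen O ∧
        B i = O ∩ {x | inner ℝ x (u i) = 0}) ∧
      convexHull ℝ (Set.range w) ⊆
        ⋃ i, {x : E3 | ∃ y ∈ B i, ∃ τ : ℝ, x = y + τ • u i} ∧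
      (∃ δ : ℝ, 0 < δ ∧ ∀ v : E3, ‖v‖ = 1 →
        (∑ i, (μHE[2] (B i)).toReal) + δ ≤
          (μHE[2] ((fun y => y - inner ℝ y v • v) '' convexHull ℝ (Set.range w))).toReal / 2) ∧
      ∑ i, (μHE[2] (B i)).toReal /
          (μHE[2] ((fun y => y - inner ℝ y (u i) • u i) '' convexHull ℝ (Set.range w))).toReal
        < 1 / 2 := by
  obtain ⟨m, u, p, q, r, hu, horth, hcov, hsum, hproj⟩ := tri_cover w ℓ hℓ hw
  set P : ℝ := (ℓ / 2) ^ 2 * Real.sqrt 2 with hPdef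
  have hP : 0 < P := by positivity
  set η : ℝ := P * (1 / 10 ^ 8) / ((m : ℝ) + 1) with hηdef
  have hη : 0 < η := by positivity
  have hbdd : ∀ i, Bornology.IsBounded (convexHull ℝ ({p i, q i, r i} : Set E3)) := by
    intro i
    rw [isBounded_convexHull]
    exact (Set.toFinite _).isBounded
  have H := fun i => exists_open_base (u i) (hu i) (convexHull ℝ ({p i, q i, r i} : Set E3))
    (hbdd i) (fun x hx => inner_of_mem_triangle (horth i).1 (horth i).2.1 (horth i).2.2 hx) η hη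
  choose B hBb hBo hsub harea using H
  have hle : ∀ i, (μHE[2] (B i)).toReal
      ≤ (μHE[2] (convexHull ℝ ({p i, q i, r i} : Set E3))).toReal + η := by
    intro i
    have hfin : μHE[2] (convexHull ℝ ({p i, q i, r i} : Set E3)) ≠ ⊤ := by
      rw [area_triangle]; exact ENNReal.ofReal_ne_top
    have := ENNReal.toReal_mono (ENNReal.add_ne_top.2 ⟨hfin, ENNReal.ofReal_ne_top⟩) (harea i)
    rwa [ENNReal.toReal_add hfin ENNReal.ofReal_ne_top, ENNReal.toReal_ofReal hη.le] at this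
  have htot : ∑ i, (μHE[2] (B i)).toReal ≤ P * (1 / 2 - 1 / 10 ^ 7 + 1 / 10 ^ 8) := by
    calc ∑ i, (μHE[2] (B i)).toReal
        ≤ ∑ i, ((μHE[2] (convexHull ℝ ({p i, q i, r i} : Set E3))).toReal + η) :=
          Finset.sum_le_sum fun i _ => hle i
      _ = ∑ i, (μHE[2] (convexHull ℝ ({p i, q i, r i} : Set E3))).toReal + m * η := by
          rw [Finset.sum_add_distrib]; simp
      _ ≤ P * (1 / 2 - 1 / 10 ^ 7) + P * (1 / 10 ^ 8) := by
          have : (m : ℝ) * η ≤ P * (1 / 10 ^ 8) := by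
            rw [hηdef, mul_div_assoc', div_le_iff₀ (by positivity)]
            have : 0 ≤ P * (1 / 10 ^ 8) := by positivity
            nlinarith
          linarith
      _ = P * (1 / 2 - 1 / 10 ^ 7 + 1 / 10 ^ 8) := by ring
  refine ⟨m, u, B, hu, fun i => ⟨hBb i, hBo i⟩, ?_, ⟨P * (1 / 10 ^ 8), by positivity, ?_⟩, ?_⟩
  · intro x hx
    obtain ⟨i, hi⟩ := Set.mem_iUnion.1 (hcov hx)
    obtain ⟨y, hy, τ, rfl⟩ := hi
    rw [Set.mem_iUnion]
    exact ⟨i, y, hsub i hy, τ, rfl⟩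
  · intro v hv
    have := hproj v hv
    nlinarith
  · exact ratio_lt _ _ P _ hP (fun _ => ENNReal.toReal_nonneg) (fun i => hproj _ (hu i))
      (by norm_num) htot

end Crest.Agent.S0327
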