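import Mathlib

set_option autoImplicit false

namespace Crest.Agent.S0328
open MeasureTheory

abbrev E3 := EuclideanSpace ℝ (Fin 3)

/-- Gram determinant of two vectors. -/
noncomputable def gram (u v : E3) : ℝ := ‖u‖ ^ 2 * ‖v‖ ^ 2 - inner ℝ u v ^ 2

/-- orthogonal projection along `n`. -/
noncomputable def proj (n y : E3) : E3 := y - (inner ℝ y n / ‖n‖ ^ 2) • n

theorem proj_add (n x y : E3) : proj n (x + y) = proj n x + proj n y := by
  unfold proj
  rw [inner_add_left, add_div, add_smul]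
  abel

theorem proj_smul (n : E3) (c : ℝ) (x : E3) : proj n (c • x) = c • proj n x := by
  unfold proj
  rw [inner_smul_left, smul_sub, smul_smul]
  simp [mul_div_assoc]

theorem proj_sub (n x y : E3) : proj n (x - y) = proj n x - proj n y := by
  unfold proj
  rw [inner_sub_left, sub_div, sub_smul]
  abel

theorem proj_self {n : E3} (hn : n ≠ 0) : proj n n = 0 := by
  unfold proj
  rw [real_inner_self_eq_norm_sq, div_self (by positivity), one_smul, sub_self]

theorem inner_proj {n : E3} (hn : n ≠ 0) (y : E3) : inner ℝ (proj n y) n = 0 := by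
  unfold proj
  rw [inner_sub_left, inner_smul_left, real_inner_self_eq_norm_sq]
  have : ‖n‖ ^ 2 ≠ 0 := by positivity
  simp
  field_simp
  ring

theorem inner_eq_coord (x y : E3) : inner ℝ x y = x 0 * y 0 + x 1 * y 1 + x 2 * y 2 := by
  simp [PiLp.inner_apply, Fin.sum_univ_three, mul_comm]

theorem gramdet_zero {e u v w : E3} (he : ‖e‖ = 1) (hu : inner ℝ u e = 0)
    (hv : inner ℝ v e = 0) (hw : inner ℝ w e = 0) :
    ‖u‖ ^ 2 * ‖v‖ ^ 2 * ‖w‖ ^ 2 + 2 * inner ℝ u v * inner ℝ v w * inner ℝ u w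
      - ‖u‖ ^ 2 * inner ℝ v w ^ 2 - ‖v‖ ^ 2 * inner ℝ u w ^ 2 - ‖w‖ ^ 2 * inner ℝ u v ^ 2 = 0 := by
  have he2 : inner ℝ e e = 1 := by rw [real_inner_self_eq_norm_sq, he]; norm_num
  simp only [← real_inner_self_eq_norm_sq]
  rw [inner_eq_coord] at hu hv hw he2
  simp only [inner_eq_coord]
  set u0 := u 0
  set u1 := u 1
  set u2 := u 2
  set v0 := v 0
  set v1 := v 1
  set v2 := v 2
  set w0 := w 0
  set w1 := w 1
  set w2 := w 2
  set e0 := e 0
  set e1 := e 1
  set e2 := e 2
  set D : ℝ := u0 * (v1 * w2 - v2 * w1) + v0 * (w1 * u2 - w2 * u1) + w0 * (u1 * v2 - u2 * v1)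
    with hD
  have h0 : D * e0 = 0 := by
    rw [hD]
    linear_combination (v1 * w2 - v2 * w1) * hu + (w1 * u2 - w2 * u1) * hv
      + (u1 * v2 - u2 * v1) * hw
  have h1 : D * e1 = 0 := by
    rw [hD]
    linear_combination (v2 * w0 - v0 * w2) * hu + (w2 * u0 - w0 * u2) * hv
      + (u2 * v0 - u0 * v2) * hw
  have h2 : D * e2 = 0 := by
    rw [hD]
    linear_combination (v0 * w1 - v1 * w0) * hu + (w0 * u1 - w1 * u0) * hv
      + (u0 * v1 - u1 * v0) * hw
  have hD0 : D = 0 := by
    have : D = D * (e0 * e0 + e1 * e1 + e2 * e2) := by rw [he2, mul_one]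
    rw [this]
    linear_combination e0 * h0 + e1 * h1 + e2 * h2
  have : (u0 * u0 + u1 * u1 + u2 * u2) * (v0 * v0 + v1 * v1 + v2 * v2) *
      (w0 * w0 + w1 * w1 + w2 * w2) +
      2 * (u0 * v0 + u1 * v1 + u2 * v2) * (v0 * w0 + v1 * w1 + v2 * w2) *
        (u0 * w0 + u1 * w1 + u2 * w2) -
      (u0 * u0 + u1 * u1 + u2 * u2) * (v0 * w0 + v1 * w1 + v2 * w2) ^ 2 -
      (v0 * v0 + v1 * v1 + v2 * v2) * (u0 * w0 + u1 * w1 + u2 * w2) ^ 2 -
      (w0 * w0 + w1 * w1 + w2 * w2) * (u0 * v0 + u1 * v1 + u2 * v2) ^ 2 = D ^ 2 := by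
    rw [hD]; ring
  rw [this, hD0]; norm_num

theorem norm_sq_e_add {e w : E3} (he : ‖e‖ = 1) (hw : inner ℝ w e = 0) :
    ‖e + w‖ ^ 2 = 1 + ‖w‖ ^ 2 := by
  rw [norm_add_sq_real, he, real_inner_comm, hw]; ring

theorem e_add_ne_zero {e w : E3} (he : ‖e‖ = 1) (hw : inner ℝ w e = 0) : e + w ≠ 0 := by
  intro h
  have := norm_sq_e_add he hw
  rw [h, norm_zero] at this
  nlinarith [sq_nonneg ‖w‖]

theorem inner_proj_proj {n : E3} (hn : n ≠ 0) (x y : E3) :
    inner ℝ (proj n x) (proj n y) = inner ℝ x y - inner ℝ x n * inner ℝ y n / ‖n‖ ^ 2 := by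
  have h1 : inner ℝ (proj n x) (proj n y) = inner ℝ (proj n x) y := by
    conv_lhs => rw [proj.eq_def n y]
    rw [inner_sub_right, inner_smul_right, inner_proj hn, mul_zero, sub_zero]
  rw [h1, proj, inner_sub_left, inner_smul_left, real_inner_comm y n]
  simp
  ring

theorem gram_proj {e u v w : E3} (he : ‖e‖ = 1) (hu : inner ℝ u e = 0)
    (hv : inner ℝ v e = 0) (hw : inner ℝ w e = 0) :
    gram (proj (e + w) u) (proj (e + w) v) = gram u v / (1 + ‖w‖ ^ 2) := by
  have hn := e_add_ne_zero he hw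
  have hN := norm_sq_e_add he hw
  have hG := gramdet_zero he hu hv hw
  unfold gram
  rw [← real_inner_self_eq_norm_sq, ← real_inner_self_eq_norm_sq, inner_proj_proj hn,
    inner_proj_proj hn, inner_proj_proj hn, hN, inner_add_right, inner_add_right, hu, hv,
    real_inner_self_eq_norm_sq, real_inner_self_eq_norm_sq]
  have hpos : (1 + ‖w‖ ^ 2) ≠ 0 := by positivity
  field_simp
  linear_combination (1 + ‖w‖ ^ 2) * hG

theorem gram_nonneg (u v : E3) : 0 ≤ gram u v := by
  unfold gram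
  have := real_inner_mul_inner_self_le u v
  rw [real_inner_self_eq_norm_sq, real_inner_self_eq_norm_sq] at this
  nlinarith

theorem gram_wedge (a b : E3) (Y s t : ℝ) :
    gram (Y • (a + s • b)) (Y • (a + t • b)) = Y ^ 4 * (t - s) ^ 2 * gram a b := by
  unfold gram
  simp only [← real_inner_self_eq_norm_sq, inner_add_left, inner_add_right, inner_smul_left,
    inner_smul_right, real_inner_comm a b]
  simp
  ring

theorem gram_pos {a b : E3} (hab : LinearIndependent ℝ ![a, b]) : 0 < gram a b := by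
  rw [LinearIndependent.pair_iff] at hab
  rcases (gram_nonneg a b).lt_or_eq with h | h
  · exact h
  · exfalso
    have hv : ‖(-inner ℝ a b) • a + ‖a‖ ^ 2 • b‖ ^ 2 = ‖a‖ ^ 2 * gram a b := by
      unfold gram
      simp only [← real_inner_self_eq_norm_sq, inner_add_left, inner_add_right, inner_smul_left,
        inner_smul_right, real_inner_comm a b]
      simp
      ring
    rw [← h, mul_zero] at hv
    have hv0 : (-inner ℝ a b) • a + ‖a‖ ^ 2 • b = 0 := by
      have : ‖(-inner ℝ a b) • a + ‖a‖ ^ 2 • b‖ = 0 := by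
        exact pow_eq_zero_iff (two_ne_zero) |>.mp hv
      exact norm_eq_zero.mp this
    have h2 := (hab _ _ hv0).2
    have ha0 : a = 0 := by
      have : ‖a‖ = 0 := pow_eq_zero_iff (two_ne_zero) |>.mp h2
      exact norm_eq_zero.mp this
    have := hab 1 0 (by simp [ha0])
    exact one_ne_zero this.1

theorem gram_smul_smul (v : E3) (x y : ℝ) : gram (x • v) (y • v) = 0 := by
  unfold gram
  simp only [← real_inner_self_eq_norm_sq, inner_smul_left, inner_smul_right]
  simp
  ring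

theorem affineIndependent_of_gram_pos {p q r : E3} (h : 0 < gram (q - p) (r - p)) :
    AffineIndependent ℝ ![p, q, r] := by
  rw [affineIndependent_iff_not_collinear_set]
  intro hcol
  rw [collinear_iff_of_mem (p₀ := p) (by simp)] at hcol
  obtain ⟨v, hv⟩ := hcol
  obtain ⟨x, hx⟩ := hv q (by simp)
  obtain ⟨y, hy⟩ := hv r (by simp)
  rw [hx, hy] at h
  simp only [vadd_eq_add, add_sub_cancel_right] at h
  rw [gram_smul_smul] at h
  exact lt_irrefl _ h

end Crest.Agent.S0328
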