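import Mathlib

set_option autoImplicit false

namespace Crest.Agent.S0328

/-- Explicit description of a triangle. -/
theorem mem_convexHull_triple_iff {E : Type*} [AddCommGroup E] [Module ℝ E] (p q r y : E) :
    y ∈ convexHull ℝ {p, q, r} ↔
      ∃ l₁ l₂ : ℝ, 0 ≤ l₁ ∧ 0 ≤ l₂ ∧ l₁ + l₂ ≤ 1 ∧ y = p + l₁ • (q - p) + l₂ • (r - p) := by
  constructor
  · intro hy
    rw [← convexJoin_singleton_segment, mem_convexJoin] at hy
    obtain ⟨a, ha, z, hz, hy⟩ := hy
    rw [Set.mem_singleton_iff] at ha
    subst ha
    obtain ⟨u, v, hu, hv, huv, rfl⟩ := hz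
    obtain ⟨s, t, hs, ht, hst, rfl⟩ := hy
    refine ⟨t * u, t * v, by positivity, by positivity, ?_, ?_⟩
    · have : t * u + t * v = t := by rw [← mul_add, huv, mul_one]
      rw [this]; linarith
    · have hs' : s = 1 - t := by linarith
      have hu' : u = 1 - v := by linarith
      subst hs' hu'
      module
  · rintro ⟨l₁, l₂, h1, h2, h12, rfl⟩
    have hC := convex_convexHull ℝ ({p, q, r} : Set E)
    have hp : p ∈ convexHull ℝ ({p, q, r} : Set E) := subset_convexHull ℝ _ (by simp)
    have hq : q ∈ convexHull ℝ ({p, q, r} : Set E) := subset_convexHull ℝ _ (by simp)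
    have hr : r ∈ convexHull ℝ ({p, q, r} : Set E) := subset_convexHull ℝ _ (by simp)
    have := hC.sum_mem (t := Finset.univ) (w := ![1 - l₁ - l₂, l₁, l₂]) (z := ![p, q, r])
      (by intro i _; fin_cases i <;> simp <;> linarith)
      (by simp only [Fin.sum_univ_three, Matrix.cons_val_zero, Matrix.cons_val_one,
            Matrix.cons_val_two, Matrix.head_cons, Matrix.tail_cons]; ring)
      (by intro i _; fin_cases i <;> simp [hp, hq, hr])
    simp only [Fin.sum_univ_three, Matrix.cons_val_zero, Matrix.cons_val_one,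
      Matrix.cons_val_two, Matrix.head_cons, Matrix.tail_cons] at this
    convert this using 1
    module

end Crest.Agent.S0328
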