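import Mathlib
import Crest.Agent.Cyl.S0328_Hull
import Crest.Agent.Cyl.S0328_Gram

set_option autoImplicit false

namespace Crest.Agent.S0328
open MeasureTheory

theorem continuousOn_w {a b : E3} {α β : ℝ} {w : ℝ → E3} {lam : ℝ → ℝ}
    (hw' : ∀ t ∈ Set.Icc α β, HasDerivWithinAt w (lam t • (a + t • b)) (Set.Icc α β) t) :
    ContinuousOn w (Set.Icc α β) := fun t ht => (hw' t ht).continuousWithinAt

theorem w_sub_eq {a b : E3} {α β : ℝ} {w : ℝ → E3} {lam : ℝ → ℝ}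
    (hlam : ContinuousOn lam (Set.Icc α β))
    (hw' : ∀ t ∈ Set.Icc α β, HasDerivWithinAt w (lam t • (a + t • b)) (Set.Icc α β) t)
    {c τ : ℝ} (hc : c ∈ Set.Icc α β) (hτ : τ ∈ Set.Icc α β) :
    w τ - w c = (∫ σ in c..τ, lam σ) • a + (∫ σ in c..τ, lam σ * σ) • b := by
  have hsub : Set.uIcc c τ ⊆ Set.Icc α β := Set.uIcc_subset_Icc hc hτ
  have hl1 : IntervalIntegrable lam volume c τ := (hlam.mono hsub).intervalIntegrable
  have hl2 : IntervalIntegrable (fun σ => lam σ * σ) volume c τ :=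
    ((hlam.mono hsub).mul continuousOn_id).intervalIntegrable
  have hint : IntervalIntegrable (fun σ => lam σ • (a + σ • b)) volume c τ := by
    apply ContinuousOn.intervalIntegrable
    apply ContinuousOn.smul (hlam.mono hsub)
    fun_prop
  have h := intervalIntegral.integral_eq_sub_of_hasDeriv_right (a := c) (b := τ) (f := w)
    (f' := fun σ => lam σ • (a + σ • b)) ((continuousOn_w hw').mono hsub) ?_ hint
  · rw [← h]
    have e : (fun σ => lam σ • (a + σ • b)) = fun σ => lam σ • a + (lam σ * σ) • b := by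
      funext σ
      rw [smul_add, smul_smul]
    have i1 : IntervalIntegrable (fun σ => lam σ • a) volume c τ :=
      ((hlam.mono hsub).smul continuousOn_const).intervalIntegrable
    have i2 : IntervalIntegrable (fun σ => (lam σ * σ) • b) volume c τ :=
      (((hlam.mono hsub).mul continuousOn_id).smul continuousOn_const).intervalIntegrable
    rw [e, intervalIntegral.integral_add i1 i2,
      intervalIntegral.integral_smul_const, intervalIntegral.integral_smul_const]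
  · intro x hx
    have hx1 : α < x := lt_of_le_of_lt (le_min hc.1 hτ.1) hx.1
    have hx2 : x < β := lt_of_lt_of_le hx.2 (max_le hc.2 hτ.2)
    exact ((hw' x ⟨hx1.le, hx2.le⟩).hasDerivAt (Icc_mem_nhds hx1 hx2)).hasDerivWithinAt

theorem abs_integral_lam_le {α β K : ℝ} {lam : ℝ → ℝ}
    (hK : ∀ σ ∈ Set.Icc α β, |lam σ| ≤ K) {t₀ t₁ c τ : ℝ} (h0 : α ≤ t₀) (h1 : t₁ ≤ β)
    (hc : c ∈ Set.Icc t₀ t₁) (hτ : τ ∈ Set.Icc t₀ t₁) :
    |∫ σ in c..τ, lam σ| ≤ K * (t₁ - t₀) := by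
  have hK0 : 0 ≤ K := (abs_nonneg _).trans (hK c ⟨h0.trans hc.1, hc.2.trans h1⟩)
  have := intervalIntegral.norm_integral_le_of_norm_le_const (a := c) (b := τ) (f := lam)
    (C := K) ?_
  · rw [Real.norm_eq_abs] at this
    refine this.trans (mul_le_mul_of_nonneg_left ?_ hK0)
    rw [abs_le]
    constructor <;> linarith [hc.1, hc.2, hτ.1, hτ.2]
  · intro x hx
    have hx' := Set.uIoc_subset_uIcc hx
    have := Set.uIcc_subset_Icc hc hτ hx'
    exact hK x ⟨h0.trans this.1, this.2.trans h1⟩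

theorem abs_integral_lam_mul_sub_le {α β K : ℝ} {lam : ℝ → ℝ}
    (hlam : ContinuousOn lam (Set.Icc α β))
    (hK : ∀ σ ∈ Set.Icc α β, |lam σ| ≤ K) {t₀ t₁ c τ T : ℝ} (h0 : α ≤ t₀) (h1 : t₁ ≤ β)
    (hc : c ∈ Set.Icc t₀ t₁) (hτ : τ ∈ Set.Icc t₀ t₁) (hT : T ∈ Set.Icc t₀ t₁) :
    |(∫ σ in c..τ, lam σ * σ) - T * ∫ σ in c..τ, lam σ| ≤ K * (t₁ - t₀) ^ 2 := by
  have hK0 : 0 ≤ K := (abs_nonneg _).trans (hK c ⟨h0.trans hc.1, hc.2.trans h1⟩)
  have hsub : Set.uIcc c τ ⊆ Set.Icc α β := by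
    intro x hx
    have := Set.uIcc_subset_Icc hc hτ hx
    exact ⟨h0.trans this.1, this.2.trans h1⟩
  have hl1 : IntervalIntegrable lam volume c τ := (hlam.mono hsub).intervalIntegrable
  have hl2 : IntervalIntegrable (fun σ => lam σ * σ) volume c τ :=
    ((hlam.mono hsub).mul continuousOn_id).intervalIntegrable
  have e : (∫ σ in c..τ, lam σ * σ) - T * ∫ σ in c..τ, lam σ
      = ∫ σ in c..τ, lam σ * (σ - T) := by
    rw [← intervalIntegral.integral_const_mul, ← intervalIntegral.integral_sub hl2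
      (hl1.const_mul T)]
    congr 1
    funext σ
    ring
  rw [e]
  have := intervalIntegral.norm_integral_le_of_norm_le_const (a := c) (b := τ)
    (f := fun σ => lam σ * (σ - T)) (C := K * (t₁ - t₀)) ?_
  · rw [Real.norm_eq_abs] at this
    refine this.trans ?_
    have h2 : |τ - c| ≤ t₁ - t₀ := by
      rw [abs_le]
      constructor <;> linarith [hc.1, hc.2, hτ.1, hτ.2]
    have h3 : 0 ≤ t₁ - t₀ := by linarith [hc.1, hc.2]
    calc K * (t₁ - t₀) * |τ - c| ≤ K * (t₁ - t₀) * (t₁ - t₀) :=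
          mul_le_mul_of_nonneg_left h2 (by positivity)
      _ = K * (t₁ - t₀) ^ 2 := by ring
  · intro x hx
    have hx' := Set.uIoc_subset_uIcc hx
    have hx2 := Set.uIcc_subset_Icc hc hτ hx'
    rw [Real.norm_eq_abs, abs_mul]
    have h2 : |x - T| ≤ t₁ - t₀ := by
      rw [abs_le]
      constructor <;> linarith [hx2.1, hx2.2, hT.1, hT.2]
    exact mul_le_mul (hK x (hsub hx')) h2 (abs_nonneg _) hK0

/-- The planar wedge computation: a point whose `(a, b)`-coordinates satisfy the three linear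
inequalities is a convex combination of the three vertices. -/
theorem wedge_combination {t₀ t₁ μ Y ξ ζ : ℝ} (ht : t₀ < t₁) (hY : 0 < Y)
    (h1 : ξ + μ ≤ Y) (h2 : t₀ * (ξ + μ) ≤ ζ + μ * ((t₀ + t₁) / 2))
    (h3 : ζ + μ * ((t₀ + t₁) / 2) ≤ t₁ * (ξ + μ)) :
    ∃ l₁ l₂ : ℝ, 0 ≤ l₁ ∧ 0 ≤ l₂ ∧ l₁ + l₂ ≤ 1 ∧ (l₁ + l₂) * Y = ξ + μ ∧
      (l₁ * t₀ + l₂ * t₁) * Y = ζ + μ * ((t₀ + t₁) / 2) := by
  have hh : 0 < t₁ - t₀ := sub_pos.mpr ht
  have hYh : 0 < Y * (t₁ - t₀) := mul_pos hY hh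
  refine ⟨(t₁ * (ξ + μ) - (ζ + μ * ((t₀ + t₁) / 2))) / (Y * (t₁ - t₀)),
    ((ζ + μ * ((t₀ + t₁) / 2)) - t₀ * (ξ + μ)) / (Y * (t₁ - t₀)), ?_, ?_, ?_, ?_, ?_⟩
  · exact div_nonneg (by linarith) hYh.le
  · exact div_nonneg (by linarith) hYh.le
  · rw [← add_div, div_le_one hYh]
    nlinarith
  · field_simp
    ring
  · field_simp
    ring

/-- real inequalities placing the shadow point inside the wedge -/
theorem wedge_ineqs {t₀ t₁ τ ρ s L K Λ M X : ℝ} (ht : t₀ < t₁) (hτ : τ ∈ Set.Icc t₀ t₁)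
    (hρ0 : 0 ≤ ρ) (hρX : ρ ≤ X) (hs : |s| ≤ L) (hK : 0 ≤ K)
    (hΛ : |Λ| ≤ K * (t₁ - t₀)) (hM0 : |M - t₀ * Λ| ≤ K * (t₁ - t₀) ^ 2)
    (hM1 : |M - t₁ * Λ| ≤ K * (t₁ - t₀) ^ 2) :
    (ρ + s * Λ) + 4 * L * K * (t₁ - t₀) ≤ X + 5 * L * K * (t₁ - t₀) ∧
    t₀ * ((ρ + s * Λ) + 4 * L * K * (t₁ - t₀)) ≤
      (ρ * τ + s * M) + 4 * L * K * (t₁ - t₀) * ((t₀ + t₁) / 2) ∧
    (ρ * τ + s * M) + 4 * L * K * (t₁ - t₀) * ((t₀ + t₁) / 2) ≤
      t₁ * ((ρ + s * Λ) + 4 * L * K * (t₁ - t₀)) := by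
  have hL : 0 ≤ L := (abs_nonneg _).trans hs
  have hh : 0 < t₁ - t₀ := sub_pos.mpr ht
  have b1 : |s * Λ| ≤ L * (K * (t₁ - t₀)) := by
    rw [abs_mul]; exact mul_le_mul hs hΛ (abs_nonneg _) hL
  have b2 : |s * (M - t₀ * Λ)| ≤ L * (K * (t₁ - t₀) ^ 2) := by
    rw [abs_mul]; exact mul_le_mul hs hM0 (abs_nonneg _) hL
  have b3 : |s * (M - t₁ * Λ)| ≤ L * (K * (t₁ - t₀) ^ 2) := by
    rw [abs_mul]; exact mul_le_mul hs hM1 (abs_nonneg _) hL
  rw [abs_le] at b1 b2 b3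
  have c1 : 0 ≤ ρ * (τ - t₀) := mul_nonneg hρ0 (by linarith [hτ.1])
  have c2 : 0 ≤ ρ * (t₁ - τ) := mul_nonneg hρ0 (by linarith [hτ.2])
  have c3 : 0 ≤ L * (K * (t₁ - t₀) ^ 2) := by positivity
  refine ⟨by nlinarith [b1.2], ?_, ?_⟩
  · nlinarith [b2.1]
  · nlinarith [b3.2]

end Crest.Agent.S0328
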