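import Mathlib
import Crest.Agent.Cyl.S0328_Piece

set_option autoImplicit false

namespace Crest.Agent.S0328
open MeasureTheory

theorem cyl_mem {n P u v z : E3} {l₁ l₂ : ℝ} (h1 : 0 ≤ l₁) (h2 : 0 ≤ l₂) (h12 : l₁ + l₂ ≤ 1)
    (hz : z = P + l₁ • u + l₂ • v) (s : ℝ) :
    ∃ y ∈ convexHull ℝ {proj n P, proj n (P + u), proj n (P + v)}, ∃ σ : ℝ,
      z + s • n = y + σ • n := by
  refine ⟨proj n z, ?_, inner ℝ z n / ‖n‖ ^ 2 + s, ?_⟩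
  · rw [mem_convexHull_triple_iff]
    refine ⟨l₁, l₂, h1, h2, h12, ?_⟩
    rw [hz]
    simp only [proj_add, proj_smul]
    module
  · unfold proj
    module

/-- apex of the covering triangle (in the plane `e^⊥`) -/
noncomputable def vP (p₀ a b : E3) (μ t₀ t₁ : ℝ) : E3 := p₀ - μ • (a + ((t₀ + t₁) / 2) • b)

theorem upper_cover {a b p₀ e : E3} {α β : ℝ} {w : ℝ → E3} {lam : ℝ → ℝ}
    (hlam : ContinuousOn lam (Set.Icc α β))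
    (hw' : ∀ t ∈ Set.Icc α β, HasDerivWithinAt w (lam t • (a + t • b)) (Set.Icc α β) t)
    {K : ℝ} (hK : ∀ σ ∈ Set.Icc α β, |lam σ| ≤ K) {L : ℝ}
    {t₀ t₁ c : ℝ} (ht : t₀ < t₁) (h0 : α ≤ t₀) (h1 : t₁ ≤ β) (hc : c ∈ Set.Icc t₀ t₁)
    {X : ℝ} (hX : 0 < X)
    {τ ρ s : ℝ} (hτ : τ ∈ Set.Icc t₀ t₁) (hρ0 : 0 ≤ ρ) (hρX : ρ ≤ X) (hs : |s| ≤ L) :
    ∃ y ∈ convexHull ℝ {proj (e + w c) (vP p₀ a b (4 * L * K * (t₁ - t₀)) t₀ t₁),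
        proj (e + w c) (vP p₀ a b (4 * L * K * (t₁ - t₀)) t₀ t₁ +
          (X + 5 * L * K * (t₁ - t₀)) • (a + t₀ • b)),
        proj (e + w c) (vP p₀ a b (4 * L * K * (t₁ - t₀)) t₀ t₁ +
          (X + 5 * L * K * (t₁ - t₀)) • (a + t₁ • b))},
      ∃ σ : ℝ, p₀ + ρ • (a + τ • b) + s • (e + w τ) = y + σ • (e + w c) := by
  have hcI : c ∈ Set.Icc α β := ⟨h0.trans hc.1, hc.2.trans h1⟩
  have hτI : τ ∈ Set.Icc α β := ⟨h0.trans hτ.1, hτ.2.trans h1⟩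
  have hK0 : 0 ≤ K := (abs_nonneg _).trans (hK c hcI)
  have hL : 0 ≤ L := (abs_nonneg _).trans hs
  have hh : 0 < t₁ - t₀ := sub_pos.mpr ht
  set Λ := ∫ σ in c..τ, lam σ with hΛdef
  set M := ∫ σ in c..τ, lam σ * σ with hMdef
  have hw := w_sub_eq hlam hw' hcI hτI
  rw [← hΛdef, ← hMdef] at hw
  have hΛ : |Λ| ≤ K * (t₁ - t₀) := abs_integral_lam_le hK h0 h1 hc hτ
  have hM0 : |M - t₀ * Λ| ≤ K * (t₁ - t₀) ^ 2 :=
    abs_integral_lam_mul_sub_le hlam hK h0 h1 hc hτ ⟨le_refl _, ht.le⟩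
  have hM1 : |M - t₁ * Λ| ≤ K * (t₁ - t₀) ^ 2 :=
    abs_integral_lam_mul_sub_le hlam hK h0 h1 hc hτ ⟨ht.le, le_refl _⟩
  obtain ⟨i1, i2, i3⟩ := wedge_ineqs ht hτ hρ0 hρX hs hK0 hΛ hM0 hM1
  have hY : 0 < X + 5 * L * K * (t₁ - t₀) := by positivity
  obtain ⟨l₁, l₂, hl1, hl2, hl12, e1, e2⟩ := wedge_combination ht hY i1 i2 i3
  have hwτ : w τ = w c + Λ • a + M • b := by
    rw [add_assoc, ← hw]; abel
  have hx : p₀ + ρ • (a + τ • b) + s • (e + w τ)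
      = (p₀ + (ρ + s * Λ) • a + (ρ * τ + s * M) • b) + s • (e + w c) := by
    rw [hwτ]; module
  rw [hx]
  apply cyl_mem hl1 hl2 hl12
  have hξ : ρ + s * Λ = (l₁ + l₂) * (X + 5 * L * K * (t₁ - t₀)) - 4 * L * K * (t₁ - t₀) := by
    linarith
  have hζ : ρ * τ + s * M = (l₁ * t₀ + l₂ * t₁) * (X + 5 * L * K * (t₁ - t₀))
      - 4 * L * K * (t₁ - t₀) * ((t₀ + t₁) / 2) := by linarith
  rw [hξ, hζ]
  unfold vP
  module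

theorem lower_cover {a b p₀ n : E3} {t₀ t₁ r : ℝ} (ht : t₀ < t₁) (hr : 0 ≤ r) {y : E3}
    (hy : y ∈ convexHull ℝ {proj n p₀, proj n (p₀ + r • (a + t₀ • b)),
      proj n (p₀ + r • (a + t₁ • b))}) :
    ∃ τ ∈ Set.Icc t₀ t₁, ∃ ρ ∈ Set.Icc 0 r, y = proj n (p₀ + ρ • (a + τ • b)) := by
  rw [mem_convexHull_triple_iff] at hy
  obtain ⟨l₁, l₂, h1, h2, h12, rfl⟩ := hy
  by_cases hl : l₁ + l₂ = 0
  · have e1 : l₁ = 0 := by linarith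
    have e2 : l₂ = 0 := by linarith
    refine ⟨t₀, ⟨le_refl _, ht.le⟩, 0, ⟨le_refl _, hr⟩, ?_⟩
    simp [e1, e2]
  · have hpos : 0 < l₁ + l₂ := lt_of_le_of_ne (by positivity) (Ne.symm hl)
    refine ⟨(l₁ * t₀ + l₂ * t₁) / (l₁ + l₂), ⟨?_, ?_⟩, (l₁ + l₂) * r, ⟨by positivity, ?_⟩, ?_⟩
    · rw [le_div_iff₀ hpos]; nlinarith
    · rw [div_le_iff₀ hpos]; nlinarith
    · nlinarith
    · have e : ((l₁ + l₂) * r) * ((l₁ * t₀ + l₂ * t₁) / (l₁ + l₂)) = r * (l₁ * t₀ + l₂ * t₁) := by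
        field_simp
      have e' : ((l₁ + l₂) * r) • (a + ((l₁ * t₀ + l₂ * t₁) / (l₁ + l₂)) • b)
          = ((l₁ + l₂) * r) • a + (r * (l₁ * t₀ + l₂ * t₁)) • b := by
        rw [smul_add, smul_smul, e]
      rw [e']
      simp only [proj_add, proj_smul]
      module

end Crest.Agent.S0328
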