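import Mathlib
import Crest.Agent.Cyl.Area
import Crest.Agent.Cyl.S0328_Cover

set_option autoImplicit false

namespace Crest.Agent.S0328
open MeasureTheory

theorem gram_proj_tri {e a b w : E3} (he : ‖e‖ = 1) (ha : inner ℝ a e = 0)
    (hb : inner ℝ b e = 0) (hw : inner ℝ w e = 0) (P : E3) (Y t₀ t₁ : ℝ) :
    gram (proj (e + w) (P + Y • (a + t₀ • b)) - proj (e + w) P)
      (proj (e + w) (P + Y • (a + t₁ • b)) - proj (e + w) P)
      = Y ^ 4 * (t₁ - t₀) ^ 2 * gram a b / (1 + ‖w‖ ^ 2) := by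
  rw [proj_add, proj_add, add_sub_cancel_left, add_sub_cancel_left,
    gram_proj he _ _ hw, gram_wedge]
  · simp [inner_add_left, inner_smul_left, ha, hb]
  · simp [inner_add_left, inner_smul_left, ha, hb]

theorem area_tri_toReal (p q r : E3) :
    (μHE[2] (convexHull ℝ ({p, q, r} : Set E3))).toReal = Real.sqrt (gram (q - p) (r - p)) / 2 :=
  Crest.Agent.Cyl.area_triangle_toReal p q r

theorem area_tri_ne_top (p q r : E3) : μHE[2] (convexHull ℝ ({p, q, r} : Set E3)) ≠ ⊤ := by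
  rw [Crest.Agent.Cyl.area_triangle]
  exact ENNReal.ofReal_ne_top

theorem area_proj_tri {e a b w : E3} (he : ‖e‖ = 1) (ha : inner ℝ a e = 0)
    (hb : inner ℝ b e = 0) (hw : inner ℝ w e = 0) (P : E3) (Y : ℝ) {t₀ t₁ : ℝ} (ht : t₀ ≤ t₁) :
    (μHE[2] (convexHull ℝ ({proj (e + w) P, proj (e + w) (P + Y • (a + t₀ • b)),
      proj (e + w) (P + Y • (a + t₁ • b))} : Set E3))).toReal
      = Real.sqrt (gram a b) * (Y ^ 2 / (2 * Real.sqrt (1 + ‖w‖ ^ 2)) * (t₁ - t₀)) := by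
  rw [area_tri_toReal, gram_proj_tri he ha hb hw]
  have h1 : Y ^ 4 * (t₁ - t₀) ^ 2 * gram a b / (1 + ‖w‖ ^ 2)
      = (Y ^ 2 * (t₁ - t₀)) ^ 2 * (gram a b / (1 + ‖w‖ ^ 2)) := by ring
  have h2 : 0 ≤ Y ^ 2 * (t₁ - t₀) := mul_nonneg (sq_nonneg _) (sub_nonneg.mpr ht)
  rw [h1, Real.sqrt_mul (sq_nonneg _), Real.sqrt_sq h2, Real.sqrt_div (gram_nonneg a b)]
  ring

theorem proj_of_inner_zero {n y : E3} (h : inner ℝ y n = 0) : proj n y = y := by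
  unfold proj
  rw [h]; simp

theorem proj_eq_of_cyl {n p q r x y : E3} (hn : n ≠ 0) (hp : inner ℝ p n = 0)
    (hq : inner ℝ q n = 0) (hr : inner ℝ r n = 0) (hy : y ∈ convexHull ℝ {p, q, r}) {σ : ℝ}
    (hx : x = y + σ • n) : proj n x = y := by
  rw [hx, proj_add, proj_smul, proj_self hn, smul_zero, add_zero]
  apply proj_of_inner_zero
  rw [mem_convexHull_triple_iff] at hy
  obtain ⟨l₁, l₂, -, -, -, rfl⟩ := hy
  simp [inner_add_left, inner_smul_left, inner_sub_left, hp, hq, hr]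

theorem sq_close {Rc y Rb ε' : ℝ} (h0 : 0 ≤ Rc) (hRb : Rc ≤ Rb) (hy0 : 0 ≤ y)
    (hy : |y - Rc| ≤ ε') (hε' : ε' ≤ 1) : |y ^ 2 - Rc ^ 2| ≤ ε' * (2 * Rb + 1) := by
  have e : y ^ 2 - Rc ^ 2 = (y - Rc) * (y + Rc) := by ring
  rw [e, abs_mul]
  have h1 : |y + Rc| ≤ 2 * Rb + 1 := by
    rw [abs_of_nonneg (by positivity)]
    have := (abs_le.mp hy).2
    linarith
  exact mul_le_mul hy h1 (abs_nonneg _) ((abs_nonneg _).trans hy)

theorem term_close {Rc y Rb ε' ε W h : ℝ} (h0 : 0 ≤ Rc) (hRb : Rc ≤ Rb) (hy0 : 0 ≤ y)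
    (hy : |y - Rc| ≤ ε') (hε' : ε' ≤ 1) (hε : ε' * (Rb + 1) ≤ ε) (hW : 0 ≤ W) (hh : 0 ≤ h) :
    |y ^ 2 / (2 * Real.sqrt (1 + W)) * h - Rc ^ 2 / (2 * Real.sqrt (1 + W)) * h| ≤ ε * h := by
  have hs : 1 ≤ Real.sqrt (1 + W) := by
    rw [Real.one_le_sqrt]; linarith
  have e : y ^ 2 / (2 * Real.sqrt (1 + W)) * h - Rc ^ 2 / (2 * Real.sqrt (1 + W)) * h
      = (y ^ 2 - Rc ^ 2) / (2 * Real.sqrt (1 + W)) * h := by ring
  rw [e, abs_mul, abs_of_nonneg hh, abs_div, abs_of_pos (by positivity : 0 < 2 * Real.sqrt (1 + W))]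
  apply mul_le_mul_of_nonneg_right _ hh
  rw [div_le_iff₀ (by positivity)]
  have h1 := sq_close h0 hRb hy0 hy hε'
  have hε'0 : 0 ≤ ε' := (abs_nonneg _).trans hy
  have hRb0 : 0 ≤ Rb := h0.trans hRb
  have hε0 : 0 ≤ ε := le_trans (by positivity) hε
  nlinarith

end Crest.Agent.S0328
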