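import Mathlib

set_option autoImplicit false

namespace Crest.Agent.S0328
open MeasureTheory

theorem partition_mem_Icc {N : ℕ} {t : Fin (N + 1) → ℝ} (ht : StrictMono t) {α β : ℝ}
    (h0 : t 0 = α) (hN : t (Fin.last N) = β) (j : Fin (N + 1)) : t j ∈ Set.Icc α β :=
  ⟨h0 ▸ ht.monotone (Fin.zero_le j), hN ▸ ht.monotone (Fin.le_last j)⟩

theorem sum_integral_partition (f : ℝ → ℝ) : ∀ {N : ℕ} (t : Fin (N + 1) → ℝ)
    (_hf : ∀ i j, IntervalIntegrable f volume (t i) (t j)),
    ∑ i : Fin N, ∫ x in t i.castSucc..t i.succ, f x = ∫ x in t 0..t (Fin.last N), f x := by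
  intro N
  induction N with
  | zero => intro t _; simp
  | succ N ih =>
    intro t hf
    rw [Fin.sum_univ_castSucc]
    have := ih (fun j => t j.castSucc) (fun i j => hf _ _)
    simp only [Fin.succ_castSucc] at this ⊢
    rw [this]
    have h0 : (0 : Fin (N + 1)).castSucc = (0 : Fin (N + 1 + 1)) := rfl
    rw [h0, Fin.succ_last]
    exact intervalIntegral.integral_add_adjacent_intervals (hf _ _) (hf _ _)

theorem sum_length_partition {N : ℕ} (t : Fin (N + 1) → ℝ) :
    ∑ i : Fin N, (t i.succ - t i.castSucc) = t (Fin.last N) - t 0 := by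
  have := sum_integral_partition (fun _ => (1 : ℝ)) t (fun i j => by simp)
  simpa using this

/-- every point of `[α, β]` lies in a piece of the partition. -/
theorem exists_piece {N : ℕ} {t : Fin (N + 1) → ℝ} (ht : StrictMono t) {α β : ℝ}
    (hαβ : α < β) (h0 : t 0 = α) (hN : t (Fin.last N) = β) {τ : ℝ} (hτ : τ ∈ Set.Icc α β) :
    ∃ i : Fin N, τ ∈ Set.Icc (t i.castSucc) (t i.succ) := by
  have key : ∀ k : Fin (N + 1), τ ≤ t k →
      τ ≤ t 0 ∨ ∃ i : Fin N, τ ∈ Set.Icc (t i.castSucc) (t i.succ) := by
    intro k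
    induction k using Fin.induction with
    | zero => intro h; exact Or.inl h
    | succ i ih =>
      intro h
      by_cases h' : τ ≤ t i.castSucc
      · exact ih h'
      · exact Or.inr ⟨i, ⟨le_of_lt (not_le.mp h'), h⟩⟩
  rcases key (Fin.last N) (hN ▸ hτ.2) with h | h
  · have hN0 : N ≠ 0 := by
      rintro rfl
      have : t 0 = t (Fin.last 0) := rfl
      rw [h0, hN] at this
      exact absurd this hαβ.ne
    obtain ⟨M, rfl⟩ := Nat.exists_eq_succ_of_ne_zero hN0
    refine ⟨0, ?_, ?_⟩
    · rw [Fin.castSucc_zero, h0]; exact hτ.1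
    · exact h.trans (ht.monotone (Fin.zero_le _))
  · exact h

theorem riemann_sum_close {α β : ℝ} (hαβ : α < β) {f : ℝ → ℝ}
    (hf : ContinuousOn f (Set.Icc α β)) {ε : ℝ} (hε : 0 < ε) :
    ∃ δ : ℝ, 0 < δ ∧ ∀ (N : ℕ) (t : Fin (N + 1) → ℝ) (c : Fin N → ℝ), StrictMono t → t 0 = α →
      t (Fin.last N) = β → (∀ i : Fin N, t i.succ - t i.castSucc ≤ δ) →
      (∀ i : Fin N, t i.castSucc ≤ c i ∧ c i ≤ t i.succ) →
      ∀ v : Fin N → ℝ,
        (∀ i, |v i - f (c i) * (t i.succ - t i.castSucc)| ≤ ε * (t i.succ - t i.castSucc)) →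
        |∑ i, v i - ∫ x in α..β, f x| ≤ 2 * ε * (β - α) := by
  have huc := isCompact_Icc.uniformContinuousOn_of_continuous hf
  rw [Metric.uniformContinuousOn_iff] at huc
  obtain ⟨δ₀, hδ₀, hδ⟩ := huc ε hε
  refine ⟨δ₀ / 2, by positivity, ?_⟩
  intro N t c ht h0 hN hmesh hc v hv
  have hmem := partition_mem_Icc ht h0 hN
  have hint : ∀ i j, IntervalIntegrable f volume (t i) (t j) := by
    intro i j
    apply ContinuousOn.intervalIntegrable
    apply hf.mono
    exact Set.uIcc_subset_Icc (hmem i) (hmem j)
  have hsum := sum_integral_partition f t hint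
  rw [h0, hN] at hsum
  have hlen := sum_length_partition t
  rw [h0, hN] at hlen
  rw [← hsum, ← Finset.sum_sub_distrib]
  calc |∑ i, (v i - ∫ x in t i.castSucc..t i.succ, f x)|
      ≤ ∑ i, |v i - ∫ x in t i.castSucc..t i.succ, f x| := Finset.abs_sum_le_sum_abs _ _
    _ ≤ ∑ i : Fin N, 2 * ε * (t i.succ - t i.castSucc) := by
        apply Finset.sum_le_sum
        intro i _
        have hlt : t i.castSucc < t i.succ := ht (Fin.castSucc_lt_succ)
        have h1 : |f (c i) * (t i.succ - t i.castSucc) - ∫ x in t i.castSucc..t i.succ, f x|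
            ≤ ε * (t i.succ - t i.castSucc) := by
          have e1 : f (c i) * (t i.succ - t i.castSucc) - ∫ x in t i.castSucc..t i.succ, f x
              = ∫ x in t i.castSucc..t i.succ, (f (c i) - f x) := by
            rw [intervalIntegral.integral_sub (by simp) (hint _ _)]
            simp [mul_comm]
          rw [e1]
          have := intervalIntegral.norm_integral_le_of_norm_le_const
            (a := t i.castSucc) (b := t i.succ) (f := fun x => f (c i) - f x) (C := ε) ?_
          · rw [Real.norm_eq_abs, abs_of_pos (sub_pos.mpr hlt)] at this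
            exact this
          · intro x hx
            rw [Set.uIoc_of_le hlt.le] at hx
            have hcm : c i ∈ Set.Icc α β :=
              ⟨(hmem _).1.trans (hc i).1, (hc i).2.trans (hmem _).2⟩
            have hxm : x ∈ Set.Icc α β :=
              ⟨(hmem _).1.trans hx.1.le, hx.2.trans (hmem _).2⟩
            have hd : dist (c i) x < δ₀ := by
              rw [Real.dist_eq, abs_lt]
              have := hmesh i
              have := (hc i).1
              have := (hc i).2
              have := hx.1
              have := hx.2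
              constructor <;> linarith
            have := hδ _ hcm _ hxm hd
            rw [Real.dist_eq] at this
            exact this.le
        have h2 := hv i
        calc |v i - ∫ x in t i.castSucc..t i.succ, f x|
            = |(v i - f (c i) * (t i.succ - t i.castSucc)) +
                (f (c i) * (t i.succ - t i.castSucc) - ∫ x in t i.castSucc..t i.succ, f x)| := by
              congr 1; ring
          _ ≤ _ := abs_add_le _ _
          _ ≤ _ := by linarith
    _ = 2 * ε * (β - α) := by rw [← Finset.mul_sum, hlen]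

end Crest.Agent.S0328
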