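import Crest.Agent.Cyl.TetraDefs
import Crest.Agent.Cyl.Fan
import Crest.Agent.Cyl.MinProj

/-!
# Row 211: the standard regular tetrahedron, results of modules M1 (MinProj, helper12) and M2 (Fan, helper13)
(`K`, `triCyl`, `K_subset` live in `TetraDefs.lean`.)
-/

set_option autoImplicit false
open MeasureTheory
open scoped ENNReal

namespace Crest.Agent.Cyl

/-- M1 (a) -/
theorem minproj (v : E3) (hv : ‖v‖ = 1) :
    ENNReal.ofReal (Real.sqrt 2) ≤ μHE[2] ((fun y => y - inner ℝ y v • v) '' K) :=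
  MinProj.minproj_ge v hv

/-- M1 (b) -/
theorem minproj_eq : ∃ v : E3, ‖v‖ = 1 ∧
    μHE[2] ((fun y => y - inner ℝ y v • v) '' K) = ENNReal.ofReal (Real.sqrt 2) :=
  MinProj.minproj_eq

/-- M1 (c) -/
theorem proj_K_lt_top (v : E3) (hv : ‖v‖ = 1) :
    μHE[2] ((fun y => y - inner ℝ y v • v) '' K) < ⊤ :=
  MinProj.minproj_lt_top v hv

/-- M2: the fan cover. -/
theorem fan_cover : ∃ (m : ℕ) (u p q r : Fin m → E3), m ≤ 1000000 ∧
    (∀ i, ‖u i‖ = 1) ∧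
    (∀ i, inner ℝ (p i) (u i) = 0 ∧ inner ℝ (q i) (u i) = 0 ∧ inner ℝ (r i) (u i) = 0) ∧
    K ⊆ ⋃ i, triCyl (u i) (p i) (q i) (r i) ∧
    ∑ i, (μHE[2] (convexHull ℝ ({p i, q i, r i} : Set E3))).toReal
      ≤ Real.sqrt 2 * (1 / 2 - 1 / 10 ^ 7) := Fan.fan_cover'

end Crest.Agent.Cyl
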